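import Crest.Agent.R278.MulOk

set_option autoImplicit false

namespace Crest.Agent.R278

section gen

variable {R : Type} [CommRing R]

/-- coordinates of a function on `Fin 6` -/
def toV (a : Fin 6 → R) : V6 R := ⟨a 0, a 1, a 2, a 3, a 4, a 5⟩

omit [CommRing R] in
theorem toV_get (a : V6 R) : toV a.get = a := rfl

omit [CommRing R] in
theorem get_toV (a : Fin 6 → R) : (toV a).get = a := by
  ext i; fin_cases i <;> rfl

/-- plain ring operations -/
abbrev o0 (R : Type) [CommRing R] : Ops R := oR 0 0 0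

theorem mulXY (n : N8 R) (a : V6 R) :
    mulX (o0 R) n (mulY (o0 R) n a) = mulY (o0 R) n (mulX (o0 R) n a) := by
  ext <;> simp only [mulX, mulY, vadd, vsm, tx4, txy, txz, tyy, tyz, o0, oR, Nat.cast_zero,
    Nat.cast_one] <;> ring

theorem mulXZ (n : N8 R) (a : V6 R) :
    mulX (o0 R) n (mulZ (o0 R) n a) = mulZ (o0 R) n (mulX (o0 R) n a) := by
  ext <;> simp only [mulX, mulZ, vadd, vsm, tx4, txy, txz, tzz, tyz, o0, oR, Nat.cast_zero,
    Nat.cast_one] <;> ring

theorem mulYZ (n : N8 R) (a : V6 R) :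
    mulY (o0 R) n (mulZ (o0 R) n a) = mulZ (o0 R) n (mulY (o0 R) n a) := by
  ext <;> simp only [mulX, mulY, mulZ, vadd, vsm, tx4, txy, txz, tyy, tzz, tyz, o0, oR,
    Nat.cast_zero, Nat.cast_one] <;> ring

/-- multiplication by the generator as a linear map -/
def LX (n : N8 R) : Module.End R (Fin 6 → R) where
  toFun a := (mulX (o0 R) n (toV a)).get
  map_add' a b := by
    have : mulX (o0 R) n (toV (a + b)) =
        toV ((mulX (o0 R) n (toV a)).get + (mulX (o0 R) n (toV b)).get) := by
      ext <;> simp only [toV, V6.get, Pi.add_apply, Matrix.cons_val, mulX, vadd, vsm, o0, oR,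
        Nat.cast_zero] <;> ring
    rw [this, get_toV]
  map_smul' c a := by
    have : mulX (o0 R) n (toV (c • a)) = toV (c • (mulX (o0 R) n (toV a)).get) := by
      ext <;> simp only [toV, V6.get, Pi.smul_apply, smul_eq_mul, Matrix.cons_val, mulX, vadd,
        vsm, o0, oR, Nat.cast_zero] <;> ring
    rw [this, get_toV, RingHom.id_apply]

theorem LX_get (n : N8 R) (a : V6 R) : LX n a.get = (mulX (o0 R) n a).get := rfl

/-- multiplication by the generator as a linear map -/
def LY (n : N8 R) : Module.End R (Fin 6 → R) where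
  toFun a := (mulY (o0 R) n (toV a)).get
  map_add' a b := by
    have : mulY (o0 R) n (toV (a + b)) =
        toV ((mulY (o0 R) n (toV a)).get + (mulY (o0 R) n (toV b)).get) := by
      ext <;> simp only [toV, V6.get, Pi.add_apply, Matrix.cons_val, mulY, vadd, vsm, o0, oR,
        Nat.cast_zero] <;> ring
    rw [this, get_toV]
  map_smul' c a := by
    have : mulY (o0 R) n (toV (c • a)) = toV (c • (mulY (o0 R) n (toV a)).get) := by
      ext <;> simp only [toV, V6.get, Pi.smul_apply, smul_eq_mul, Matrix.cons_val, mulY, vadd,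
        vsm, o0, oR, Nat.cast_zero] <;> ring
    rw [this, get_toV, RingHom.id_apply]

theorem LY_get (n : N8 R) (a : V6 R) : LY n a.get = (mulY (o0 R) n a).get := rfl

/-- multiplication by the generator as a linear map -/
def LZ (n : N8 R) : Module.End R (Fin 6 → R) where
  toFun a := (mulZ (o0 R) n (toV a)).get
  map_add' a b := by
    have : mulZ (o0 R) n (toV (a + b)) =
        toV ((mulZ (o0 R) n (toV a)).get + (mulZ (o0 R) n (toV b)).get) := by
      ext <;> simp only [toV, V6.get, Pi.add_apply, Matrix.cons_val, mulZ, vadd, vsm, o0, oR,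
        Nat.cast_zero] <;> ring
    rw [this, get_toV]
  map_smul' c a := by
    have : mulZ (o0 R) n (toV (c • a)) = toV (c • (mulZ (o0 R) n (toV a)).get) := by
      ext <;> simp only [toV, V6.get, Pi.smul_apply, smul_eq_mul, Matrix.cons_val, mulZ, vadd,
        vsm, o0, oR, Nat.cast_zero] <;> ring
    rw [this, get_toV, RingHom.id_apply]

theorem LZ_get (n : N8 R) (a : V6 R) : LZ n a.get = (mulZ (o0 R) n a).get := rfl

theorem LXY (n : N8 R) : LX n * LY n = LY n * LX n :=
  LinearMap.ext fun a => congrArg V6.get (mulXY n (toV a))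

theorem LXZ (n : N8 R) : LX n * LZ n = LZ n * LX n :=
  LinearMap.ext fun a => congrArg V6.get (mulXZ n (toV a))

theorem LYZ (n : N8 R) : LY n * LZ n = LZ n * LY n :=
  LinearMap.ext fun a => congrArg V6.get (mulYZ n (toV a))

/-- the commutative algebra generated by the three operators -/
abbrev Op (n : N8 R) : Subalgebra R (Module.End R (Fin 6 → R)) :=
  Algebra.adjoin R {LX n, LY n, LZ n}

instance (n : N8 R) : IsMulCommutative (Op n) :=
  Algebra.isMulCommutative_adjoin R (by
    intro a ha b hb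
    simp only [Set.mem_insert_iff, Set.mem_singleton_iff] at ha hb
    rcases ha with rfl | rfl | rfl <;> rcases hb with rfl | rfl | rfl
    exacts [rfl, LXY n, LXZ n, (LXY n).symm, rfl, LYZ n, (LXZ n).symm, (LYZ n).symm, rfl])

def oX (n : N8 R) : Op n := ⟨LX n, Algebra.subset_adjoin (by simp)⟩
def oY (n : N8 R) : Op n := ⟨LY n, Algebra.subset_adjoin (by simp)⟩
def oZ (n : N8 R) : Op n := ⟨LZ n, Algebra.subset_adjoin (by simp)⟩

/-- the first basis vector -/
def e0 (R : Type) [CommRing R] : V6 R := ⟨1, 0, 0, 0, 0, 0⟩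

theorem cyc (n : N8 R) (a : V6 R) :
    a.c0 • (e0 R).get + a.c1 • LX n (e0 R).get + a.c2 • LX n (LX n (e0 R).get) +
      a.c3 • LX n (LX n (LX n (e0 R).get)) + a.c4 • LY n (e0 R).get + a.c5 • LZ n (e0 R).get =
      a.get := by
  simp only [LX_get, LY_get, LZ_get]
  ext i
  fin_cases i <;>
    simp [V6.get, e0, mulX, mulY, mulZ, vadd, vsm, oR]

theorem op_eq_zero (n : N8 R) (T : Op n) (h : T.1 (e0 R).get = 0) : T = 0 := by
  have hc : ∀ S : Op n, ∀ v, T.1 (S.1 v) = S.1 (T.1 v) := fun S v => by
    have : T * S = S * T := IsMulCommutative.is_comm.comm T S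
    exact congrArg (fun U : Op n => U.1 v) this
  have hX : ∀ v, T.1 (LX n v) = LX n (T.1 v) := hc (oX n)
  have hY : ∀ v, T.1 (LY n v) = LY n (T.1 v) := hc (oY n)
  have hZ : ∀ v, T.1 (LZ n v) = LZ n (T.1 v) := hc (oZ n)
  apply Subtype.ext
  refine LinearMap.ext fun v => ?_
  show T.1 v = 0
  rw [← get_toV v, ← cyc n (toV v)]
  simp only [map_add, map_smul, hX, hY, hZ, h, map_zero, smul_zero, add_zero]

end gen

open scoped IsMulCommutative

/-- the action of the polynomial ring -/
noncomputable def act (n : N8 PP) : MvPolynomial (Fin 3) PP →ₐ[PP] Op n :=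
  MvPolynomial.aeval ![oX n, oY n, oZ n]

theorem act_rel (n : N8 PP) : ∀ f ∈ relI n, act n f = 0 := by
  intro f hf
  have : relI n ≤ RingHom.ker (act n) := by
    rw [relI, Ideal.span_le]
    intro g hg
    simp only [Set.mem_insert_iff, Set.mem_singleton_iff] at hg
    rw [SetLike.mem_coe, RingHom.mem_ker]
    apply op_eq_zero
    rcases hg with rfl | rfl | rfl | rfl | rfl
    all_goals
      simp only [rels, pf, mM, N8.map, oR, act, map_add, map_mul, map_neg, MvPolynomial.aeval_X,
        MvPolynomial.aeval_C, Matrix.cons_val, Subalgebra.coe_add, Subalgebra.coe_mul,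
        Subalgebra.coe_neg, Subalgebra.coe_algebraMap, oX, oY, oZ, LinearMap.add_apply,
        LinearMap.neg_apply, Module.End.mul_apply, Module.algebraMap_end_apply, map_smul,
        LX_get, LY_get, LZ_get]
      ext1 i
      fin_cases i <;>
        simp [V6.get, e0, mulX, mulY, mulZ, vadd, vsm, tx4, txy, txz, tyy, tzz, tyz] <;> ring
  exact this hf

theorem emb_surj (n : N8 PP) : Function.Surjective (emb (aX n) (aY n) (aZ n)) := by
  have H := emb_hom n (aX n) (aY n) (aZ n) 1 (alg_rel n _ _ _)
  intro a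
  obtain ⟨f, rfl⟩ := Ideal.Quotient.mk_surjective a
  induction f using MvPolynomial.induction_on with
  | C c =>
    refine ⟨⟨c, 0, 0, 0, 0, 0⟩, ?_⟩
    simp only [emb, map_zero, zero_mul, add_zero]
    rfl
  | add p q hp hq =>
    obtain ⟨a, ha⟩ := hp
    obtain ⟨b, hb⟩ := hq
    exact ⟨_, (H.add ha hb).trans (map_add _ _ _).symm⟩
  | mul_X p i hp =>
    obtain ⟨a, ha⟩ := hp
    have : ∃ b, emb (aX n) (aY n) (aZ n) b = Ideal.Quotient.mk (relI n) (MvPolynomial.X i) := by
      fin_cases i
      · exact ⟨⟨0, 1, 0, 0, 0, 0⟩, by simp [emb, aX]⟩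
      · exact ⟨⟨0, 0, 0, 0, 1, 0⟩, by simp [emb, aY]⟩
      · exact ⟨⟨0, 0, 0, 0, 0, 1⟩, by simp [emb, aZ]⟩
    obtain ⟨b, hb⟩ := this
    exact ⟨_, (H.mul ha hb).trans (map_mul _ _ _).symm⟩

theorem emb_inj (n : N8 PP) : Function.Injective (emb (aX n) (aY n) (aZ n)) := by
  let ψ : Alg n →ₐ[PP] Op n := Ideal.Quotient.liftₐ (relI n) (act n) (act_rel n)
  have hX : ψ (aX n) = oX n := by simp [ψ, aX, act]
  have hY : ψ (aY n) = oY n := by simp [ψ, aY, act]
  have hZ : ψ (aZ n) = oZ n := by simp [ψ, aZ, act]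
  refine Function.LeftInverse.injective (g := fun b => toV ((ψ b).1 (e0 PP).get)) fun a => ?_
  have := cyc n a
  simp only [emb, map_add, map_mul, AlgHom.commutes, hX, hY, hZ, Subalgebra.coe_add,
    Subalgebra.coe_mul, Subalgebra.coe_algebraMap, oX, oY, oZ,
    LinearMap.add_apply, Module.End.mul_apply, Module.algebraMap_end_apply, pow_succ, pow_zero,
    one_mul]
  rw [this, toV_get]

/-- the coordinate isomorphism -/
noncomputable def embL (n : N8 PP) : (Fin 6 → PP) ≃ₗ[PP] Alg n :=
  LinearEquiv.ofBijective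
    { toFun := fun a => emb (aX n) (aY n) (aZ n) (toV a)
      map_add' := fun a b => by
        simp only [emb, toV, Pi.add_apply, map_add]; ring
      map_smul' := fun c a => by
        have hs : ∀ w : Alg n, c • w = algebraMap PP (Alg n) c * w := fun w => Algebra.smul_def c w
        rw [RingHom.id_apply, hs]
        simp only [emb, toV, Pi.smul_apply, smul_eq_mul, map_mul]
        ring }
    ⟨fun a b h => by
      have := emb_inj n h
      rw [← get_toV a, ← get_toV b, this],
     fun b => by
      obtain ⟨a, ha⟩ := emb_surj n b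
      exact ⟨a.get, ha⟩⟩

theorem alg_free (n : N8 PP) : Module.Free PP (Alg n) :=
  Module.Free.of_equiv (embL n)

theorem alg_finite (n : N8 PP) : Module.Finite PP (Alg n) :=
  Module.Finite.equiv (embL n)

theorem alg_finrank (n : N8 PP) : Module.finrank PP (Alg n) = 6 := by
  rw [← (embL n).finrank_eq]
  simp

end Crest.Agent.R278
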