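import Crest.Agent.R278.Ops

set_option autoImplicit false

namespace Crest.Agent.R278

variable {A : Type} [CommRing A]

/-- The ideal of `3 × 3` determinants of the Jacobian matrix on rows `(1, 2 or 4), 3, 5`. -/
def jacI (o : Ops A) (m : S10 A) (G : V5 (S10 A)) : Ideal A :=
  Ideal.span {t | ∃ (l1 l2 l4 : A) (a b c : V5 A),
    t = dl o l1 l2 l4 (jv o m G a) (jv o m G b) (jv o m G c)}

/-- The ideal of `2 × 2` minors of two vectors. -/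
def minV (a b : V5 A) : Ideal A :=
  Ideal.span {a.v1 * b.v2 - a.v2 * b.v1, a.v1 * b.v3 - a.v3 * b.v1, a.v1 * b.v4 - a.v4 * b.v1,
    a.v1 * b.v5 - a.v5 * b.v1, a.v2 * b.v3 - a.v3 * b.v2, a.v2 * b.v4 - a.v4 * b.v2,
    a.v2 * b.v5 - a.v5 * b.v2, a.v3 * b.v4 - a.v4 * b.v3, a.v3 * b.v5 - a.v5 * b.v3,
    a.v4 * b.v5 - a.v5 * b.v4}

def V5.smul (c : A) (a : V5 A) : V5 A := ⟨c * a.v1, c * a.v2, c * a.v3, c * a.v4, c * a.v5⟩

def V5.add (a b : V5 A) : V5 A :=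
  ⟨a.v1 + b.v1, a.v2 + b.v2, a.v3 + b.v3, a.v4 + b.v4, a.v5 + b.v5⟩

/-- A property of all ten entries. -/
def S10.All {α : Type} (Q : α → Prop) (e : S10 α) : Prop :=
  Q e.m12 ∧ Q e.m13 ∧ Q e.m14 ∧ Q e.m15 ∧ Q e.m23 ∧ Q e.m24 ∧ Q e.m25 ∧ Q e.m34 ∧ Q e.m35 ∧
    Q e.m45

end Crest.Agent.R278
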