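import Crest.Agent.R278.KDef
import Crest.Agent.R278.PfDef

set_option autoImplicit false

namespace Crest.Agent.R278

/-- Polynomial data: row `j`, entry `i` codes the coefficient of `p^i g^j` as `2|c| + sign`. -/
abbrev PD : Type := List (List ℕ)

def pos (c : ℕ) : ℕ := Nat.mul (Nat.div c 2) (Nat.sub 1 (Nat.mod c 2))
def ngt (c : ℕ) : ℕ := Nat.mul (Nat.div c 2) (Nat.mod c 2)

/-- The change of basis to the adapted basis. -/
structure SD (α : Type) where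
  (s10 s20 s21 s30 s31 s40 s41 s42 s43 s50 s51 s52 s53 s54 : α)

def SD.map {α β : Type} (f : α → β) (s : SD α) : SD β :=
  ⟨f s.s10, f s.s20, f s.s21, f s.s30, f s.s31, f s.s40, f s.s41, f s.s42, f s.s43, f s.s50,
    f s.s51, f s.s52, f s.s53, f s.s54⟩

def V6.map {α β : Type} (f : α → β) (a : V6 α) : V6 β :=
  ⟨f a.c0, f a.c1, f a.c2, f a.c3, f a.c4, f a.c5⟩

def V5.map {α β : Type} (f : α → β) (a : V5 α) : V5 β := ⟨f a.v1, f a.v2, f a.v3, f a.v4, f a.v5⟩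

def V6.nth {α : Type} (a : V6 α) : ℕ → α
  | 0 => a.c0
  | 1 => a.c1
  | 2 => a.c2
  | 3 => a.c3
  | 4 => a.c4
  | _ => a.c5

section generic

variable {α : Type} (o : Ops α)

noncomputable def row (f : ℕ → ℕ) (l : List ℕ) : α :=
  List.rec (o.cst 0) (fun c _ ih => o.add (o.cst (f c)) (o.mp ih)) l
noncomputable def rowD (f : ℕ → ℕ) (l : List ℕ) : α :=
  List.rec (o.cst 0) (fun _ cs ih => o.add (row o f cs) (o.mp ih)) l
noncomputable def rows (f : ℕ → ℕ) (l : PD) : α :=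
  List.rec (o.cst 0) (fun c _ ih => o.add (row o f c) (o.mg ih)) l
noncomputable def rowsP (f : ℕ → ℕ) (l : PD) : α :=
  List.rec (o.cst 0) (fun c _ ih => o.add (rowD o f c) (o.mg ih)) l
noncomputable def rowsG (f : ℕ → ℕ) (l : PD) : α :=
  List.rec (o.cst 0) (fun _ cs ih => o.add (rows o f cs) (o.mg ih)) l
noncomputable def pl (l : PD) : α := o.add (rows o pos l) (o.neg (rows o ngt l))
noncomputable def plP (l : PD) : α := o.add (rowsP o pos l) (o.neg (rowsP o ngt l))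
noncomputable def plG (l : PD) : α := o.add (rowsG o pos l) (o.neg (rowsG o ngt l))
noncomputable def pq (d : PD × PD) : α := o.add (pl o d.1) (o.mu (pl o d.2))
noncomputable def pqP (d : PD × PD) : α := o.add (plP o d.1) (o.mu (plP o d.2))
noncomputable def pqG (d : PD × PD) : α := o.add (plG o d.1) (o.mu (plG o d.2))

/-- Multiplication by `p^i g^j`. -/
noncomputable def mon (i j : ℕ) (a : α) : α :=
  Nat.rec (Nat.rec a (fun _ ih => o.mg ih) j) (fun _ ih => o.mp ih) i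

/-- Coordinates in the adapted basis. -/
def co (s : SD α) (a : V6 α) : V6 α :=
  ⟨o.add (o.add (o.add a.c0 (o.mul a.c1 s.s10)) (o.add (o.mul a.c4 s.s20) (o.mul a.c5 s.s30)))
     (o.add (o.mul a.c2 s.s40) (o.mul a.c3 s.s50)),
   o.add (o.add a.c1 (o.add (o.mul a.c4 s.s21) (o.mul a.c5 s.s31)))
     (o.add (o.mul a.c2 s.s41) (o.mul a.c3 s.s51)),
   o.add a.c4 (o.add (o.mul a.c2 s.s42) (o.mul a.c3 s.s52)),
   o.add a.c5 (o.add (o.mul a.c2 s.s43) (o.mul a.c3 s.s53)),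
   o.add a.c2 (o.mul a.c3 s.s54),
   a.c3⟩

/-- The skew matrix in coordinates. -/
def cM (n : N8 α) : S10 (V6 α) := mM (oA o n) (n.map (vinj o)) (vX o) (vY o) (vZ o)

/-- Its partial derivatives in coordinates. -/
def cG (n np ng : N8 α) : V5 (S10 (V6 α)) :=
  mG (oA o n) (n.map (vinj o)) (np.map (vinj o)) (ng.map (vinj o)) (vX o)

/-- The defect of an approximate derivation. -/
def eMat (n np ng : N8 α) (d : V5 (V6 α)) (k : V5 (V5 (V6 α))) : S10 (V6 α) :=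
  ssub (oA o n) (comb (oA o n) (cG o n np ng) d) (km (oA o n) k (cM o n))

/-- A Jacobian column in coordinates. -/
def cJ (n np ng : N8 α) (c : V5 (V6 α)) : V5 (V6 α) := jv (oA o n) (cM o n) (cG o n np ng) c

/-- The minor of two approximate derivations on `p, g`. -/
def cDet (n : N8 α) (a b : V5 (V6 α)) : V6 α :=
  (oA o n).add ((oA o n).mul a.v1 b.v2) ((oA o n).neg ((oA o n).mul a.v2 b.v1))

end generic

section rel

variable {α β : Type} {o : Ops α} {o' : Ops β} {R : α → β → Prop}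

def RV6 (R : α → β → Prop) (a : V6 α) (b : V6 β) : Prop :=
  R a.c0 b.c0 ∧ R a.c1 b.c1 ∧ R a.c2 b.c2 ∧ R a.c3 b.c3 ∧ R a.c4 b.c4 ∧ R a.c5 b.c5
def RV5 (R : α → β → Prop) (a : V5 α) (b : V5 β) : Prop :=
  R a.v1 b.v1 ∧ R a.v2 b.v2 ∧ R a.v3 b.v3 ∧ R a.v4 b.v4 ∧ R a.v5 b.v5
def RN8 (R : α → β → Prop) (a : N8 α) (b : N8 β) : Prop :=
  R a.n1 b.n1 ∧ R a.n2 b.n2 ∧ R a.n3 b.n3 ∧ R a.n4 b.n4 ∧ R a.n5 b.n5 ∧ R a.n6 b.n6 ∧
    R a.n7 b.n7 ∧ R a.n8 b.n8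
def RS10 (R : α → β → Prop) (a : S10 α) (b : S10 β) : Prop :=
  R a.m12 b.m12 ∧ R a.m13 b.m13 ∧ R a.m14 b.m14 ∧ R a.m15 b.m15 ∧ R a.m23 b.m23 ∧
    R a.m24 b.m24 ∧ R a.m25 b.m25 ∧ R a.m34 b.m34 ∧ R a.m35 b.m35 ∧ R a.m45 b.m45
def RSD (R : α → β → Prop) (a : SD α) (b : SD β) : Prop :=
  R a.s10 b.s10 ∧ R a.s20 b.s20 ∧ R a.s21 b.s21 ∧ R a.s30 b.s30 ∧ R a.s31 b.s31 ∧
    R a.s40 b.s40 ∧ R a.s41 b.s41 ∧ R a.s42 b.s42 ∧ R a.s43 b.s43 ∧ R a.s50 b.s50 ∧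
    R a.s51 b.s51 ∧ R a.s52 b.s52 ∧ R a.s53 b.s53 ∧ R a.s54 b.s54

macro "rel_tac " H:term : tactic =>
  `(tactic| repeat' (first
    | assumption
    | with_reducible exact Hom.cst $H _
    | with_reducible apply Hom.add $H
    | with_reducible apply Hom.mul $H
    | with_reducible apply Hom.neg $H
    | with_reducible apply Hom.mp $H
    | with_reducible apply Hom.mg $H
    | with_reducible apply Hom.mu $H))

theorem dpf_rel (H : Hom o o' R) {m : S10 (α)} {m' : S10 (β)} (hm : RS10 R m m') {e : S10 (α)} {e' : S10 (β)} (he : RS10 R e e') :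
    RV5 R (dpf o m e) (dpf o' m' e') := by
  obtain ⟨_, _, _, _, _, _, _, _, _, _⟩ := hm
  obtain ⟨_, _, _, _, _, _, _, _, _, _⟩ := he
  refine ⟨?_, ?_, ?_, ?_, ?_⟩ <;> dsimp only [dpf] <;> rel_tac H

theorem km_rel (H : Hom o o' R) {k : V5 (V5 (α))} {k' : V5 (V5 (β))} (hk : RV5 (RV5 R) k k') {m : S10 (α)} {m' : S10 (β)} (hm : RS10 R m m') :
    RS10 R (km o k m) (km o' k' m') := by
  obtain ⟨⟨_, _, _, _, _⟩, ⟨_, _, _, _, _⟩, ⟨_, _, _, _, _⟩, ⟨_, _, _, _, _⟩, ⟨_, _, _, _, _⟩⟩ := hk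
  obtain ⟨_, _, _, _, _, _, _, _, _, _⟩ := hm
  refine ⟨?_, ?_, ?_, ?_, ?_, ?_, ?_, ?_, ?_, ?_⟩ <;> dsimp only [km] <;> rel_tac H

theorem comb_rel (H : Hom o o' R) {G : V5 (S10 (α))} {G' : V5 (S10 (β))} (hG : RV5 (RS10 R) G G') {d : V5 (α)} {d' : V5 (β)} (hd : RV5 R d d') :
    RS10 R (comb o G d) (comb o' G' d') := by
  obtain ⟨⟨_, _, _, _, _, _, _, _, _, _⟩, ⟨_, _, _, _, _, _, _, _, _, _⟩, ⟨_, _, _, _, _, _, _, _, _, _⟩, ⟨_, _, _, _, _, _, _, _, _, _⟩, ⟨_, _, _, _, _, _, _, _, _, _⟩⟩ := hG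
  obtain ⟨_, _, _, _, _⟩ := hd
  refine ⟨?_, ?_, ?_, ?_, ?_, ?_, ?_, ?_, ?_, ?_⟩ <;> dsimp only [comb] <;> rel_tac H

theorem ssub_rel (H : Hom o o' R) {a : S10 (α)} {a' : S10 (β)} (ha : RS10 R a a') {b : S10 (α)} {b' : S10 (β)} (hb : RS10 R b b') :
    RS10 R (ssub o a b) (ssub o' a' b') := by
  obtain ⟨_, _, _, _, _, _, _, _, _, _⟩ := ha
  obtain ⟨_, _, _, _, _, _, _, _, _, _⟩ := hb
  refine ⟨?_, ?_, ?_, ?_, ?_, ?_, ?_, ?_, ?_, ?_⟩ <;> dsimp only [ssub] <;> rel_tac H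

theorem jv_rel (H : Hom o o' R) {m : S10 α} {m' : S10 β} (hm : RS10 R m m') {G : V5 (S10 α)}
    {G' : V5 (S10 β)} (hG : RV5 (RS10 R) G G') {d : V5 α} {d' : V5 β} (hd : RV5 R d d') :
    RV5 R (jv o m G d) (jv o' m' G' d') := dpf_rel H hm (comb_rel H hG hd)

theorem dl_rel (H : Hom o o' R) {l1 : α} {l1' : β} (hl1 : R l1 l1') {l2 : α} {l2' : β} (hl2 : R l2 l2') {l4 : α} {l4' : β} (hl4 : R l4 l4') {a : V5 (α)} {a' : V5 (β)} (ha : RV5 R a a') {b : V5 (α)} {b' : V5 (β)} (hb : RV5 R b b') {c : V5 (α)} {c' : V5 (β)} (hc : RV5 R c c') :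
    R (dl o l1 l2 l4 a b c) (dl o' l1' l2' l4' a' b' c') := by
  obtain ⟨_, _, _, _, _⟩ := ha
  obtain ⟨_, _, _, _, _⟩ := hb
  obtain ⟨_, _, _, _, _⟩ := hc
  dsimp only [dl, lrow, min35]
  rel_tac H

theorem mM_rel (H : Hom o o' R) {n : N8 (α)} {n' : N8 (β)} (hn : RN8 R n n') {x : α} {x' : β} (hx : R x x') {y : α} {y' : β} (hy : R y y') {z : α} {z' : β} (hz : R z z') :
    RS10 R (mM o n x y z) (mM o' n' x' y' z') := by
  obtain ⟨_, _, _, _, _, _, _, _⟩ := hn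
  refine ⟨?_, ?_, ?_, ?_, ?_, ?_, ?_, ?_, ?_, ?_⟩ <;> dsimp only [mM] <;> rel_tac H

theorem mG_rel (H : Hom o o' R) {n : N8 (α)} {n' : N8 (β)} (hn : RN8 R n n') {np : N8 (α)} {np' : N8 (β)} (hnp : RN8 R np np') {ng : N8 (α)} {ng' : N8 (β)} (hng : RN8 R ng ng') {x : α} {x' : β} (hx : R x x') :
    RV5 (RS10 R) (mG o n np ng x) (mG o' n' np' ng' x') := by
  obtain ⟨_, _, _, _, _, _, _, _⟩ := hn
  obtain ⟨_, _, _, _, _, _, _, _⟩ := hnp
  obtain ⟨_, _, _, _, _, _, _, _⟩ := hng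
  refine ⟨⟨?_, ?_, ?_, ?_, ?_, ?_, ?_, ?_, ?_, ?_⟩, ⟨?_, ?_, ?_, ?_, ?_, ?_, ?_, ?_, ?_, ?_⟩, ⟨?_, ?_, ?_, ?_, ?_, ?_, ?_, ?_, ?_, ?_⟩, ⟨?_, ?_, ?_, ?_, ?_, ?_, ?_, ?_, ?_, ?_⟩, ⟨?_, ?_, ?_, ?_, ?_, ?_, ?_, ?_, ?_, ?_⟩⟩ <;> dsimp only [mG, mD] <;> rel_tac H

theorem vadd_rel (H : Hom o o' R) {a : V6 (α)} {a' : V6 (β)} (ha : RV6 R a a') {b : V6 (α)} {b' : V6 (β)} (hb : RV6 R b b') :
    RV6 R (vadd o a b) (vadd o' a' b') := by
  obtain ⟨_, _, _, _, _, _⟩ := ha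
  obtain ⟨_, _, _, _, _, _⟩ := hb
  refine ⟨?_, ?_, ?_, ?_, ?_, ?_⟩ <;> dsimp only [vadd] <;> rel_tac H

theorem vsm_rel (H : Hom o o' R) {c : α} {c' : β} (hc : R c c') {a : V6 (α)} {a' : V6 (β)} (ha : RV6 R a a') :
    RV6 R (vsm o c a) (vsm o' c' a') := by
  obtain ⟨_, _, _, _, _, _⟩ := ha
  refine ⟨?_, ?_, ?_, ?_, ?_, ?_⟩ <;> dsimp only [vsm] <;> rel_tac H

theorem vinj_rel (H : Hom o o' R) {c : α} {c' : β} (hc : R c c') :
    RV6 R (vinj o c) (vinj o' c') := by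
  refine ⟨?_, ?_, ?_, ?_, ?_, ?_⟩ <;> dsimp only [vinj] <;> rel_tac H

theorem vX_rel (H : Hom o o' R) :
    RV6 R (vX o) (vX o') := by
  refine ⟨?_, ?_, ?_, ?_, ?_, ?_⟩ <;> dsimp only [vX] <;> rel_tac H

theorem vY_rel (H : Hom o o' R) :
    RV6 R (vY o) (vY o') := by
  refine ⟨?_, ?_, ?_, ?_, ?_, ?_⟩ <;> dsimp only [vY] <;> rel_tac H

theorem vZ_rel (H : Hom o o' R) :
    RV6 R (vZ o) (vZ o') := by
  refine ⟨?_, ?_, ?_, ?_, ?_, ?_⟩ <;> dsimp only [vZ] <;> rel_tac H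

theorem tx4_rel (H : Hom o o' R) {n : N8 (α)} {n' : N8 (β)} (hn : RN8 R n n') :
    RV6 R (tx4 o n) (tx4 o' n') := by
  obtain ⟨_, _, _, _, _, _, _, _⟩ := hn
  refine ⟨?_, ?_, ?_, ?_, ?_, ?_⟩ <;> dsimp only [tx4] <;> rel_tac H

theorem txy_rel (H : Hom o o' R) {n : N8 (α)} {n' : N8 (β)} (hn : RN8 R n n') :
    RV6 R (txy o n) (txy o' n') := by
  obtain ⟨_, _, _, _, _, _, _, _⟩ := hn
  refine ⟨?_, ?_, ?_, ?_, ?_, ?_⟩ <;> dsimp only [txy] <;> rel_tac H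

theorem txz_rel (H : Hom o o' R) {n : N8 (α)} {n' : N8 (β)} (hn : RN8 R n n') :
    RV6 R (txz o n) (txz o' n') := by
  obtain ⟨_, _, _, _, _, _, _, _⟩ := hn
  refine ⟨?_, ?_, ?_, ?_, ?_, ?_⟩ <;> dsimp only [txz] <;> rel_tac H

theorem tyy_rel (H : Hom o o' R) {n : N8 (α)} {n' : N8 (β)} (hn : RN8 R n n') :
    RV6 R (tyy o n) (tyy o' n') := by
  obtain ⟨_, _, _, _, _, _, _, _⟩ := hn
  refine ⟨?_, ?_, ?_, ?_, ?_, ?_⟩ <;> dsimp only [tyy] <;> rel_tac H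

theorem tyz_rel (H : Hom o o' R) {n : N8 (α)} {n' : N8 (β)} (hn : RN8 R n n') :
    RV6 R (tyz o n) (tyz o' n') := by
  obtain ⟨_, _, _, _, _, _, _, _⟩ := hn
  refine ⟨?_, ?_, ?_, ?_, ?_, ?_⟩ <;> dsimp only [tyz] <;> rel_tac H

theorem tzz_rel (H : Hom o o' R) {n : N8 (α)} {n' : N8 (β)} (hn : RN8 R n n') :
    RV6 R (tzz o n) (tzz o' n') := by
  obtain ⟨_, _, _, _, _, _, _, _⟩ := hn
  refine ⟨?_, ?_, ?_, ?_, ?_, ?_⟩ <;> dsimp only [tzz] <;> rel_tac H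

theorem chi_rel (H : Hom o o' R) {n : N8 (α)} {n' : N8 (β)} (hn : RN8 R n n') :
    RV6 R (chi o n) (chi o' n') := by
  obtain ⟨_, _, _, _, _, _, _, _⟩ := hn
  refine ⟨?_, ?_, ?_, ?_, ?_, ?_⟩ <;> dsimp only [chi] <;> rel_tac H

theorem shift_rel (H : Hom o o' R) {c : V6 (α)} {c' : V6 (β)} (hc : RV6 R c c') {s : α} {s' : β} (hs : R s s') :
    RV6 R (shift o c s) (shift o' c' s') := by
  obtain ⟨_, _, _, _, _, _⟩ := hc
  refine ⟨?_, ?_, ?_, ?_, ?_, ?_⟩ <;> dsimp only [shift] <;> rel_tac H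

theorem co_rel (H : Hom o o' R) {s : SD (α)} {s' : SD (β)} (hs : RSD R s s') {a : V6 (α)} {a' : V6 (β)} (ha : RV6 R a a') :
    RV6 R (co o s a) (co o' s' a') := by
  obtain ⟨_, _, _, _, _, _, _, _, _, _, _, _, _, _⟩ := hs
  obtain ⟨_, _, _, _, _, _⟩ := ha
  refine ⟨?_, ?_, ?_, ?_, ?_, ?_⟩ <;> dsimp only [co] <;> rel_tac H

theorem mulX_rel (H : Hom o o' R) {n : N8 α} {n' : N8 β} (hn : RN8 R n n') {a : V6 α} {a' : V6 β}
    (ha : RV6 R a a') : RV6 R (mulX o n a) (mulX o' n' a') := by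
  obtain ⟨h0, h1, h2, h3, h4, h5⟩ := ha
  exact vadd_rel H (vadd_rel H ⟨H.cst _, h0, h1, h2, H.cst _, H.cst _⟩ (vsm_rel H h3 (tx4_rel H hn)))
    (vadd_rel H (vsm_rel H h4 (txy_rel H hn)) (vsm_rel H h5 (txz_rel H hn)))

theorem mulY_rel (H : Hom o o' R) {n : N8 α} {n' : N8 β} (hn : RN8 R n n') {a : V6 α} {a' : V6 β}
    (ha : RV6 R a a') : RV6 R (mulY o n a) (mulY o' n' a') := by
  obtain ⟨h0, h1, h2, h3, h4, h5⟩ := ha
  exact vadd_rel H (vadd_rel H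
    (vadd_rel H ⟨H.cst _, H.cst _, H.cst _, H.cst _, h0, H.cst _⟩ (vsm_rel H h1 (txy_rel H hn)))
    (vadd_rel H (vsm_rel H h2 (mulX_rel H hn (txy_rel H hn)))
      (vsm_rel H h3 (mulX_rel H hn (mulX_rel H hn (txy_rel H hn))))))
    (vadd_rel H (vsm_rel H h4 (tyy_rel H hn)) (vsm_rel H h5 (tyz_rel H hn)))

theorem mulZ_rel (H : Hom o o' R) {n : N8 α} {n' : N8 β} (hn : RN8 R n n') {a : V6 α} {a' : V6 β}
    (ha : RV6 R a a') : RV6 R (mulZ o n a) (mulZ o' n' a') := by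
  obtain ⟨h0, h1, h2, h3, h4, h5⟩ := ha
  exact vadd_rel H (vadd_rel H
    (vadd_rel H ⟨H.cst _, H.cst _, H.cst _, H.cst _, H.cst _, h0⟩ (vsm_rel H h1 (txz_rel H hn)))
    (vadd_rel H (vsm_rel H h2 (mulX_rel H hn (txz_rel H hn)))
      (vsm_rel H h3 (mulX_rel H hn (mulX_rel H hn (txz_rel H hn))))))
    (vadd_rel H (vsm_rel H h4 (tyz_rel H hn)) (vsm_rel H h5 (tzz_rel H hn)))

theorem mulA_rel (H : Hom o o' R) {n : N8 α} {n' : N8 β} (hn : RN8 R n n') {a b : V6 α}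
    {a' b' : V6 β} (ha : RV6 R a a') (hb : RV6 R b b') :
    RV6 R (mulA o n a b) (mulA o' n' a' b') := by
  obtain ⟨h0, h1, h2, h3, h4, h5⟩ := ha
  exact vadd_rel H (vadd_rel H
    (vadd_rel H (vsm_rel H h0 hb) (vsm_rel H h1 (mulX_rel H hn hb)))
    (vadd_rel H (vsm_rel H h2 (mulX_rel H hn (mulX_rel H hn hb)))
      (vsm_rel H h3 (mulX_rel H hn (mulX_rel H hn (mulX_rel H hn hb))))))
    (vadd_rel H (vsm_rel H h4 (mulY_rel H hn hb)) (vsm_rel H h5 (mulZ_rel H hn hb)))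

theorem oA_hom (H : Hom o o' R) {n : N8 α} {n' : N8 β} (hn : RN8 R n n') :
    Hom (oA o n) (oA o' n') (RV6 R) where
  add ha hb := vadd_rel H ha hb
  mul ha hb := mulA_rel H hn ha hb
  neg := fun ⟨h0, h1, h2, h3, h4, h5⟩ => ⟨H.neg h0, H.neg h1, H.neg h2, H.neg h3, H.neg h4, H.neg h5⟩
  cst c := vinj_rel H (H.cst c)
  mp := fun ⟨h0, h1, h2, h3, h4, h5⟩ => ⟨H.mp h0, H.mp h1, H.mp h2, H.mp h3, H.mp h4, H.mp h5⟩
  mg := fun ⟨h0, h1, h2, h3, h4, h5⟩ => ⟨H.mg h0, H.mg h1, H.mg h2, H.mg h3, H.mg h4, H.mg h5⟩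
  mu := fun ⟨h0, h1, h2, h3, h4, h5⟩ => ⟨H.mu h0, H.mu h1, H.mu h2, H.mu h3, H.mu h4, H.mu h5⟩

theorem ninj_rel (H : Hom o o' R) {n : N8 α} {n' : N8 β} (hn : RN8 R n n') :
    RN8 (RV6 R) (n.map (vinj o)) (n'.map (vinj o')) := by
  obtain ⟨h1, h2, h3, h4, h5, h6, h7, h8⟩ := hn
  exact ⟨vinj_rel H h1, vinj_rel H h2, vinj_rel H h3, vinj_rel H h4, vinj_rel H h5, vinj_rel H h6,
    vinj_rel H h7, vinj_rel H h8⟩

theorem cM_rel (H : Hom o o' R) {n : N8 α} {n' : N8 β} (hn : RN8 R n n') :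
    RS10 (RV6 R) (cM o n) (cM o' n') :=
  mM_rel (oA_hom H hn) (ninj_rel H hn) (vX_rel H) (vY_rel H) (vZ_rel H)

theorem cG_rel (H : Hom o o' R) {n np ng : N8 α} {n' np' ng' : N8 β} (hn : RN8 R n n')
    (hp : RN8 R np np') (hg : RN8 R ng ng') :
    RV5 (RS10 (RV6 R)) (cG o n np ng) (cG o' n' np' ng') :=
  mG_rel (oA_hom H hn) (ninj_rel H hn) (ninj_rel H hp) (ninj_rel H hg) (vX_rel H)

theorem eMat_rel (H : Hom o o' R) {n np ng : N8 α} {n' np' ng' : N8 β} (hn : RN8 R n n')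
    (hp : RN8 R np np') (hg : RN8 R ng ng') {d : V5 (V6 α)} {d' : V5 (V6 β)}
    (hd : RV5 (RV6 R) d d') {k : V5 (V5 (V6 α))} {k' : V5 (V5 (V6 β))}
    (hk : RV5 (RV5 (RV6 R)) k k') :
    RS10 (RV6 R) (eMat o n np ng d k) (eMat o' n' np' ng' d' k') :=
  ssub_rel (oA_hom H hn) (comb_rel (oA_hom H hn) (cG_rel H hn hp hg) hd)
    (km_rel (oA_hom H hn) hk (cM_rel H hn))

theorem cJ_rel (H : Hom o o' R) {n np ng : N8 α} {n' np' ng' : N8 β} (hn : RN8 R n n')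
    (hp : RN8 R np np') (hg : RN8 R ng ng') {c : V5 (V6 α)} {c' : V5 (V6 β)}
    (hc : RV5 (RV6 R) c c') : RV5 (RV6 R) (cJ o n np ng c) (cJ o' n' np' ng' c') :=
  jv_rel (oA_hom H hn) (cM_rel H hn) (cG_rel H hn hp hg) hc

theorem cDet_rel (H : Hom o o' R) {n : N8 α} {n' : N8 β} (hn : RN8 R n n') {a b : V5 (V6 α)}
    {a' b' : V5 (V6 β)} (ha : RV5 (RV6 R) a a') (hb : RV5 (RV6 R) b b') :
    RV6 R (cDet o n a b) (cDet o' n' a' b') :=
  (oA_hom H hn).add ((oA_hom H hn).mul ha.1 hb.2.1) ((oA_hom H hn).neg ((oA_hom H hn).mul ha.2.1 hb.1))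

theorem row_rel (H : Hom o o' R) (f : ℕ → ℕ) (l : List ℕ) : R (row o f l) (row o' f l) := by
  induction l with
  | nil => exact H.cst 0
  | cons c cs ih => exact H.add (H.cst _) (H.mp ih)

theorem rowD_rel (H : Hom o o' R) (f : ℕ → ℕ) (l : List ℕ) : R (rowD o f l) (rowD o' f l) := by
  induction l with
  | nil => exact H.cst 0
  | cons c cs ih => exact H.add (row_rel H f cs) (H.mp ih)

theorem rows_rel (H : Hom o o' R) (f : ℕ → ℕ) (l : PD) : R (rows o f l) (rows o' f l) := by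
  induction l with
  | nil => exact H.cst 0
  | cons c cs ih => exact H.add (row_rel H f c) (H.mg ih)

theorem rowsP_rel (H : Hom o o' R) (f : ℕ → ℕ) (l : PD) : R (rowsP o f l) (rowsP o' f l) := by
  induction l with
  | nil => exact H.cst 0
  | cons c cs ih => exact H.add (rowD_rel H f c) (H.mg ih)

theorem rowsG_rel (H : Hom o o' R) (f : ℕ → ℕ) (l : PD) : R (rowsG o f l) (rowsG o' f l) := by
  induction l with
  | nil => exact H.cst 0
  | cons c cs ih => exact H.add (rows_rel H f cs) (H.mg ih)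

theorem pl_rel (H : Hom o o' R) (l : PD) : R (pl o l) (pl o' l) :=
  H.add (rows_rel H _ l) (H.neg (rows_rel H _ l))
theorem plP_rel (H : Hom o o' R) (l : PD) : R (plP o l) (plP o' l) :=
  H.add (rowsP_rel H _ l) (H.neg (rowsP_rel H _ l))
theorem plG_rel (H : Hom o o' R) (l : PD) : R (plG o l) (plG o' l) :=
  H.add (rowsG_rel H _ l) (H.neg (rowsG_rel H _ l))
theorem pq_rel (H : Hom o o' R) (d : PD × PD) : R (pq o d) (pq o' d) :=
  H.add (pl_rel H _) (H.mu (pl_rel H _))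
theorem pqP_rel (H : Hom o o' R) (d : PD × PD) : R (pqP o d) (pqP o' d) :=
  H.add (plP_rel H _) (H.mu (plP_rel H _))
theorem pqG_rel (H : Hom o o' R) (d : PD × PD) : R (pqG o d) (pqG o' d) :=
  H.add (plG_rel H _) (H.mu (plG_rel H _))

theorem mon_rel (H : Hom o o' R) (i j : ℕ) {a : α} {a' : β} (h : R a a') :
    R (mon o i j a) (mon o' i j a') := by
  induction i with
  | zero =>
    induction j with
    | zero => exact h
    | succ j ih => exact H.mg ih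
  | succ i ih => exact H.mp ih

theorem n8_rel {γ : Type} {f : γ → α} {f' : γ → β} (h : ∀ c, R (f c) (f' c)) (d : N8 γ) :
    RN8 R (d.map f) (d.map f') := ⟨h _, h _, h _, h _, h _, h _, h _, h _⟩
theorem v6_rel {γ : Type} {f : γ → α} {f' : γ → β} (h : ∀ c, R (f c) (f' c)) (d : V6 γ) :
    RV6 R (d.map f) (d.map f') := ⟨h _, h _, h _, h _, h _, h _⟩
theorem v5_rel {γ : Type} {f : γ → α} {f' : γ → β} (h : ∀ c, R (f c) (f' c)) (d : V5 γ) :
    RV5 R (d.map f) (d.map f') := ⟨h _, h _, h _, h _, h _⟩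
theorem sd_rel {γ : Type} {f : γ → α} {f' : γ → β} (h : ∀ c, R (f c) (f' c)) (d : SD γ) :
    RSD R (d.map f) (d.map f') :=
  ⟨h _, h _, h _, h _, h _, h _, h _, h _, h _, h _, h _, h _, h _, h _⟩

theorem RV6.nth {a : V6 α} {b : V6 β} (h : RV6 R a b) : ∀ i, R (a.nth i) (b.nth i)
  | 0 => h.1
  | 1 => h.2.1
  | 2 => h.2.2.1
  | 3 => h.2.2.2.1
  | 4 => h.2.2.2.2.1
  | _ + 5 => h.2.2.2.2.2

theorem V6.get_eq (a : V6 α) (i : Fin 6) : a.get i = a.nth i := by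
  fin_cases i <;> rfl

end rel

section deriv

variable (Q : ℕ)

theorem pderiv0_row (f : ℕ → ℕ) (l : List ℕ) :
    MvPolynomial.pderiv 0 (row (oP Q) f l) = rowD (oP Q) f l := by
  induction l with
  | nil => simp [row, rowD, oP, oR]
  | cons c cs ih =>
    change MvPolynomial.pderiv 0 (((f c : ℕ) : PP) + MvPolynomial.X 0 * row (oP Q) f cs) =
      row (oP Q) f cs + MvPolynomial.X 0 * rowD (oP Q) f cs
    simp [ih]; ring

theorem pderiv1_row (f : ℕ → ℕ) (l : List ℕ) : MvPolynomial.pderiv 1 (row (oP Q) f l) = 0 := by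
  induction l with
  | nil => simp [row, oP, oR]
  | cons c cs ih =>
    change MvPolynomial.pderiv 1 (((f c : ℕ) : PP) + MvPolynomial.X 0 * row (oP Q) f cs) = 0
    simp [ih]

theorem pderiv0_rows (f : ℕ → ℕ) (l : PD) :
    MvPolynomial.pderiv 0 (rows (oP Q) f l) = rowsP (oP Q) f l := by
  induction l with
  | nil => simp [rows, rowsP, oP, oR]
  | cons c cs ih =>
    change MvPolynomial.pderiv 0 (row (oP Q) f c + MvPolynomial.X 1 * rows (oP Q) f cs) =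
      rowD (oP Q) f c + MvPolynomial.X 1 * rowsP (oP Q) f cs
    simp [ih, pderiv0_row]

theorem pderiv1_rows (f : ℕ → ℕ) (l : PD) :
    MvPolynomial.pderiv 1 (rows (oP Q) f l) = rowsG (oP Q) f l := by
  induction l with
  | nil => simp [rows, rowsG, oP, oR]
  | cons c cs ih =>
    change MvPolynomial.pderiv 1 (row (oP Q) f c + MvPolynomial.X 1 * rows (oP Q) f cs) =
      rows (oP Q) f cs + MvPolynomial.X 1 * rowsG (oP Q) f cs
    simp [ih, pderiv1_row]; ring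

theorem pderiv0_pq (d : PD × PD) : MvPolynomial.pderiv 0 (pq (oP Q) d) = pqP (oP Q) d := by
  change MvPolynomial.pderiv 0 ((rows (oP Q) pos d.1 + -rows (oP Q) ngt d.1) +
      MvPolynomial.C _ * (rows (oP Q) pos d.2 + -rows (oP Q) ngt d.2)) =
    (rowsP (oP Q) pos d.1 + -rowsP (oP Q) ngt d.1) +
      MvPolynomial.C _ * (rowsP (oP Q) pos d.2 + -rowsP (oP Q) ngt d.2)
  simp only [map_add, map_neg, MvPolynomial.pderiv_C_mul, pderiv0_rows]

theorem pderiv1_pq (d : PD × PD) : MvPolynomial.pderiv 1 (pq (oP Q) d) = pqG (oP Q) d := by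
  change MvPolynomial.pderiv 1 ((rows (oP Q) pos d.1 + -rows (oP Q) ngt d.1) +
      MvPolynomial.C _ * (rows (oP Q) pos d.2 + -rows (oP Q) ngt d.2)) =
    (rowsG (oP Q) pos d.1 + -rowsG (oP Q) ngt d.1) +
      MvPolynomial.C _ * (rowsG (oP Q) pos d.2 + -rowsG (oP Q) ngt d.2)
  simp only [map_add, map_neg, MvPolynomial.pderiv_C_mul, pderiv1_rows]

theorem mon_eq (i j : ℕ) (a : PP) :
    mon (oP Q) i j a = MvPolynomial.X 0 ^ i * MvPolynomial.X 1 ^ j * a := by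
  induction i with
  | zero =>
    induction j with
    | zero => simp [mon]
    | succ j ih =>
      change MvPolynomial.X 1 * mon (oP Q) 0 j a = _
      rw [ih]; ring
  | succ i ih =>
    change MvPolynomial.X 0 * mon (oP Q) i j a = _
    rw [ih]; ring

end deriv

section adapted

variable {A : Type} [CommRing A] [Algebra PP A] (x y z : A) (s : SD PP)

noncomputable def f1 : A := x - algebraMap PP A s.s10
noncomputable def f2 : A := y - algebraMap PP A s.s21 * f1 x s - algebraMap PP A s.s20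
noncomputable def f3 : A := z - algebraMap PP A s.s31 * f1 x s - algebraMap PP A s.s30
noncomputable def f4 : A := x ^ 2 - algebraMap PP A s.s43 * f3 x z s -
  algebraMap PP A s.s42 * f2 x y s - algebraMap PP A s.s41 * f1 x s - algebraMap PP A s.s40
noncomputable def f5 : A := x ^ 3 - algebraMap PP A s.s54 * f4 x y z s -
  algebraMap PP A s.s53 * f3 x z s - algebraMap PP A s.s52 * f2 x y s -
  algebraMap PP A s.s51 * f1 x s - algebraMap PP A s.s50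

/-- The adapted basis. -/
noncomputable def fA : Fin 6 → A := ![1, f1 x s, f2 x y s, f3 x z s, f4 x y z s, f5 x y z s]

theorem emb_co (Q : ℕ) (a : V6 PP) :
    emb x y z a = ∑ i, algebraMap PP A ((co (oP Q) s a).get i) * fA x y z s i := by
  simp only [Fin.sum_univ_six, V6.get, fA, co, oP, oR, emb, Matrix.cons_val_zero,
    Matrix.cons_val_one, Matrix.cons_val, map_add, map_mul]
  unfold f5 f4 f3 f2 f1
  ring

end adapted

end Crest.Agent.R278
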