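import Crest.Agent.R278.DataN

set_option autoImplicit false

namespace Crest.Agent.R278

/-- Newton iteration for the inverse of `Q` modulo `2^(2^i)`. -/
noncomputable def qinv (Q i : ℕ) : ℕ :=
  Nat.rec 1 (fun i x => Nat.land (Nat.mul x (Nat.sub (Nat.add (Nat.pow 2 (Nat.pow 2 (Nat.succ i))) 2)
      (Nat.land (Nat.mul Q x) (Nat.sub (Nat.pow 2 (Nat.pow 2 (Nat.succ i))) 1))))
    (Nat.sub (Nat.pow 2 (Nat.pow 2 (Nat.succ i))) 1)) i

noncomputable def mkP (s a b r K t i : ℕ) : KP :=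
  ⟨s, a, b, r, K, t, dQ, Nat.land (qinv dQ i) (Nat.sub (Nat.pow 2 (Nat.mul s K)) 1)⟩

noncomputable def allTo (n : ℕ) (f : ℕ → Bool) : Bool :=
  Nat.rec true (fun k ih => ih && f k) n

noncomputable def sumTo (n : ℕ) (f : ℕ → ℕ) : ℕ :=
  Nat.rec 0 (fun k ih => Nat.add ih (f k)) n

theorem allTo_spec {n : ℕ} {f : ℕ → Bool} (h : allTo n f = true) : ∀ k < n, f k = true := by
  induction n with
  | zero => intro k hk; omega
  | succ n ih =>
    have h' : (allTo n f && f n) = true := h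
    rw [Bool.and_eq_true] at h'
    intro k hk
    rcases Nat.lt_succ_iff_lt_or_eq.1 hk with hk | rfl
    · exact ih h'.1 k hk
    · exact h'.2

theorem sumTo_eq (n : ℕ) (f : ℕ → ℕ) : sumTo n f = ∑ k ∈ Finset.range n, f k := by
  induction n with
  | zero => rfl
  | succ n ih => rw [Finset.sum_range_succ, ← ih]; rfl

section generic

variable {α : Type} (o : Ops α)

noncomputable def nOf : N8 α := dN.map (pq o)
noncomputable def npOf : N8 α := dN.map (pqP o)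
noncomputable def ngOf : N8 α := dN.map (pqG o)
noncomputable def sOf : SD α := dS.map (pl o)
noncomputable def vOf (d : V5 (V6 PD)) : V5 (V6 α) := d.map (V6.map (pl o))
noncomputable def kOf (d : V5 (V5 (V6 PD))) : V5 (V5 (V6 α)) := d.map (vOf o)
noncomputable def eOf (d : V5 (V6 PD)) (k : V5 (V5 (V6 PD))) : S10 (V6 α) :=
  eMat o (nOf o) (npOf o) (ngOf o) (vOf o d) (kOf o k)
noncomputable def jOf (c : V5 (V6 PD)) : V5 (V6 α) := cJ o (nOf o) (npOf o) (ngOf o) (vOf o c)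

/-- The chosen elements of the Jacobian ideal. -/
def baseG (j0 j1 j2 j3 j4 : V5 α) (w : α) : ℕ → α
  | 0 => dl o (o.cst 0) (o.cst 0) (o.cst 1) j2 j3 j4
  | 1 => dl o (o.neg (o.cst 1)) (o.neg (o.cst 1)) (o.cst 2) j2 j3 j4
  | 2 => dl o (o.cst 0) (o.cst 0) (o.cst 1) j1 j3 j4
  | 3 => dl o (o.neg (o.cst 1)) (o.neg (o.cst 1)) (o.cst 2) j1 j3 j4
  | 4 => dl o (o.cst 0) (o.cst 0) (o.cst 1) j1 j2 j4
  | 5 => dl o (o.neg (o.cst 1)) (o.neg (o.cst 1)) (o.cst 2) j1 j2 j4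
  | 6 => dl o (o.neg (o.cst 1)) (o.cst 0) (o.cst 1) j1 j2 j4
  | 7 => dl o (o.cst 0) (o.cst 0) (o.cst 1) j1 j2 j3
  | 8 => dl o (o.neg (o.cst 1)) (o.neg (o.cst 1)) (o.cst 2) j1 j2 j3
  | 9 => dl o (o.cst 0) (o.cst 0) (o.cst 1) j0 j3 j4
  | 10 => dl o (o.cst 0) (o.cst 0) (o.cst 1) j0 j2 j4
  | 11 => dl o (o.neg (o.cst 1)) (o.neg (o.cst 1)) (o.cst 2) j0 j2 j4
  | 12 => dl o (o.cst 0) (o.cst 0) (o.cst 1) j0 j2 j3
  | 13 => dl o (o.neg (o.cst 1)) (o.neg (o.cst 1)) (o.cst 2) j0 j2 j3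
  | 14 => dl o (o.cst 0) (o.cst 0) (o.cst 1) j0 j1 j4
  | 15 => dl o (o.cst 0) (o.cst 0) (o.cst 1) j0 j1 j3
  | 16 => dl o (o.cst 0) (o.cst 0) (o.cst 1) j0 j1 j2
  | 17 => dl o (o.neg (o.cst 1)) (o.neg (o.cst 1)) (o.cst 2) j0 j1 j2
  | _ => o.mul w (dl o (o.neg (o.cst 1)) (o.neg (o.cst 1)) (o.cst 2) j0 j2 j4)

noncomputable def bOf (b : ℕ) : V6 α :=
  baseG (oA o (nOf o)) (jOf o dC0) (jOf o dC1) (jOf o dC2) (jOf o dC3) (jOf o dC4)
    (dF2.map (pl o)) b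

def selI (k : ℕ) : ℕ := (dSel.getD k (0, 0, 0)).1
def selA (k : ℕ) : ℕ := (dSel.getD k (0, 0, 0)).2.1
def selB (k : ℕ) : ℕ := (dSel.getD k (0, 0, 0)).2.2
def glI (k : ℕ) : ℕ := (dGl.getD k (0, 0, 0)).1
def glA (k : ℕ) : ℕ := (dGl.getD k (0, 0, 0)).2.1
def glB (k : ℕ) : ℕ := (dGl.getD k (0, 0, 0)).2.2

noncomputable def thOf (k i : ℕ) : α :=
  mon o (selA k) (selB k) ((co o (sOf o) (bOf o (selI k))).nth i)

noncomputable def dtOf (a b : V5 (V6 PD)) : α := (cDet o (nOf o) (vOf o a) (vOf o b)).c3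

noncomputable def chOf : V6 α := shift o (chi o (nOf o)) (pl o dSh)

end generic

/-- The filtration degrees. -/
def tt : ℕ → ℕ
  | 0 => 22
  | 1 => 19
  | 2 => 17
  | 3 => 17
  | 4 => 15
  | _ => 12

noncomputable def vanE (P : KP) (e : V6 KN) : Bool :=
  allTo 6 fun i => kvan P 2 (Nat.mul 9 (Nat.add (tt i) 3)) ((co (oK P) (sOf (oK P)) e).nth i)

noncomputable def eChk (P : KP) (d : V5 (V6 PD)) (k : V5 (V5 (V6 PD))) : Bool :=
  P.good && vanE P (eOf (oK P) d k).m12 && vanE P (eOf (oK P) d k).m13 &&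
    vanE P (eOf (oK P) d k).m14 && vanE P (eOf (oK P) d k).m15 && vanE P (eOf (oK P) d k).m23 &&
    vanE P (eOf (oK P) d k).m24 && vanE P (eOf (oK P) d k).m25 && vanE P (eOf (oK P) d k).m34 &&
    vanE P (eOf (oK P) d k).m35 && vanE P (eOf (oK P) d k).m45

noncomputable def zN (P : KP) (k j : ℕ) : ℕ :=
  kdn P 1 (Nat.mul 9 (Nat.add (tt (glI j)) 3)) (thOf (oK P) k (glI j))
    (Nat.add (Nat.mul 9 (glA j)) (Nat.mul 28 (glB j)))

noncomputable def zM (P : KP) (k j : ℕ) : ℕ :=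
  Nat.add (Nat.mod (zN P k j) 103) (Nat.sub 103 (Nat.mod (Nat.pow 2 (Nat.sub P.s 1)) 103))

def cM' (i k : ℕ) : ℕ := (dInv.getD i []).getD k 0

noncomputable def tChk (P : KP) : Bool :=
  P.good &&
  (allTo 42 fun k => allTo 6 fun i =>
    kcond P 1 (Nat.mul 9 (Nat.add (tt i) 3)) (thOf (oK P) k i) &&
      kvan P 1 (Nat.mul 9 (tt i)) (thOf (oK P) k i)) &&
  (allTo 42 fun i => allTo 42 fun j =>
    Nat.beq (Nat.mod (sumTo 42 fun k => Nat.mul (cM' i k) (zM P k j)) 103)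
      (bif Nat.beq i j then 1 else 0))

noncomputable def nz (P : KP) (T : ℕ) (x : KN) (k : ℕ) : Bool :=
  kcond P 0 T x && !Nat.beq (kdn P 0 T x k) (Nat.pow 2 (Nat.sub P.s 1))

noncomputable def sChk (P : KP) (a b : V5 (V6 PD)) : Bool :=
  P.good && nz P 1 (dtOf (oK P) a b) 0 && nz P 19 (nOf (oK P)).n1 18 &&
    kvan P 0 1 (nOf (oK P)).n1 && kvan P 0 1 (nOf (oK P)).n2 && kvan P 0 1 (nOf (oK P)).n3 &&
    kvan P 0 1 (nOf (oK P)).n4 && kvan P 0 1 (nOf (oK P)).n5 && kvan P 0 1 (nOf (oK P)).n6 &&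
    kvan P 0 1 (nOf (oK P)).n7 && kvan P 0 1 (nOf (oK P)).n8

noncomputable def cChk (P : KP) : Bool :=
  P.good && nz P 38 (chOf (oK P)).c0 37 &&
    allTo 6 fun i => kvan P 0 (Nat.add (Nat.mul 6 (Nat.sub 6 i)) 1) ((chOf (oK P)).nth i)

noncomputable def pE1 : KP := mkP 6492 9 28 3000 198 72 21
noncomputable def pE2 : KP := mkP 6062 9 28 3000 198 72 21
noncomputable def pT : KP := mkP 2453 9 28 3000 108 72 19
noncomputable def pS : KP := mkP 11300 9 28 3000 1 72 14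
noncomputable def pC : KP := mkP 800 2 7 3000000000000000 14 18 14

end Crest.Agent.R278
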