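import Crest.Agent.R278.ChkDef
import Crest.Agent.R278.DataD1
import Crest.Agent.R278.DataK1

set_option autoImplicit false

namespace Crest.Agent.R278

theorem chkE1 : eChk pE1 dD1 dK1 = true := by decide +kernel

end Crest.Agent.R278
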