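import Crest.Agent.R278.ChkDef
import Crest.Agent.R278.DataD2
import Crest.Agent.R278.DataK2

set_option autoImplicit false

namespace Crest.Agent.R278

theorem chkE2 : eChk pE2 dD2 dK2 = true := by decide +kernel

end Crest.Agent.R278
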