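import Crest.Agent.R278.PfDef

set_option autoImplicit false

namespace Crest.Agent.R278

section ring
variable {A : Type} [CommRing A] (p g u : A)

theorem cr_jv_add (m : S10 A) (G : V5 (S10 A)) (a b : V5 A) :
    jv (oR p g u) m G (V5.add a b) = V5.add (jv (oR p g u) m G a) (jv (oR p g u) m G b) := by
  ext <;> simp only [jv, dpf, comb, oR, V5.add] <;> ring

theorem cr_jv_smul (m : S10 A) (G : V5 (S10 A)) (c : A) (a : V5 A) :
    jv (oR p g u) m G (V5.smul c a) = V5.smul c (jv (oR p g u) m G a) := by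
  ext <;> simp only [jv, dpf, comb, oR, V5.smul] <;> ring

theorem cr_mv_dpf {m : S10 A} (hm : pf (oR p g u) m = V5.zero A) (e : S10 A) :
    mv (oR p g u) m (dpf (oR p g u) m e) = V5.zero A := by
  simp only [pf, oR, V5.zero, V5.mk.injEq] at hm
  obtain ⟨h1, h2, h3, h4, h5⟩ := hm
  ext <;> simp only [mv, dpf, oR, V5.zero]
  · linear_combination e.m12 * h2 - e.m13 * h3 + e.m14 * h4 - e.m15 * h5
  · linear_combination e.m12 * h1 - e.m23 * h3 + e.m24 * h4 - e.m25 * h5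
  · linear_combination e.m13 * h1 - e.m23 * h2 + e.m34 * h4 - e.m35 * h5
  · linear_combination e.m14 * h1 - e.m24 * h2 + e.m34 * h3 - e.m45 * h5
  · linear_combination e.m15 * h1 - e.m25 * h2 + e.m35 * h3 - e.m45 * h4

theorem cr_dpf_km {m : S10 A} (hm : pf (oR p g u) m = V5.zero A) (k : V5 (V5 A)) :
    dpf (oR p g u) m (km (oR p g u) k m) = V5.zero A := by
  simp only [pf, oR, V5.zero, V5.mk.injEq] at hm
  obtain ⟨h1, h2, h3, h4, h5⟩ := hm
  ext <;> simp only [km, dpf, oR, V5.zero]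
  · linear_combination (k.v2.v2 + k.v3.v3 + k.v4.v4 + k.v5.v5) * h1 + k.v2.v1 * h2 - k.v3.v1 * h3 +
      k.v4.v1 * h4 - k.v5.v1 * h5
  · linear_combination (k.v1.v1 + k.v3.v3 + k.v4.v4 + k.v5.v5) * h2 + k.v1.v2 * h1 + k.v3.v2 * h3 -
      k.v4.v2 * h4 + k.v5.v2 * h5
  · linear_combination (k.v1.v1 + k.v2.v2 + k.v4.v4 + k.v5.v5) * h3 - k.v1.v3 * h1 + k.v2.v3 * h2 +
      k.v4.v3 * h4 - k.v5.v3 * h5
  · linear_combination (k.v1.v1 + k.v2.v2 + k.v3.v3 + k.v5.v5) * h4 + k.v1.v4 * h1 - k.v2.v4 * h2 +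
      k.v3.v4 * h3 + k.v5.v4 * h5
  · linear_combination (k.v1.v1 + k.v2.v2 + k.v3.v3 + k.v4.v4) * h5 - k.v1.v5 * h1 + k.v2.v5 * h2 -
      k.v3.v5 * h3 + k.v4.v5 * h4

/-- the defect vector of Cramer's rule -/
def crW (l1 l2 l4 : A) (a b c e : V5 A) : V5 A :=
  V5.add (V5.add (V5.smul (dl (oR p g u) l1 l2 l4 e b c) a)
    (V5.add (V5.smul (dl (oR p g u) l1 l2 l4 a e c) b) (V5.smul (dl (oR p g u) l1 l2 l4 a b e) c)))
    (V5.smul (-dl (oR p g u) l1 l2 l4 a b c) e)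

theorem crW_rows (l1 l2 l4 : A) (a b c e : V5 A) :
    l1 * (crW p g u l1 l2 l4 a b c e).v1 + l2 * (crW p g u l1 l2 l4 a b c e).v2 +
      l4 * (crW p g u l1 l2 l4 a b c e).v4 = 0 ∧ (crW p g u l1 l2 l4 a b c e).v3 = 0 ∧
      (crW p g u l1 l2 l4 a b c e).v5 = 0 := by
  refine ⟨?_, ?_, ?_⟩ <;> simp only [crW, dl, lrow, min35, oR, V5.add, V5.smul] <;> ring

theorem cr_mv_add {m : S10 A} {a b : V5 A} (ha : mv (oR p g u) m a = V5.zero A)
    (hb : mv (oR p g u) m b = V5.zero A) : mv (oR p g u) m (V5.add a b) = V5.zero A := by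
  simp only [mv, oR, V5.zero, V5.mk.injEq, V5.add] at ha hb ⊢
  obtain ⟨a1, a2, a3, a4, a5⟩ := ha
  obtain ⟨b1, b2, b3, b4, b5⟩ := hb
  exact ⟨by linear_combination a1 + b1, by linear_combination a2 + b2, by linear_combination a3 + b3,
    by linear_combination a4 + b4, by linear_combination a5 + b5⟩

theorem cr_mv_smul {m : S10 A} {a : V5 A} (ha : mv (oR p g u) m a = V5.zero A) (c : A) :
    mv (oR p g u) m (V5.smul c a) = V5.zero A := by
  simp only [mv, oR, V5.zero, V5.mk.injEq, V5.smul] at ha ⊢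
  obtain ⟨a1, a2, a3, a4, a5⟩ := ha
  exact ⟨by linear_combination c * a1, by linear_combination c * a2, by linear_combination c * a3,
    by linear_combination c * a4, by linear_combination c * a5⟩

theorem cr_of_W {m : S10 A} {G : V5 (S10 A)} {l1 l2 l4 : A} {a b c e : V5 A}
    (h : crW p g u l1 l2 l4 (jv (oR p g u) m G a) (jv (oR p g u) m G b) (jv (oR p g u) m G c) e =
      V5.zero A) : ∃ d : V5 A, jv (oR p g u) m G d = V5.smul (dl (oR p g u) l1 l2 l4
        (jv (oR p g u) m G a) (jv (oR p g u) m G b) (jv (oR p g u) m G c)) e := by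
  refine ⟨V5.add (V5.smul (dl (oR p g u) l1 l2 l4 e (jv (oR p g u) m G b) (jv (oR p g u) m G c)) a)
    (V5.add (V5.smul (dl (oR p g u) l1 l2 l4 (jv (oR p g u) m G a) e (jv (oR p g u) m G c)) b)
      (V5.smul (dl (oR p g u) l1 l2 l4 (jv (oR p g u) m G a) (jv (oR p g u) m G b) e) c)), ?_⟩
  rw [cr_jv_add, cr_jv_add, cr_jv_smul, cr_jv_smul, cr_jv_smul]
  unfold crW at h
  generalize jv (oR p g u) m G a = A' at h ⊢
  generalize jv (oR p g u) m G b = B' at h ⊢
  generalize jv (oR p g u) m G c = C' at h ⊢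
  generalize dl (oR p g u) l1 l2 l4 A' B' C' = θ at h ⊢
  generalize V5.add (V5.smul (dl (oR p g u) l1 l2 l4 e B' C') A') _ = v at h ⊢
  simp only [V5.add, V5.smul, V5.zero, V5.mk.injEq] at h
  obtain ⟨h1, h2, h3, h4, h5⟩ := h
  ext <;> simp only [V5.smul]
  · linear_combination h1
  · linear_combination h2
  · linear_combination h3
  · linear_combination h4
  · linear_combination h5

theorem cr_smul_add (c c' : A) (e : V5 A) :
    V5.smul (c + c') e = V5.add (V5.smul c e) (V5.smul c' e) := by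
  ext <;> simp only [V5.add, V5.smul] <;> ring

theorem cr_smul_mul (c c' : A) (e : V5 A) : V5.smul (c * c') e = V5.smul c (V5.smul c' e) := by
  ext <;> simp only [V5.smul] <;> ring

end ring

variable {A : Type} [CommRing A] [IsDomain A] (p g u : A)

theorem cramer (m : S10 A) (G : V5 (S10 A)) (hm : pf (oR p g u) m = V5.zero A)
    (h12 : m.m12 ≠ 0) (h24 : m.m24 ≠ 0) (h14 : m.m14 ≠ 0) {θ : A}
    (hθ : θ ∈ jacI (oR p g u) m G) (e : V5 A) (he : mv (oR p g u) m e = V5.zero A) :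
    ∃ d : V5 A, jv (oR p g u) m G d = V5.smul θ e := by
  have hadd : ∀ x y : A, (∃ d : V5 A, jv (oR p g u) m G d = V5.smul x e) →
      (∃ d : V5 A, jv (oR p g u) m G d = V5.smul y e) →
      ∃ d : V5 A, jv (oR p g u) m G d = V5.smul (x + y) e := by
    rintro x y ⟨d, hd⟩ ⟨d', hd'⟩
    exact ⟨V5.add d d', by rw [cr_jv_add, hd, hd', cr_smul_add]⟩
  have hmul : ∀ c x : A, (∃ d : V5 A, jv (oR p g u) m G d = V5.smul x e) →
      ∃ d : V5 A, jv (oR p g u) m G d = V5.smul (c * x) e := by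
    rintro c x ⟨d, hd⟩
    exact ⟨V5.smul c d, by rw [cr_jv_smul, hd, cr_smul_mul]⟩
  unfold jacI at hθ
  induction hθ using Submodule.span_induction with
  | zero => exact ⟨V5.smul 0 e, by rw [cr_jv_smul]; ext <;> simp [V5.smul]⟩
  | add x y _ _ hx hy => exact hadd x y hx hy
  | smul c x _ hx => exact hmul c x hx
  | mem t ht =>
    obtain ⟨l1, l2, l4, a, b, c, rfl⟩ := ht
    have hker : ∀ l1 l2 l4 : A, mv (oR p g u) m (crW p g u l1 l2 l4 (jv (oR p g u) m G a)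
        (jv (oR p g u) m G b) (jv (oR p g u) m G c) e) = V5.zero A := fun l1 l2 l4 =>
      cr_mv_add p g u (cr_mv_add p g u (cr_mv_smul p g u (cr_mv_dpf p g u hm _) _)
        (cr_mv_add p g u (cr_mv_smul p g u (cr_mv_dpf p g u hm _) _)
          (cr_mv_smul p g u (cr_mv_dpf p g u hm _) _))) (cr_mv_smul p g u he _)
    have hlin : ∀ A' B' C' : V5 A, dl (oR p g u) l1 l2 l4 A' B' C' =
        l1 * dl (oR p g u) 1 0 0 A' B' C' + l2 * dl (oR p g u) 0 1 0 A' B' C' +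
          l4 * dl (oR p g u) 0 0 1 A' B' C' := by
      intro A' B' C'
      simp only [dl, lrow, min35, oR]
      ring
    rw [hlin]
    refine hadd _ _ (hadd _ _ (hmul _ _ (cr_of_W p g u ?_)) (hmul _ _ (cr_of_W p g u ?_)))
      (hmul _ _ (cr_of_W p g u ?_))
    · have h1 := hker 1 0 0
      obtain ⟨h2, h3, h5⟩ := crW_rows p g u 1 0 0 (jv (oR p g u) m G a) (jv (oR p g u) m G b)
        (jv (oR p g u) m G c) e
      generalize crW p g u 1 0 0 _ _ _ e = w at h1 h2 h3 h5 ⊢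
      simp only [mv, oR, V5.zero, V5.mk.injEq] at h1
      obtain ⟨-, r2, -, r4, -⟩ := h1
      have w1 : w.v1 = 0 := by linear_combination h2
      refine V5.ext w1 ((mul_eq_zero.1 ?_).resolve_left h24) h3
        ((mul_eq_zero.1 ?_).resolve_left h24) h5
      · linear_combination r4 + m.m14 * w1 + m.m34 * h3 - m.m45 * h5
      · linear_combination -r2 - m.m12 * w1 + m.m23 * h3 + m.m25 * h5
    · have h1 := hker 0 1 0
      obtain ⟨h2, h3, h5⟩ := crW_rows p g u 0 1 0 (jv (oR p g u) m G a) (jv (oR p g u) m G b)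
        (jv (oR p g u) m G c) e
      generalize crW p g u 0 1 0 _ _ _ e = w at h1 h2 h3 h5 ⊢
      simp only [mv, oR, V5.zero, V5.mk.injEq] at h1
      obtain ⟨r1, -, -, r4, -⟩ := h1
      have w2 : w.v2 = 0 := by linear_combination h2
      refine V5.ext ((mul_eq_zero.1 ?_).resolve_left h14) w2 h3
        ((mul_eq_zero.1 ?_).resolve_left h14) h5
      · linear_combination -r4 + m.m24 * w2 - m.m34 * h3 + m.m45 * h5
      · linear_combination -r1 - m.m12 * w2 + m.m13 * h3 + m.m15 * h5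
    · have h1 := hker 0 0 1
      obtain ⟨h2, h3, h5⟩ := crW_rows p g u 0 0 1 (jv (oR p g u) m G a) (jv (oR p g u) m G b)
        (jv (oR p g u) m G c) e
      generalize crW p g u 0 0 1 _ _ _ e = w at h1 h2 h3 h5 ⊢
      simp only [mv, oR, V5.zero, V5.mk.injEq] at h1
      obtain ⟨r1, r2, -, -, -⟩ := h1
      have w4 : w.v4 = 0 := by linear_combination h2
      refine V5.ext ((mul_eq_zero.1 ?_).resolve_left h12) ((mul_eq_zero.1 ?_).resolve_left h12) h3
        w4 h5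
      · linear_combination -r2 + m.m23 * h3 - m.m24 * w4 + m.m25 * h5
      · linear_combination -r1 + m.m13 * h3 - m.m14 * w4 + m.m15 * h5

theorem exist_der (m : S10 A) (G : V5 (S10 A)) (hm : pf (oR p g u) m = V5.zero A)
    (h12 : m.m12 ≠ 0) (h24 : m.m24 ≠ 0) (h14 : m.m14 ≠ 0) (h : A) (d0 : V5 A) (k : V5 (V5 A))
    (hE : S10.All (fun e => ∃ a b : A, h * a ∈ jacI (oR p g u) m G ∧ h * b ∈ jacI (oR p g u) m G ∧
        e = p * a + g * b) (ssub (oR p g u) (comb (oR p g u) G d0) (km (oR p g u) k m))) :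
    ∃ a b : V5 A, jv (oR p g u) m G
      (V5.add (V5.smul h d0) (V5.add (V5.smul p a) (V5.smul g b))) = V5.zero A := by
  set Q : V5 A → Prop := fun v => ∃ a b : V5 A, V5.smul h v =
    V5.add (V5.smul p (jv (oR p g u) m G a)) (V5.smul g (jv (oR p g u) m G b)) with hQ
  have hadd : ∀ {v v'}, Q v → Q v' → Q (V5.add v v') := by
    rintro v v' ⟨a, b, h1⟩ ⟨a', b', h2⟩
    refine ⟨V5.add a a', V5.add b b', ?_⟩
    rw [cr_jv_add, cr_jv_add]
    generalize jv (oR p g u) m G a = x at *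
    generalize jv (oR p g u) m G a' = x' at *
    generalize jv (oR p g u) m G b = y at *
    generalize jv (oR p g u) m G b' = y' at *
    simp only [V5.add, V5.smul, V5.mk.injEq] at h1 h2 ⊢
    obtain ⟨a1, a2, a3, a4, a5⟩ := h1
    obtain ⟨b1, b2, b3, b4, b5⟩ := h2
    exact ⟨by linear_combination a1 + b1, by linear_combination a2 + b2,
      by linear_combination a3 + b3, by linear_combination a4 + b4, by linear_combination a5 + b5⟩
  have hone : ∀ (x : A) (U : S10 A), (∃ a b : A, h * a ∈ jacI (oR p g u) m G ∧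
      h * b ∈ jacI (oR p g u) m G ∧ x = p * a + g * b) →
      Q (V5.smul x (dpf (oR p g u) m U)) := by
    rintro x U ⟨a, b, ha, hb, rfl⟩
    obtain ⟨d, hd⟩ := cramer p g u m G hm h12 h24 h14 ha _ (cr_mv_dpf p g u hm U)
    obtain ⟨d', hd'⟩ := cramer p g u m G hm h12 h24 h14 hb _ (cr_mv_dpf p g u hm U)
    refine ⟨d, d', ?_⟩
    rw [hd, hd']
    ext <;> simp only [V5.add, V5.smul] <;> ring
  have hall : ∀ E : S10 A, S10.All (fun e => ∃ a b : A, h * a ∈ jacI (oR p g u) m G ∧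
      h * b ∈ jacI (oR p g u) m G ∧ e = p * a + g * b) E → Q (dpf (oR p g u) m E) := by
    rintro E ⟨e1, e2, e3, e4, e5, e6, e7, e8, e9, e10⟩
    have key := hadd (hadd (hadd (hadd (hadd (hadd (hadd (hadd (hadd
      (hone _ ⟨1, 0, 0, 0, 0, 0, 0, 0, 0, 0⟩ e1) (hone _ ⟨0, 1, 0, 0, 0, 0, 0, 0, 0, 0⟩ e2))
      (hone _ ⟨0, 0, 1, 0, 0, 0, 0, 0, 0, 0⟩ e3)) (hone _ ⟨0, 0, 0, 1, 0, 0, 0, 0, 0, 0⟩ e4))
      (hone _ ⟨0, 0, 0, 0, 1, 0, 0, 0, 0, 0⟩ e5)) (hone _ ⟨0, 0, 0, 0, 0, 1, 0, 0, 0, 0⟩ e6))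
      (hone _ ⟨0, 0, 0, 0, 0, 0, 1, 0, 0, 0⟩ e7)) (hone _ ⟨0, 0, 0, 0, 0, 0, 0, 1, 0, 0⟩ e8))
      (hone _ ⟨0, 0, 0, 0, 0, 0, 0, 0, 1, 0⟩ e9)) (hone _ ⟨0, 0, 0, 0, 0, 0, 0, 0, 0, 1⟩ e10)
    convert key using 1
    ext <;> simp only [dpf, oR, V5.add, V5.smul] <;> ring
  obtain ⟨a, b, h1⟩ := hall _ hE
  have h2 : dpf (oR p g u) m (ssub (oR p g u) (comb (oR p g u) G d0) (km (oR p g u) k m)) =
      jv (oR p g u) m G d0 := by
    have h3 := cr_dpf_km p g u hm k
    unfold jv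
    generalize comb (oR p g u) G d0 = x
    generalize km (oR p g u) k m = y at h3 ⊢
    simp only [dpf, oR, V5.zero, V5.mk.injEq, ssub] at h3 ⊢
    obtain ⟨a1, a2, a3, a4, a5⟩ := h3
    exact ⟨by linear_combination -a1, by linear_combination -a2, by linear_combination -a3,
      by linear_combination -a4, by linear_combination -a5⟩
  rw [h2] at h1
  refine ⟨V5.smul (-1) a, V5.smul (-1) b, ?_⟩
  rw [cr_jv_add, cr_jv_add, cr_jv_smul, cr_jv_smul, cr_jv_smul, cr_jv_smul, cr_jv_smul, h1]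
  ext <;> simp only [V5.add, V5.smul, V5.zero] <;> ring

end Crest.Agent.R278
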