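import Mathlib

set_option autoImplicit false

namespace Crest.Agent.R278

/-- The polynomial ring in the two parameters `p = X 0`, `g = X 1`. -/
abbrev PP : Type := MvPolynomial (Fin 2) ℂ

/-- The ideal of all `2 × 2` minors of a pair of derivations. -/
def minors {A : Type*} [CommRing A] [Algebra ℂ A] (D1 D2 : Derivation ℂ A A) : Ideal A :=
  Ideal.span {t | ∃ a b : A, t = D1 a * D2 b - D1 b * D2 a}

/-- Any three elements are algebraically dependent over `ℂ`. -/
def Dep3 (A : Type*) [CommRing A] [Algebra ℂ A] : Prop :=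
  ∀ a b c : A, ¬ AlgebraicIndependent ℂ ![a, b, c]

/-- `p, g` are nonzero and their powers form a regular sequence. -/
def RegPair {A : Type*} [CommRing A] (p g : A) : Prop :=
  p ≠ 0 ∧ g ≠ 0 ∧ ∀ (N : ℕ) (a b : A), p ^ N * a = g ^ N * b → ∃ c, a = g ^ N * c

/-- A nonzero element that multiplies the integral closure into the ring. -/
def HasConductor (A : Type*) [CommRing A] [IsDomain A] : Prop :=
  ∃ c : A, c ≠ 0 ∧ ∀ b : FractionRing A, IsIntegral A b →
    ∃ a : A, algebraMap A (FractionRing A) a = algebraMap A (FractionRing A) c * b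

end Crest.Agent.R278
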