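import Crest.Agent.R278.Basis

set_option autoImplicit false

namespace Crest.Agent.R278

/-- All parameters vanish at the origin. -/
def N8.Van (n : N8 PP) : Prop :=
  MvPolynomial.constantCoeff n.n1 = 0 ∧ MvPolynomial.constantCoeff n.n2 = 0 ∧
  MvPolynomial.constantCoeff n.n3 = 0 ∧ MvPolynomial.constantCoeff n.n4 = 0 ∧
  MvPolynomial.constantCoeff n.n5 = 0 ∧ MvPolynomial.constantCoeff n.n6 = 0 ∧
  MvPolynomial.constantCoeff n.n7 = 0 ∧ MvPolynomial.constantCoeff n.n8 = 0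

theorem dp_lift {B : Type} [CommRing B] [Algebra ℂ B] (n : N8 PP) (ψ0 : PP →ₐ[ℂ] B) (x y z : B)
    (h : pf (oR 0 0 0) (mM (oR 0 0 0) (n.map ψ0) x y z) = V5.zero B) :
    ∃ ψ : Alg n →ₐ[ℂ] B, (∀ f, ψ (algebraMap PP (Alg n) f) = ψ0 f) ∧ ψ (aX n) = x ∧
      ψ (aY n) = y ∧ ψ (aZ n) = z := by
  let θ : MvPolynomial (Fin 3) PP →ₐ[ℂ] B := MvPolynomial.aevalTower ψ0 ![x, y, z]
  have hC : ∀ f, θ (MvPolynomial.C f) = ψ0 f := fun f => MvPolynomial.aevalTower_C _ _ _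
  have h0 : θ (MvPolynomial.X 0) = x := MvPolynomial.aevalTower_X _ _ _
  have h1 : θ (MvPolynomial.X 1) = y := MvPolynomial.aevalTower_X _ _ _
  have h2 : θ (MvPolynomial.X 2) = z := MvPolynomial.aevalTower_X _ _ _
  have e1 := congrArg V5.v1 h
  have e2 := congrArg V5.v2 h
  have e3 := congrArg V5.v3 h
  have e4 := congrArg V5.v4 h
  have e5 := congrArg V5.v5 h
  simp only [pf, mM, oR, N8.map, V5.zero] at e1 e2 e3 e4 e5
  have hker : ∀ a ∈ relI n, θ a = 0 := by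
    intro a ha
    have : relI n ≤ RingHom.ker θ := by
      unfold relI
      rw [Ideal.span_le]
      intro r hr
      simp only [Set.mem_insert_iff, Set.mem_singleton_iff] at hr
      rw [SetLike.mem_coe, RingHom.mem_ker]
      rcases hr with rfl | rfl | rfl | rfl | rfl <;>
        simp only [rels, pf, mM, oR, N8.map, map_add, map_mul, map_neg, hC, h0, h1, h2] <;>
        assumption
    exact this ha
  refine ⟨Ideal.Quotient.liftₐ (relI n) θ hker, fun f => ?_, h0, h1, h2⟩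
  exact hC f

theorem dp_ext {B : Type} [CommRing B] [Algebra ℂ B] (n : N8 PP) (φ ψ : Alg n →ₐ[ℂ] B)
    (hp : ∀ i, φ (algebraMap PP (Alg n) (MvPolynomial.X i)) =
      ψ (algebraMap PP (Alg n) (MvPolynomial.X i)))
    (hx : φ (aX n) = ψ (aX n)) (hy : φ (aY n) = ψ (aY n)) (hz : φ (aZ n) = ψ (aZ n)) : φ = ψ := by
  have hP : ∀ f, φ (algebraMap PP (Alg n) f) = ψ (algebraMap PP (Alg n) f) := by
    intro f
    have : φ.comp (IsScalarTower.toAlgHom ℂ PP (Alg n)) =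
        ψ.comp (IsScalarTower.toAlgHom ℂ PP (Alg n)) := MvPolynomial.algHom_ext hp
    exact DFunLike.congr_fun this f
  apply AlgHom.ext
  intro a
  obtain ⟨a, rfl⟩ := Ideal.Quotient.mk_surjective a
  induction a using MvPolynomial.induction_on with
  | C f => exact hP f
  | add a b ha hb => rw [map_add, map_add, map_add, ha, hb]
  | mul_X a i ha =>
    rw [map_mul, map_mul, map_mul, ha]
    congr 1
    fin_cases i
    · exact hx
    · exact hy
    · exact hz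

theorem dp_der {A : Type} [CommRing A] [Algebra ℂ A] (ψ : A →ₐ[ℂ] TrivSqZeroExt A A)
    (h : ∀ a, (ψ a).fst = a) : ∃ D : Derivation ℂ A A, ∀ a, D a = (ψ a).snd := by
  refine ⟨Derivation.mk' ((TrivSqZeroExt.sndHom A A).restrictScalars ℂ ∘ₗ ψ.toLinearMap) ?_,
    fun a => rfl⟩
  intro a b
  simp [h, mul_comm]

theorem dp_pf {A : Type} [CommRing A] (p g u : A) (N Np Ng : N8 A) (x y z : A) (d : V5 A)
    (h : pf (oR p g u) (mM (oR p g u) N x y z) = V5.zero A)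
    (hd : jv (oR p g u) (mM (oR p g u) N x y z) (mG (oR p g u) N Np Ng x) d = V5.zero A)
    (M : N8 (TrivSqZeroExt A A)) (hM : M.map TrivSqZeroExt.fst = N)
    (s1 : M.n1.snd = Np.n1 * d.v1 + Ng.n1 * d.v2) (s2 : M.n2.snd = Np.n2 * d.v1 + Ng.n2 * d.v2)
    (s3 : M.n3.snd = Np.n3 * d.v1 + Ng.n3 * d.v2) (s4 : M.n4.snd = Np.n4 * d.v1 + Ng.n4 * d.v2)
    (s5 : M.n5.snd = Np.n5 * d.v1 + Ng.n5 * d.v2) (s6 : M.n6.snd = Np.n6 * d.v1 + Ng.n6 * d.v2)
    (s7 : M.n7.snd = Np.n7 * d.v1 + Ng.n7 * d.v2) (s8 : M.n8.snd = Np.n8 * d.v1 + Ng.n8 * d.v2) :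
    pf (oR 0 0 0) (mM (oR 0 0 0) M (TrivSqZeroExt.inl x + TrivSqZeroExt.inr d.v3)
      (TrivSqZeroExt.inl y + TrivSqZeroExt.inr d.v4)
      (TrivSqZeroExt.inl z + TrivSqZeroExt.inr d.v5)) = V5.zero _ := by
  subst hM
  have e1 := congrArg V5.v1 h
  have e2 := congrArg V5.v2 h
  have e3 := congrArg V5.v3 h
  have e4 := congrArg V5.v4 h
  have e5 := congrArg V5.v5 h
  have f1 := congrArg V5.v1 hd
  have f2 := congrArg V5.v2 hd
  have f3 := congrArg V5.v3 hd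
  have f4 := congrArg V5.v4 hd
  have f5 := congrArg V5.v5 hd
  simp only [jv, dpf, comb, mG, mD, pf, mM, oR, N8.map, V5.zero, Nat.cast_zero, Nat.cast_one]
    at e1 e2 e3 e4 e5 f1 f2 f3 f4 f5
  apply V5.ext <;> apply TrivSqZeroExt.ext <;>
    simp only [pf, mM, oR, V5.zero, TrivSqZeroExt.fst_add, TrivSqZeroExt.fst_mul,
      TrivSqZeroExt.fst_neg, TrivSqZeroExt.fst_inl, TrivSqZeroExt.fst_inr, TrivSqZeroExt.fst_zero,
      TrivSqZeroExt.snd_add, TrivSqZeroExt.snd_mul, TrivSqZeroExt.snd_neg, TrivSqZeroExt.snd_inl,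
      TrivSqZeroExt.snd_inr, TrivSqZeroExt.snd_zero, smul_eq_mul, MulOpposite.smul_eq_mul_unop,
      MulOpposite.unop_op, s1, s2, s3, s4, s5, s6, s7, s8]
  · linear_combination e1
  · linear_combination f1
  · linear_combination e2
  · linear_combination f2
  · linear_combination e3
  · linear_combination f3
  · linear_combination e4
  · linear_combination f4
  · linear_combination e5
  · linear_combination f5

theorem dp_base {A : Type} [CommRing A] [Algebra ℂ A] [Algebra PP A] [IsScalarTower ℂ PP A]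
    (d1 d2 : A) :
    ∃ ψ0 : PP →ₐ[ℂ] TrivSqZeroExt A A, ∀ f, (ψ0 f).fst = algebraMap PP A f ∧
      (ψ0 f).snd = algebraMap PP A (MvPolynomial.pderiv 0 f) * d1 +
        algebraMap PP A (MvPolynomial.pderiv 1 f) * d2 := by
  refine ⟨MvPolynomial.aeval
    ![TrivSqZeroExt.inl (algebraMap PP A (MvPolynomial.X 0)) + TrivSqZeroExt.inr d1,
      TrivSqZeroExt.inl (algebraMap PP A (MvPolynomial.X 1)) + TrivSqZeroExt.inr d2], ?_⟩
  intro f
  induction f using MvPolynomial.induction_on with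
  | C c =>
    rw [MvPolynomial.aeval_C, TrivSqZeroExt.algebraMap_eq_inl']
    refine ⟨?_, by simp⟩
    rw [TrivSqZeroExt.fst_inl, IsScalarTower.algebraMap_apply ℂ PP A]
    rfl
  | add a b ha hb =>
    simp only [map_add, TrivSqZeroExt.fst_add, TrivSqZeroExt.snd_add, ha.1, ha.2, hb.1, hb.2]
    exact ⟨trivial, by ring⟩
  | mul_X a i ha =>
    simp only [map_mul, TrivSqZeroExt.fst_mul, TrivSqZeroExt.snd_mul, ha.1, ha.2,
      MvPolynomial.aeval_X, Derivation.leibniz, smul_eq_mul, map_add]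
    fin_cases i
    · simp [MvPolynomial.pderiv_X]
      ring
    · simp [MvPolynomial.pderiv_X]
      ring

theorem dp_gen {A : Type} [CommRing A] [Algebra ℂ A] [Algebra PP A] [IsScalarTower ℂ PP A]
    (n : N8 PP) (p g u x y z : A) (d : V5 A)
    (h : pf (oR p g u) (mM (oR p g u) (n.map (algebraMap PP A)) x y z) = V5.zero A)
    (hd : jv (oR p g u) (mM (oR p g u) (n.map (algebraMap PP A)) x y z)
      (mG (oR p g u) (n.map (algebraMap PP A))
        (n.map fun f => algebraMap PP A (MvPolynomial.pderiv 0 f))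
        (n.map fun f => algebraMap PP A (MvPolynomial.pderiv 1 f)) x) d = V5.zero A) :
    ∃ ψ : Alg n →ₐ[ℂ] TrivSqZeroExt A A,
      (∀ f, (ψ (algebraMap PP (Alg n) f)).fst = algebraMap PP A f) ∧
      (ψ (algebraMap PP (Alg n) (MvPolynomial.X 0))).snd = d.v1 ∧
      (ψ (algebraMap PP (Alg n) (MvPolynomial.X 1))).snd = d.v2 ∧
      ((ψ (aX n)).fst = x ∧ (ψ (aX n)).snd = d.v3) ∧ ((ψ (aY n)).fst = y ∧ (ψ (aY n)).snd = d.v4) ∧
      ((ψ (aZ n)).fst = z ∧ (ψ (aZ n)).snd = d.v5) := by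
  obtain ⟨ψ0, h0⟩ := dp_base (A := A) d.v1 d.v2
  have hM : (n.map ψ0).map TrivSqZeroExt.fst = n.map (algebraMap PP A) := by
    simp only [N8.map, fun f => (h0 f).1]
  have hrel := dp_pf p g u (n.map (algebraMap PP A))
    (n.map fun f => algebraMap PP A (MvPolynomial.pderiv 0 f))
    (n.map fun f => algebraMap PP A (MvPolynomial.pderiv 1 f)) x y z d
    h hd (n.map ψ0) hM (h0 n.n1).2 (h0 n.n2).2 (h0 n.n3).2
      (h0 n.n4).2 (h0 n.n5).2 (h0 n.n6).2 (h0 n.n7).2 (h0 n.n8).2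
  obtain ⟨ψ, hP, hx, hy, hz⟩ := dp_lift n ψ0 _ _ _ hrel
  refine ⟨ψ, fun f => by rw [hP, (h0 _).1], ?_, ?_, ?_, ?_, ?_⟩
  · rw [hP, (h0 _).2]
    simp [MvPolynomial.pderiv_X]
  · rw [hP, (h0 _).2]
    simp [MvPolynomial.pderiv_X]
  · rw [hx]
    simp
  · rw [hy]
    simp
  · rw [hz]
    simp

theorem dp_fst {A : Type} [CommRing A] [Algebra ℂ A] (n : N8 PP)
    (ψ : Alg n →ₐ[ℂ] TrivSqZeroExt A A) (φ : Alg n →ₐ[ℂ] A)
    (hP : ∀ f, (ψ (algebraMap PP (Alg n) f)).fst = φ (algebraMap PP (Alg n) f))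
    (hx : (ψ (aX n)).fst = φ (aX n)) (hy : (ψ (aY n)).fst = φ (aY n))
    (hz : (ψ (aZ n)).fst = φ (aZ n)) (a : Alg n) : (ψ a).fst = φ a := by
  have hid : (TrivSqZeroExt.fstHom ℂ A A).comp ψ = φ :=
    dp_ext n _ _ (fun i => hP _) hx hy hz
  exact DFunLike.congr_fun hid a

theorem exists_der (n : N8 PP) (p g u : Alg n) (d : V5 (Alg n))
    (hd : jv (oR p g u) (mM (oR p g u) (n.map (algebraMap PP (Alg n))) (aX n) (aY n) (aZ n))
      (mG (oR p g u) (n.map (algebraMap PP (Alg n)))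
        (n.map fun f => algebraMap PP (Alg n) (MvPolynomial.pderiv 0 f))
        (n.map fun f => algebraMap PP (Alg n) (MvPolynomial.pderiv 1 f)) (aX n)) d =
      V5.zero (Alg n)) :
    ∃ D : Derivation ℂ (Alg n) (Alg n),
      D (algebraMap PP (Alg n) (MvPolynomial.X 0)) = d.v1 ∧
      D (algebraMap PP (Alg n) (MvPolynomial.X 1)) = d.v2 ∧
      D (aX n) = d.v3 ∧ D (aY n) = d.v4 ∧ D (aZ n) = d.v5 := by
  obtain ⟨ψ, hP, h1, h2, hx, hy, hz⟩ := dp_gen n p g u (aX n) (aY n) (aZ n) d (alg_rel n p g u) hd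
  obtain ⟨D, hD⟩ := dp_der (A := Alg n) ψ
    (fun a => dp_fst n ψ (AlgHom.id ℂ (Alg n)) hP hx.1 hy.1 hz.1 a)
  exact ⟨D, (hD _).trans h1, (hD _).trans h2, (hD _).trans hx.2, (hD _).trans hy.2,
    (hD _).trans hz.2⟩

theorem exists_phi (n : N8 PP) (hn : n.Van) :
    ∃ φ : Alg n →ₐ[ℂ] TrivSqZeroExt ℂ (Fin 3 → ℂ), Function.Surjective φ ∧
      ∀ a : V6 PP, (φ (emb (aX n) (aY n) (aZ n) a)).fst = MvPolynomial.constantCoeff a.c0 := by
  let ψ0 : PP →ₐ[ℂ] TrivSqZeroExt ℂ (Fin 3 → ℂ) := MvPolynomial.aeval fun _ => 0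
  have h0 : ∀ f, ψ0 f = algebraMap ℂ _ (MvPolynomial.constantCoeff f) := fun f =>
    MvPolynomial.aeval_zero' f
  obtain ⟨h1, h2, h3, h4, h5, h6, h7, h8⟩ := hn
  have hrel : pf (oR 0 0 0) (mM (oR 0 0 0) (n.map ψ0) (TrivSqZeroExt.inr (Pi.single 0 1))
      (TrivSqZeroExt.inr (Pi.single 1 1)) (TrivSqZeroExt.inr (Pi.single 2 1))) = V5.zero _ := by
    simp only [pf, mM, oR, N8.map, h0, h1, h2, h3, h4, h5, h6, h7, h8, map_zero, V5.zero,
      TrivSqZeroExt.inr_mul_inr, add_zero, zero_add, mul_zero, zero_mul, neg_zero,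
      ← TrivSqZeroExt.inr_neg]
  obtain ⟨ψ, hP, hx, hy, hz⟩ := dp_lift n ψ0 _ _ _ hrel
  refine ⟨ψ, fun t => ?_, fun a => ?_⟩
  · refine ⟨algebraMap ℂ _ t.fst + t.snd 0 • aX n + t.snd 1 • aY n + t.snd 2 • aZ n, ?_⟩
    simp only [map_add, map_smul, AlgHom.commutes, hx, hy, hz]
    apply TrivSqZeroExt.ext
    · simp [TrivSqZeroExt.algebraMap_eq_inl]
    · funext i
      fin_cases i <;> simp [TrivSqZeroExt.algebraMap_eq_inl]
  · simp [emb, hP, h0, hx, hy, hz, TrivSqZeroExt.algebraMap_eq_inl]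

theorem socle (n : N8 PP) (hn : n.Van) (Q : ℕ) (c a : V6 PP)
    (hc : MvPolynomial.constantCoeff c.c0 = 0)
    (h : emb (aX n) (aY n) (aZ n) (tr (oP Q) n) * emb (aX n) (aY n) (aZ n) c =
      emb (aX n) (aY n) (aZ n) a) : MvPolynomial.constantCoeff a.c3 = 0 := by
  have hH := emb_hom n (aX n) (aY n) (aZ n) Q (alg_rel n _ _ _)
  have h1 : emb (aX n) (aY n) (aZ n) (mulA (oP Q) n (tr (oP Q) n) c) =
      emb (aX n) (aY n) (aZ n) a := by
    rw [← h]
    exact hH.mul (a := tr (oP Q) n) (b := c) rfl rfl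
  have h2 := emb_inj n h1
  obtain ⟨n1, n2, n3, n4, n5, n6, n7, n8⟩ := hn
  have x3 : ∀ b : V6 PP, MvPolynomial.constantCoeff (mulX (oP Q) n b).c3 =
      MvPolynomial.constantCoeff b.c2 := by
    intro b
    simp [mulX, vadd, vsm, tx4, txy, txz, oP, oR, n2, n6]
  have x2 : ∀ b : V6 PP, MvPolynomial.constantCoeff (mulX (oP Q) n b).c2 =
      MvPolynomial.constantCoeff b.c1 := by
    intro b
    simp [mulX, vadd, vsm, tx4, txy, txz, oP, oR, n1, n2, n7]
  have x1 : ∀ b : V6 PP, MvPolynomial.constantCoeff (mulX (oP Q) n b).c1 =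
      MvPolynomial.constantCoeff b.c0 := by
    intro b
    simp [mulX, vadd, vsm, tx4, txy, txz, oP, oR, n1, n2, n3, n4]
  have t0 : MvPolynomial.constantCoeff (tr (oP Q) n).c0 = 0 := by
    simp [tr, oP, oR, n1, n2, n3, n4]
  have t1 : MvPolynomial.constantCoeff (tr (oP Q) n).c1 = 0 := by
    simp [tr, oP, oR, n1, n2, n7]
  have t2 : MvPolynomial.constantCoeff (tr (oP Q) n).c2 = 0 := by
    simp [tr, oP, oR, n2, n6]
  have t4 : MvPolynomial.constantCoeff (tr (oP Q) n).c4 = 0 := by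
    simp [tr, oP, oR, n4, n5]
  have t5 : MvPolynomial.constantCoeff (tr (oP Q) n).c5 = 0 := by
    simp [tr, oP, oR, n3, n8]
  rw [← h2]
  have e : (mulA (oP Q) n (tr (oP Q) n) c).c3 =
      (((tr (oP Q) n).c0 * c.c3 + (tr (oP Q) n).c1 * (mulX (oP Q) n c).c3) +
        ((tr (oP Q) n).c2 * (mulX (oP Q) n (mulX (oP Q) n c)).c3 +
          (tr (oP Q) n).c3 * (mulX (oP Q) n (mulX (oP Q) n (mulX (oP Q) n c))).c3)) +
      ((tr (oP Q) n).c4 * (mulY (oP Q) n c).c3 + (tr (oP Q) n).c5 * (mulZ (oP Q) n c).c3) := rfl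
  rw [e]
  simp only [map_add, map_mul, t0, t1, t2, t4, t5, x3, x2, x1, hc, zero_mul, mul_zero, add_zero]

end Crest.Agent.R278
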