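import Crest.Agent.R278.Defs

set_option autoImplicit false

namespace Crest.Agent.R278

variable {A : Type} [CommRing A] [IsDomain A] [Algebra ℂ A] [Algebra PP A]
  [IsScalarTower ℂ PP A] [Module.Finite PP A] [Module.Free PP A]

theorem dim_PP : ringKrullDim PP = 2 := by
  rw [MvPolynomial.ringKrullDim_of_isNoetherianRing, ringKrullDim_eq_zero_of_field]
  simp

theorem dim_height_PP (p : Ideal PP) [p.IsPrime] (hp : MvPolynomial.X 0 ∈ p)
    (hg : MvPolynomial.X 1 ∈ p) : 2 ≤ p.height := by
  have hX : Prime (MvPolynomial.X 0 : PP) := MvPolynomial.X_prime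
  have := (Ideal.span_singleton_prime hX.ne_zero).2 hX
  have h₁ := Ideal.one_le_height_span_singleton_of_mem_nonZeroDivisors
    (mem_nonZeroDivisors_of_ne_zero hX.ne_zero)
  have h₂ : Ideal.span {(MvPolynomial.X 0 : PP)} < p := by
    refine lt_of_le_of_ne ((Ideal.span_singleton_le_iff_mem _).2 hp) fun h => ?_
    rw [← h, Ideal.mem_span_singleton, MvPolynomial.X_dvd_X] at hg
    simp at hg
  refine le_trans ?_ (Ideal.height_add_one_le_of_lt_of_isPrime h₂)
  rw [← one_add_one_eq_two]
  gcongr

theorem dim_away (m : Ideal A) [m.IsMaximal]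
    (hp : algebraMap PP A (MvPolynomial.X 0) ∈ m) (hg : algebraMap PP A (MvPolynomial.X 1) ∈ m)
    (u : A) (hu : u ∉ m) : ringKrullDim (Localization.Away u) = 2 := by
  have : IsNoetherianRing A := .of_finite PP A
  refine le_antisymm ?_ ?_
  · have h₁ : ringKrullDim (Localization.Away u) ≤ ringKrullDim A :=
      Order.krullDim_le_of_strictMono _
        (PrimeSpectrum.localization_comap_injective (Localization.Away u) (Submonoid.powers u)
          |> Monotone.strictMono_of_injective fun _ _ h => Ideal.comap_mono h)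
    have h₂ : ringKrullDim A ≤ ringKrullDim PP :=
      Order.krullDim_le_of_strictMono (PrimeSpectrum.comap (algebraMap PP A))
        fun p q h => Ideal.IsIntegral.comap_lt_comap (I := p.asIdeal) (J := q.asIdeal) h
    exact h₁.trans (h₂.trans dim_PP.le)
  · have hd : Disjoint (Submonoid.powers u : Set A) (m : Set A) :=
      (Ideal.disjoint_powers_iff_notMem u (Ideal.IsPrime.isRadical inferInstance)).2 hu
    have := IsLocalization.isPrime_of_isPrime_disjoint (Submonoid.powers u) (Localization.Away u) m
      inferInstance hd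
    refine le_trans ?_ (Ideal.height_le_ringKrullDim_of_isPrime
      (I := m.map (algebraMap A (Localization.Away u))))
    rw [IsLocalization.height_map_of_disjoint (Submonoid.powers u) m hd,
      Ideal.height_eq_height_add_of_liesOver_of_hasGoingDown (m.under PP) m]
    exact WithBot.coe_le_coe.2 ((dim_height_PP (m.under PP) hp hg).trans le_self_add)

/-- A finite type algebra of dimension two with a point of embedding dimension at least three. -/
theorem not_regular {B : Type} [CommRing B] [Algebra ℂ B] (hdim : ringKrullDim B = 2)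
    (φ : B →ₐ[ℂ] TrivSqZeroExt ℂ (Fin 3 → ℂ)) (hφ : Function.Surjective φ) :
    ∃ (m : Ideal B) (_ : m.IsMaximal), ¬ IsRegularLocalRing (Localization.AtPrime m) := by
  classical
  let π : B →+* ℂ := ((TrivSqZeroExt.fstHom ℂ ℂ (Fin 3 → ℂ)).comp φ).toRingHom
  have hπ : Function.Surjective π := fun z => by
    obtain ⟨b, hb⟩ := hφ (TrivSqZeroExt.inl z)
    exact ⟨b, by simp [π, hb]⟩
  have hm : (RingHom.ker π).IsMaximal := RingHom.ker_isMaximal_of_surjective π hπ
  refine ⟨RingHom.ker π, hm, fun hR => ?_⟩
  let R := Localization.AtPrime (RingHom.ker π)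
  have hf : ∀ y : (RingHom.ker π).primeCompl, IsUnit (φ.toRingHom y) := fun y =>
    TrivSqZeroExt.isUnit_iff_isUnit_fst.2 (Ne.isUnit y.2)
  let ψ : R →+* TrivSqZeroExt ℂ (Fin 3 → ℂ) := IsLocalization.lift hf
  have hψ : ∀ b, ψ (algebraMap B R b) = φ b := fun b => IsLocalization.lift_eq hf b
  obtain ⟨s, hs, hs'⟩ := Submodule.FG.exists_span_finset_card_eq_spanFinrank
    (IsNoetherian.noetherian (IsLocalRing.maximalIdeal R))
  have h₁ : s.card ≤ 2 := by
    have h := hR.spanFinrank_maximalIdeal
    rw [IsLocalization.AtPrime.ringKrullDim_eq_height (RingHom.ker π)] at h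
    have h' := Ideal.height_le_ringKrullDim_of_isPrime (I := RingHom.ker π)
    rw [← h, hdim, ← hs] at h'
    exact_mod_cast h'
  have h₂ : ∀ x ∈ IsLocalRing.maximalIdeal R, (ψ x).fst = 0 := by
    have : IsLocalRing.maximalIdeal R ≤ RingHom.ker
        ((TrivSqZeroExt.fstHom ℂ ℂ (Fin 3 → ℂ)).toRingHom.comp ψ) := by
      rw [← Localization.AtPrime.map_eq_maximalIdeal, Ideal.map_le_iff_le_comap]
      intro b hb
      change (ψ (algebraMap B R b)).fst = 0
      rw [hψ]
      exact hb
    exact fun x hx => this hx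
  have h₃ : ∀ x ∈ Submodule.span R (s : Set R), (ψ x).snd ∈
      Submodule.span ℂ ((s.image fun x => (ψ x).snd : Finset (Fin 3 → ℂ)) : Set (Fin 3 → ℂ)) := by
    intro x hx
    induction hx using Submodule.span_induction with
    | mem x hx => exact Submodule.subset_span (Finset.mem_coe.2 (Finset.mem_image_of_mem _ hx))
    | zero => simp
    | add x y _ _ hx hy => rw [map_add, TrivSqZeroExt.snd_add]; exact add_mem hx hy
    | smul r x hx ih =>
      rw [smul_eq_mul, map_mul, TrivSqZeroExt.snd_mul, h₂ x (hs' ▸ hx), MulOpposite.op_zero,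
        zero_smul, add_zero]
      exact Submodule.smul_mem _ _ ih
  have h₄ : Submodule.span ℂ ((s.image fun x => (ψ x).snd : Finset (Fin 3 → ℂ)) :
      Set (Fin 3 → ℂ)) = ⊤ := by
    refine eq_top_iff.2 fun v _ => ?_
    obtain ⟨b, hb⟩ := hφ (TrivSqZeroExt.inr v)
    have hbm : algebraMap B R b ∈ IsLocalRing.maximalIdeal R := by
      rw [← Localization.AtPrime.map_eq_maximalIdeal]
      exact Ideal.mem_map_of_mem _ (by simp [RingHom.mem_ker, π, hb])
    have := h₃ _ (hs'.symm ▸ hbm)
    rwa [hψ, hb, TrivSqZeroExt.snd_inr] at this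
  have h₅ := finrank_span_finset_le_card (R := ℂ) (s.image fun x => (ψ x).snd)
  rw [Set.finrank, h₄, finrank_top, Module.finrank_fin_fun] at h₅
  have := Finset.card_image_le (s := s) (f := fun x => (ψ x).snd)
  omega

end Crest.Agent.R278
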