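import Crest.Agent.R278.Ops

set_option autoImplicit false

namespace Crest.Agent.R278

open Polynomial

/-- the monic sextic with prescribed lower coefficients -/
noncomputable def sext {R : Type} [CommRing R] (b : Fin 6 → R) : R[X] :=
  X ^ 6 + ∑ i : Fin 6, C (b i) * X ^ (i : ℕ)

section
variable {R : Type} [CommRing R]

theorem sext_monic (b : Fin 6 → R) : (sext b).Monic :=
  monic_X_pow_add (degree_sum_fin_lt b)

theorem sext_natDegree [Nontrivial R] (b : Fin 6 → R) : (sext b).natDegree = 6 := by
  have h : (∑ i : Fin 6, C (b i) * X ^ (i : ℕ) : R[X]).degree < (X ^ 6 : R[X]).degree := by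
    rw [degree_X_pow]; exact degree_sum_fin_lt b
  rw [sext, natDegree_add_eq_left_of_degree_lt h, natDegree_X_pow]

theorem sext_coeff (b : Fin 6 → R) (i : Fin 6) : (sext b).coeff i = b i := by
  have hi : (i : ℕ) ≠ 6 := i.2.ne
  simp only [sext, coeff_add, coeff_X_pow, if_neg hi, zero_add, finsetSum_coeff, coeff_C_mul,
    mul_ite, mul_one, mul_zero]
  rw [Finset.sum_eq_single i]
  · simp
  · intro j _ hj
    rw [if_neg]
    intro h
    exact hj (Fin.ext h.symm)
  · simp

theorem sext_map {S : Type} [CommRing S] (f : R →+* S) (b : Fin 6 → R) :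
    (sext b).map f = sext (fun i => f (b i)) := by
  simp [sext, Polynomial.map_sum]

theorem sext_ext [Nontrivial R] {p : R[X]} (hp : p.Monic) (hd : p.natDegree = 6) (b : Fin 6 → R)
    (h : ∀ i : Fin 6, p.coeff i = b i) : p = sext b := by
  ext k
  rcases lt_trichotomy k 6 with hk | hk | hk
  · have h1 := h ⟨k, hk⟩
    have h2 := sext_coeff b ⟨k, hk⟩
    simp only at h1 h2
    rw [h1, h2]
  · subst hk
    have h1 := hp.coeff_natDegree
    have h2 := (sext_monic b).coeff_natDegree
    rw [hd] at h1
    rw [sext_natDegree] at h2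
    rw [h1, h2]
  · rw [coeff_eq_zero_of_natDegree_lt (by omega),
      coeff_eq_zero_of_natDegree_lt (by rw [sext_natDegree]; omega)]

end

theorem irreducible_scaleRoots {K : Type} [Field K] {g : K[X]} (hg : Irreducible g) {c : K}
    (hc : c ≠ 0) : Irreducible (g.scaleRoots c) := by
  refine ⟨fun h => hg.not_isUnit ?_, fun p q hpq => ?_⟩
  · rw [isUnit_iff_degree_eq_zero] at h ⊢
    rwa [degree_scaleRoots] at h
  · have h1 : g = p.scaleRoots c⁻¹ * q.scaleRoots c⁻¹ := by
      rw [← mul_scaleRoots_of_noZeroDivisors, ← hpq, ← scaleRoots_mul, mul_inv_cancel₀ hc,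
        scaleRoots_one]
    rcases hg.isUnit_or_isUnit h1 with h | h
    · left
      rw [isUnit_iff_degree_eq_zero] at h ⊢
      rwa [degree_scaleRoots] at h
    · right
      rw [isUnit_iff_degree_eq_zero] at h ⊢
      rwa [degree_scaleRoots] at h

theorem irred_sext (c : Fin 6 → ℂ[X])
    (h0 : ∀ i : Fin 6, ∀ k ≤ 6 * (6 - (i : ℕ)), (c i).coeff k = 0)
    (h1 : (c 0).coeff 37 ≠ 0) : Irreducible (sext c) := by
  have hd : ∀ i : Fin 6, ∃ a : ℂ[X], c i = X ^ (6 * (6 - (i : ℕ)) + 1) * a := fun i =>
    X_pow_dvd_iff.2 fun d hd => h0 i d (by omega)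
  choose a ha using hd
  set g : ℂ[X][X] := sext fun i => X * a i with hg
  have hgm : g.Monic := sext_monic _
  have hgd : g.natDegree = 6 := sext_natDegree _
  have hP : (Ideal.span {(X : ℂ[X])}).IsPrime :=
    (Ideal.span_singleton_prime X_ne_zero).2 prime_X
  have hE : g.IsEisensteinAt (Ideal.span {(X : ℂ[X])}) := by
    refine hgm.isEisensteinAt_of_mem_of_notMem hP.ne_top (fun {k} hk => ?_) ?_
    · rw [hgd] at hk
      have := sext_coeff (fun i => X * a i) ⟨k, hk⟩
      simp only at this
      rw [hg, this, Ideal.mem_span_singleton]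
      exact dvd_mul_right _ _
    · have := sext_coeff (fun i => X * a i) 0
      simp only [Fin.val_zero] at this
      rw [hg, this, Ideal.span_singleton_pow, Ideal.mem_span_singleton]
      rintro ⟨d, hd⟩
      apply h1
      have h2 := ha 0
      simp only [Fin.val_zero] at h2
      have h3 : c 0 = X ^ 38 * d := by
        rw [h2]
        have : (X : ℂ[X]) ^ (6 * (6 - 0) + 1) * a 0 = X ^ 36 * (X * a 0) := by ring
        rw [this, hd]; ring
      rw [h3]
      exact X_pow_dvd_iff.1 (dvd_mul_right _ _) 37 (by norm_num)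
  have hgi : Irreducible g := hE.irreducible hP hgm.isPrimitive (by omega)
  have hsc : sext c = g.scaleRoots (X ^ 6) := by
    symm
    refine sext_ext ((monic_scaleRoots_iff _).2 hgm) (by rw [natDegree_scaleRoots, hgd]) c
      fun i => ?_
    rw [coeff_scaleRoots, hgd, hg, sext_coeff, ha i, ← pow_mul]
    ring
  let K := FractionRing ℂ[X]
  have hinj : Function.Injective (algebraMap ℂ[X] K) := IsFractionRing.injective _ _
  rw [(sext_monic c).irreducible_iff_irreducible_map_fraction_map (K := K), hsc,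
    map_scaleRoots _ _ _ (by rw [hgm.leadingCoeff, map_one]; exact one_ne_zero)]
  refine irreducible_scaleRoots
    ((hgm.irreducible_iff_irreducible_map_fraction_map (K := K)).1 hgi) ?_
  rw [map_ne_zero_iff _ hinj]
  exact pow_ne_zero _ X_ne_zero

theorem irred_of_arc (b : Fin 6 → PP)
    (h0 : ∀ i : Fin 6, ∀ k ≤ 6 * (6 - (i : ℕ)), (arc 2 7 (b i)).coeff k = 0)
    (h1 : (arc 2 7 (b 0)).coeff 37 ≠ 0) :
    Irreducible (Polynomial.X ^ 6 + ∑ i : Fin 6, Polynomial.C (b i) * Polynomial.X ^ (i : ℕ) :
      Polynomial PP) := by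
  refine Monic.irreducible_of_irreducible_map (arc 2 7).toRingHom (sext b) (sext_monic b) ?_
  rw [sext_map]
  exact irred_sext (fun i => arc 2 7 (b i)) h0 h1

open scoped TensorProduct in
theorem domain_of_arc {A : Type} [CommRing A] [Algebra PP A] [Module.Free PP A]
    [Module.Finite PP A] (hr : Module.finrank PP A = 6) (s : A) (b : Fin 6 → PP)
    (hs : s ^ 6 + ∑ i : Fin 6, algebraMap PP A (b i) * s ^ (i : ℕ) = 0)
    (h0 : ∀ i : Fin 6, ∀ k ≤ 6 * (6 - (i : ℕ)), (arc 2 7 (b i)).coeff k = 0)
    (h1 : (arc 2 7 (b 0)).coeff 37 ≠ 0) : IsDomain A := by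
  let K := FractionRing PP
  have hinj : Function.Injective (algebraMap PP K) := IsFractionRing.injective _ _
  have hL : Module.finrank K (K ⊗[PP] A) = 6 := by rw [Module.finrank_baseChange, hr]
  have : Nontrivial (K ⊗[PP] A) := Module.nontrivial_of_finrank_pos (R := K) (by omega)
  have hirr : Irreducible (sext b) := irred_of_arc b h0 h1
  set q : K[X] := (sext b).map (algebraMap PP K) with hq
  have hqi : Irreducible q :=
    ((sext_monic b).irreducible_iff_irreducible_map_fraction_map (K := K)).1 hirr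
  have hqm : q.Monic := (sext_monic b).map _
  have hqd : q.natDegree = 6 := by rw [hq, (sext_monic b).natDegree_map, sext_natDegree]
  have : Fact (Irreducible q) := ⟨hqi⟩
  let ι : A →ₐ[PP] K ⊗[PP] A := Algebra.TensorProduct.includeRight
  have hι : Function.Injective ι := Algebra.TensorProduct.includeRight_injective hinj
  have hroot : aeval (ι s) q = 0 := by
    rw [hq, aeval_map_algebraMap, aeval_algHom_apply]
    have : aeval s (sext b) = 0 := by
      simpa [sext] using hs
    rw [this, map_zero]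
  let φ : AdjoinRoot q →ₐ[K] K ⊗[PP] A := AdjoinRoot.liftAlgHom q (Algebra.ofId K _) (ι s) hroot
  have : IsSimpleRing (AdjoinRoot q) := DivisionRing.isSimpleRing (AdjoinRoot q)
  have hφ : Function.Injective φ := φ.toRingHom.injective
  have hfr : Module.finrank K (AdjoinRoot q) = Module.finrank K (K ⊗[PP] A) := by
    rw [hL, (AdjoinRoot.powerBasis hqi.ne_zero).finrank, AdjoinRoot.powerBasis_dim, hqd]
  have : FiniteDimensional K (AdjoinRoot q) := (AdjoinRoot.powerBasis hqi.ne_zero).finite
  have hsurj : Function.Surjective φ :=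
    (LinearMap.injective_iff_surjective_of_finrank_eq_finrank (f := φ.toLinearMap) hfr).1 hφ
  have : IsDomain (K ⊗[PP] A) :=
    (RingEquiv.ofBijective φ.toRingHom ⟨hφ, hsurj⟩).symm.injective.isDomain
      (RingEquiv.ofBijective φ.toRingHom ⟨hφ, hsurj⟩).symm.toRingHom
  exact hι.isDomain ι.toRingHom

end Crest.Agent.R278
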