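import Crest.Agent.R278.Defs

set_option autoImplicit false

namespace Crest.Agent.R278

variable {A : Type} [CommRing A] [IsDomain A] [Algebra ℂ A] [Algebra PP A]
  [IsScalarTower ℂ PP A] [Module.Finite PP A] [Module.Free PP A]

theorem dep3_of_finite : Dep3 A := by
  intro a b c h
  have h1 := h.cardinalMk_le_trdeg
  have h2 := trdeg_add_eq ℂ PP (A := A)
  have h3 : Algebra.trdeg PP A = 0 := trdeg_eq_zero
  rw [h3, add_zero, MvPolynomial.trdeg_of_isDomain] at h2
  rw [← h2] at h1
  simp only [Cardinal.mk_fintype, Fintype.card_fin, Cardinal.lift_natCast, Nat.cast_le] at h1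
  omega

theorem regPair_of_free :
    RegPair (algebraMap PP A (MvPolynomial.X 0)) (algebraMap PP A (MvPolynomial.X 1)) := by
  have hinj := FaithfulSMul.algebraMap_injective PP A
  refine ⟨(map_ne_zero_iff _ hinj).2 (MvPolynomial.X_ne_zero _),
    (map_ne_zero_iff _ hinj).2 (MvPolynomial.X_ne_zero _), fun N a b h => ?_⟩
  let B := Module.Free.chooseBasis PP A
  rw [← map_pow, ← map_pow, ← Algebra.smul_def, ← Algebra.smul_def] at h
  have hd : ∀ i, (MvPolynomial.X 1 : PP) ^ N ∣ B.repr a i := by
    intro i
    have h1 := congrArg (fun z => B.repr z i) h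
    simp only [map_smul, Finsupp.smul_apply, smul_eq_mul] at h1
    have hp : Prime (MvPolynomial.X 1 : PP) := MvPolynomial.X_prime
    refine hp.pow_dvd_of_dvd_mul_left N (a := (MvPolynomial.X 0 : PP) ^ N) ?_ ⟨_, h1⟩
    intro h2
    have := MvPolynomial.X_dvd_X.1 (hp.dvd_of_dvd_pow h2)
    exact absurd this (by decide)
  choose c hc using hd
  refine ⟨∑ i, c i • B i, ?_⟩
  rw [← map_pow, ← Algebra.smul_def, Finset.smul_sum]
  conv_lhs => rw [← B.sum_repr a]
  refine Finset.sum_congr rfl fun i _ => ?_
  rw [hc i, mul_smul]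

attribute [local instance] FractionRing.liftAlgebra in
theorem hasConductor_of_finite : HasConductor A := by
  classical
  let K := FractionRing PP
  let L := FractionRing A
  have : FiniteDimensional K L := inferInstance
  have : CharZero K := inferInstance
  have : Algebra.IsSeparable K L := inferInstance
  have hfin : Module.Finite PP (integralClosure PP L) :=
    IsIntegralClosure.finite PP K L (integralClosure PP L)
  obtain ⟨s, hs⟩ := hfin.fg_top
  obtain ⟨c, hc⟩ := IsLocalization.exist_integer_multiples (nonZeroDivisors A) s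
    (fun x : integralClosure PP L => (x : L))
  refine ⟨c, nonZeroDivisors.coe_ne_zero c, fun b hb => ?_⟩
  have hb' : IsIntegral PP b := isIntegral_trans b hb
  have key : ∀ x : integralClosure PP L, x ∈ Submodule.span PP (s : Set (integralClosure PP L)) →
      ∃ a : A, algebraMap A L a = algebraMap A L c * (x : L) := by
    intro x hx
    induction hx using Submodule.span_induction with
    | mem x hx =>
      obtain ⟨a, ha⟩ := hc x hx
      exact ⟨a, by rw [ha, Algebra.smul_def]⟩
    | zero => exact ⟨0, by simp⟩
    | add x y _ _ hx hy =>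
      obtain ⟨a, ha⟩ := hx
      obtain ⟨a', ha'⟩ := hy
      exact ⟨a + a', by rw [map_add, ha, ha', Subalgebra.coe_add, mul_add]⟩
    | smul r x _ hx =>
      obtain ⟨a, ha⟩ := hx
      refine ⟨algebraMap PP A r * a, ?_⟩
      rw [map_mul, ha, Subalgebra.coe_smul, Algebra.smul_def,
        ← IsScalarTower.algebraMap_apply PP A L]
      ring
  exact key ⟨b, hb'⟩ (hs ▸ Submodule.mem_top)

end Crest.Agent.R278
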