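import Crest.Agent.R278.Defs

set_option autoImplicit false
set_option linter.unusedSectionVars false

namespace Crest.Agent.R278

variable {A : Type} [CommRing A] [IsDomain A] [Algebra ℂ A]

theorem loc_le (u : A) (hu : u ≠ 0) : Submonoid.powers u ≤ nonZeroDivisors A :=
  powers_le_nonZeroDivisors_of_noZeroDivisors hu

theorem loc_inj (u : A) (hu : u ≠ 0) :
    Function.Injective (algebraMap A (Localization.Away u)) :=
  IsLocalization.injective _ (loc_le u hu)

theorem dep3_away (u : A) (hu : u ≠ 0) (h : Dep3 A) : Dep3 (Localization.Away u) := by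
  intro a b c habc
  have : IsDomain (Localization.Away u) := IsLocalization.isDomain_localization (loc_le u hu)
  have : FaithfulSMul A (Localization.Away u) :=
    (faithfulSMul_iff_algebraMap_injective _ _).2 (loc_inj u hu)
  have := IsLocalization.isAlgebraic (Localization.Away u) (Submonoid.powers u)
  have h₁ := habc.cardinalMk_le_trdeg
  rw [← trdeg_add_eq ℂ A, trdeg_eq_zero (R := A), add_zero] at h₁
  obtain ⟨s, hs⟩ := exists_isTranscendenceBasis ℂ A
  rw [← hs.cardinalMk_eq_trdeg] at h₁
  obtain ⟨f⟩ := Cardinal.le_def _ _ |>.1 h₁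
  refine h (f 0) (f 1) (f 2) ?_
  convert hs.1.comp f f.injective using 1
  ext i
  fin_cases i <;> rfl

theorem regPair_away (u : A) (hu : u ≠ 0) (p g : A) (h : RegPair p g) :
    RegPair (algebraMap A (Localization.Away u) p) (algebraMap A (Localization.Away u) g) := by
  have hi := loc_inj u hu
  refine ⟨(map_ne_zero_iff _ hi).2 h.1, (map_ne_zero_iff _ hi).2 h.2.1, fun N a b hab => ?_⟩
  obtain ⟨a₀, b₀, s, ha, hb⟩ := IsLocalization.surj₂ (Submonoid.powers u) _ a b
  obtain ⟨c, hc⟩ := h.2.2 N a₀ b₀ (hi (by
    rw [map_mul, map_mul, map_pow, map_pow, ← ha, ← hb, ← mul_assoc, ← mul_assoc, hab]))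
  refine ⟨IsLocalization.mk' _ c s, (IsLocalization.map_units (Localization.Away u) s).mul_left_injective ?_⟩
  simp only
  rw [ha, hc, mul_assoc, IsLocalization.mk'_spec, map_mul, map_pow]

theorem hasConductor_away (u : A) [IsDomain (Localization.Away u)] (hu : u ≠ 0)
    (h : HasConductor A) : HasConductor (Localization.Away u) := by
  obtain ⟨c, hc, h⟩ := h
  let _ : Algebra (Localization.Away u) (FractionRing A) :=
    IsLocalization.localizationAlgebraOfSubmonoidLe _ _ _ _ (loc_le u hu)
  have : IsScalarTower A (Localization.Away u) (FractionRing A) :=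
    IsLocalization.localization_isScalarTower_of_submonoid_le _ _ _ _ (loc_le u hu)
  have := IsFractionRing.isFractionRing_of_isDomain_of_isLocalization (Submonoid.powers u)
    (Localization.Away u) (FractionRing A)
  let e := FractionRing.algEquiv (Localization.Away u) (FractionRing A)
  refine ⟨algebraMap A _ c, (map_ne_zero_iff _ (loc_inj u hu)).2 hc, fun b hb => ?_⟩
  obtain ⟨m, hm⟩ := IsIntegral.exists_multiple_integral_of_isLocalization (Submonoid.powers u) _
    (hb.map e.toAlgHom)
  obtain ⟨a, ha⟩ := h _ hm
  rw [Submonoid.smul_def, Algebra.smul_def] at ha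
  refine ⟨IsLocalization.mk' _ a m, e.injective ?_⟩
  have hm' : IsUnit (algebraMap A (FractionRing A) m) := by
    rw [IsScalarTower.algebraMap_apply A (Localization.Away u)]
    exact (IsLocalization.map_units (Localization.Away u) m).map _
  refine hm'.mul_left_injective ?_
  simp only
  rw [map_mul, e.commutes, e.commutes, IsScalarTower.algebraMap_apply A (Localization.Away u) _ (m : A),
    ← map_mul, IsLocalization.mk'_spec, ← IsScalarTower.algebraMap_apply,
    ← IsScalarTower.algebraMap_apply, ← IsScalarTower.algebraMap_apply, ha]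
  change _ * (_ * e b) = _
  ring

theorem exists_der_away (u : A) (D : Derivation ℂ A A) :
    ∃ D' : Derivation ℂ (Localization.Away u) (Localization.Away u),
      ∀ a : A, D' (algebraMap A _ a) = algebraMap A _ (D a) := by
  let B := Localization.Away u
  let f : A →ₐ[ℂ] TrivSqZeroExt B B :=
    { toFun := fun a => ⟨algebraMap A B a, algebraMap A B (D a)⟩
      map_one' := by ext <;> simp
      map_mul' := fun a b => by
        ext
        · simp
        · simp [mul_comm]
      map_zero' := by ext <;> simp
      map_add' := fun a b => by ext <;> simp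
      commutes' := fun r => by
        ext
        · simp [TrivSqZeroExt.algebraMap_eq_inl', ← IsScalarTower.algebraMap_apply]
        · simp [TrivSqZeroExt.algebraMap_eq_inl'] }
  have hf : ∀ y : Submonoid.powers u, IsUnit (f y) := fun y =>
    TrivSqZeroExt.isUnit_iff_isUnit_fst.2 (IsLocalization.map_units B y)
  let F : B →ₐ[ℂ] TrivSqZeroExt B B := IsLocalization.liftAlgHom (M := Submonoid.powers u) hf
  have hF : ∀ a, F (algebraMap A B a) = f a := fun a => IsLocalization.lift_eq hf a
  have h₁ : ∀ b, (F b).fst = b := fun b => by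
    have : ((TrivSqZeroExt.fstHom ℂ B B).comp F).toRingHom = RingHom.id B :=
      IsLocalization.ringHom_ext (Submonoid.powers u) (RingHom.ext fun a => by
        simp [hF, f])
    exact congrArg (fun φ : B →+* B => φ b) this
  refine ⟨Derivation.mk' (((TrivSqZeroExt.sndHom B B).restrictScalars ℂ).comp F.toLinearMap)
    fun a b => ?_, fun a => ?_⟩
  · simp [h₁, mul_comm]
  · simp [hF, f, B]

end Crest.Agent.R278
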