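import Crest.Agent.R278.Defs

set_option autoImplicit false

namespace Crest.Agent.R278

open Polynomial in
lemma iterate_der_pow {R S : Type*} [CommRing R] [CommRing S] [Algebra R S]
    (δ : Derivation R S S) (x w : S) (k : ℕ) :
    ∀ m : ℕ, ∃ y, δ^[k] (x * w ^ (m + k)) =
      ((m + k).descFactorial k : S) * x * δ w ^ k * w ^ m + y * w ^ (m + 1) := by
  induction k with
  | zero => exact fun m => ⟨0, by simp⟩
  | succ k ih =>
    intro m
    obtain ⟨y, hy⟩ := ih (m + 1)
    have e : m + (k + 1) = m + 1 + k := by ring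
    rw [Function.iterate_succ_apply', e, hy]
    set u : S := ((m + 1 + k).descFactorial k : S) * x * δ w ^ k with hu
    refine ⟨δ u + δ y * w + y * ((m + 2 : ℕ) : S) * δ w, ?_⟩
    have e2 : (((m + 1 + k).descFactorial (k + 1) : ℕ) : S) =
        ((m + 1 : ℕ) : S) * ((m + 1 + k).descFactorial k : S) := by
      rw [Nat.descFactorial_succ, Nat.add_sub_cancel, Nat.cast_mul]
    rw [e2, map_add, Derivation.leibniz, Derivation.leibniz δ y, Derivation.leibniz_pow,
      Derivation.leibniz_pow]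
    simp only [smul_eq_mul, nsmul_eq_mul, Nat.add_sub_cancel, hu]
    push_cast
    ring

section Ext
variable {A : Type*} [CommRing A] [Algebra ℂ A] (K : Type*) [Field K] [Algebra A K]
  [IsFractionRing A K]

lemma exists_der_frac (D : Derivation ℂ A A) :
    ∃ d : Derivation ℤ K K, ∀ a : A, d (algebraMap A K a) = algebraMap A K (D a) := by
  let φ : A →+* TrivSqZeroExt K K :=
    { toFun := fun a => TrivSqZeroExt.inl (algebraMap A K a) +
        TrivSqZeroExt.inr (algebraMap A K (D a))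
      map_one' := by ext <;> simp
      map_mul' := fun a b => by
        ext
        · simp
        · simp only [TrivSqZeroExt.snd_add, TrivSqZeroExt.snd_inl, TrivSqZeroExt.snd_inr,
            TrivSqZeroExt.snd_mul, TrivSqZeroExt.fst_add, TrivSqZeroExt.fst_inl,
            TrivSqZeroExt.fst_inr, Derivation.leibniz, smul_eq_mul, map_add, map_mul,
            MulOpposite.smul_eq_mul_unop, MulOpposite.unop_op]
          ring
      map_zero' := by ext <;> simp
      map_add' := fun a b => by ext <;> simp [Algebra.smul_def] }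
  have hφ : ∀ y : nonZeroDivisors A, IsUnit (φ y) := by
    intro y
    rw [TrivSqZeroExt.isUnit_iff_isUnit_fst]
    simpa [φ] using IsLocalization.map_units K y
  let Φ : K →+* TrivSqZeroExt K K := IsLocalization.lift hφ
  have hΦ : ∀ a, Φ (algebraMap A K a) = φ a := IsLocalization.lift_eq hφ
  have hfst : ∀ x, (Φ x).fst = x := by
    have : (TrivSqZeroExt.fstHom K K K).toRingHom.comp Φ = RingHom.id K := by
      refine IsLocalization.ringHom_ext (nonZeroDivisors A) ?_
      ext a
      simp [hΦ, φ]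
    exact fun x => congrArg (fun f : K →+* K => f x) this
  let d₀ : K →+ K :=
    { toFun := fun x => (Φ x).snd
      map_zero' := by simp
      map_add' := fun x y => by simp }
  refine ⟨Derivation.mk' d₀.toIntLinearMap fun x y => ?_, fun a => ?_⟩
  · change (Φ (x * y)).snd = x • (Φ y).snd + y • (Φ x).snd
    rw [map_mul, TrivSqZeroExt.snd_mul, hfst, hfst]
    simp [mul_comm]
  · change (Φ (algebraMap A K a)).snd = _
    rw [hΦ]
    change (TrivSqZeroExt.inl (algebraMap A K a) +
      TrivSqZeroExt.inr (algebraMap A K (D a)) : TrivSqZeroExt K K).snd = _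
    rw [TrivSqZeroExt.snd_add, TrivSqZeroExt.snd_inl, TrivSqZeroExt.snd_inr, zero_add]

open Polynomial in
/-- Seidenberg's theorem. -/
lemma isIntegral_der [IsDomain A] [IsNoetherianRing A] (D : Derivation ℂ A A)
    (d : Derivation ℤ K K) (hd : ∀ a : A, d (algebraMap A K a) = algebraMap A K (D a))
    (hc : ∃ c : A, c ≠ 0 ∧ ∀ b : K, IsIntegral A b →
      ∃ a : A, algebraMap A K a = algebraMap A K c * b)
    {b : K} (hb : IsIntegral A b) : IsIntegral A (d b) := by
  obtain ⟨c, hc0, hc⟩ := hc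
  let _ : Differential K := ⟨d⟩
  let δ : Derivation ℤ K[X] K[X] := Differential.mapCoeffs
  have hδ : ∀ P ∈ lifts (algebraMap A K), δ P ∈ lifts (algebraMap A K) := by
    intro P hP
    rw [lifts_iff_coeff_lifts] at hP ⊢
    intro n
    obtain ⟨a, ha⟩ := hP n
    exact ⟨D a, by rw [← hd, ha]; rfl⟩
  have hint : ∀ n : ℕ, IsIntegral A (algebraMap A K c * d b ^ n) := by
    intro n
    have h1 : C (algebraMap A K c) * (C b - X) ^ n ∈ lifts (algebraMap A K) := by
      rw [sub_eq_add_neg, add_pow, Finset.mul_sum]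
      refine Subsemiring.sum_mem _ fun k _ => ?_
      obtain ⟨a, ha⟩ := hc (b ^ k) (hb.pow k)
      refine (mem_lifts _).2 ⟨C a * (-X) ^ (n - k) * (n.choose k : A[X]), ?_⟩
      simp only [Polynomial.map_mul, map_C, Polynomial.map_pow, Polynomial.map_neg, map_X,
        Polynomial.map_natCast, ha, map_mul, map_pow]
      ring
    have h2 : δ^[n] (C (algebraMap A K c) * (C b - X) ^ n) ∈ lifts (algebraMap A K) := by
      generalize C (algebraMap A K c) * (C b - X) ^ n = P at h1
      induction n with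
      | zero => exact h1
      | succ n ih => rw [Function.iterate_succ_apply']; exact hδ _ ih
    obtain ⟨y, hy⟩ := iterate_der_pow δ (C (algebraMap A K c)) (C b - X) n 0
    rw [zero_add] at hy
    obtain ⟨Q, hQ⟩ := (mem_lifts _).1 h2
    have h3 : aeval b Q = (n.factorial : K) * (algebraMap A K c * d b ^ n) := by
      rw [← eval_map_algebraMap, hQ, hy]
      have : δ (C b - X) = C (d b) := by
        rw [map_sub, Differential.mapCoeffs_X, Differential.mapCoeffs_C, sub_zero]
        rfl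
      rw [this, Nat.descFactorial_self]
      simp [mul_assoc]
    have h4 : IsIntegral A (aeval b Q) :=
      adjoin_le_integralClosure hb (aeval_mem_adjoin_singleton A b)
    have h5 : algebraMap A K c * d b ^ n =
        algebraMap A K (algebraMap ℂ A (n.factorial : ℂ)⁻¹) * aeval b Q := by
      have e : (n.factorial : K) = algebraMap A K (algebraMap ℂ A (n.factorial : ℂ)) := by simp
      rw [h3, e, ← mul_assoc, ← map_mul, ← map_mul,
        inv_mul_cancel₀ (Nat.cast_ne_zero.2 n.factorial_ne_zero), map_one, map_one, one_mul]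
    rw [h5]
    exact isIntegral_algebraMap.mul h4
  refine IsAlmostIntegral.isIntegral ⟨c * c, mem_nonZeroDivisors_of_ne_zero (mul_ne_zero hc0 hc0),
    fun n => ?_⟩
  obtain ⟨a, ha⟩ := hc _ (hint n)
  exact ⟨a, by rw [ha, Algebra.smul_def, map_mul, mul_assoc]⟩

lemma der_conductor [IsDomain A] [IsNoetherianRing A] (D : Derivation ℂ A A)
    (hc : ∃ c : A, c ≠ 0 ∧ ∀ b : K, IsIntegral A b →
      ∃ a : A, algebraMap A K a = algebraMap A K c * b) {a : A}
    (ha : ∀ b : K, IsIntegral A b → ∃ a' : A, algebraMap A K a' = algebraMap A K a * b)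
    (b : K) (hb : IsIntegral A b) : ∃ a' : A, algebraMap A K a' = algebraMap A K (D a) * b := by
  obtain ⟨d, hd⟩ := exists_der_frac K D
  obtain ⟨u, hu⟩ := ha b hb
  obtain ⟨v, hv⟩ := ha (d b) (isIntegral_der K D d hd hc hb)
  refine ⟨D u - v, ?_⟩
  rw [map_sub, ← hd, hu, hv, Derivation.leibniz, hd, smul_eq_mul, smul_eq_mul]
  ring

end Ext

open MvPolynomial in
lemma one_mem_of_pderiv {σ : Type*} (I : Ideal (MvPolynomial σ ℂ))
    (hI : ∀ i, ∀ Q ∈ I, pderiv i Q ∈ I) (n : ℕ) :
    ∀ Q ∈ I, Q ≠ 0 → Q.totalDegree = n → (1 : MvPolynomial σ ℂ) ∈ I := by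
  classical
  induction n using Nat.strong_induction_on with
  | _ n ih =>
    intro Q hQ h0 hn
    by_cases hz : ∃ m ∈ Q.support, m ≠ 0
    · obtain ⟨m, hm, hm0⟩ := hz
      obtain ⟨i, hi⟩ : ∃ i, m i ≠ 0 := by
        by_contra h
        push Not at h
        exact hm0 (Finsupp.ext h)
      have hdeg : ∀ m' ∈ (pderiv i Q).support, (m'.sum fun _ e => e) < n := by
        intro m' hm'
        rw [mem_support_iff, coeff_pderiv] at hm'
        have h1 := le_totalDegree (mem_support_iff.2 (left_ne_zero_of_mul hm'))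
        rw [Finsupp.sum_add_index' (fun _ => rfl) (fun _ _ _ => rfl),
          Finsupp.sum_single_index rfl] at h1
        omega
      have hne : pderiv i Q ≠ 0 := by
        intro h
        have h1 := coeff_pderiv (i := i) Q (m - Finsupp.single i 1)
        rw [h, coeff_zero, tsub_add_cancel_of_le
          (Finsupp.single_le_iff.2 (Nat.one_le_iff_ne_zero.2 hi))] at h1
        refine mul_ne_zero (mem_support_iff.1 hm) ?_ h1.symm
        exact Nat.cast_add_one_ne_zero _
      obtain ⟨m₀, hm₀⟩ := support_nonempty.2 hne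
      refine ih _ ?_ _ (hI i Q hQ) hne rfl
      exact (Finset.sup_lt_iff (lt_of_le_of_lt (Nat.zero_le _) (hdeg m₀ hm₀))).2 hdeg
    · push Not at hz
      have hC : Q = C (coeff 0 Q) := by
        ext m
        rw [coeff_C]
        split_ifs with h
        · rw [h]
        · by_contra h'
          exact h (hz m (mem_support_iff.2 h')).symm
      have hc : coeff 0 Q ≠ 0 := fun h => h0 (by rw [hC, h, C_0])
      have := I.mul_mem_left (C (coeff 0 Q)⁻¹) hQ
      rwa [hC, coeff_zero_C, ← C_mul, inv_mul_cancel₀ hc, C_1] at this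

open MvPolynomial in
lemma der_aeval_two {A : Type*} [CommRing A] [Algebra ℂ A] (D : Derivation ℂ A A) (x y : A)
    (Q : MvPolynomial (Fin 2) ℂ) :
    D (aeval ![x, y] Q) = aeval ![x, y] (pderiv 0 Q) * D x + aeval ![x, y] (pderiv 1 Q) * D y := by
  induction Q using MvPolynomial.induction_on with
  | C a => simp
  | add P Q hP hQ => simp only [map_add, hP, hQ]; ring
  | mul_X P i hP =>
    fin_cases i
    · simp [Derivation.leibniz, hP]
      ring
    · simp [Derivation.leibniz, hP]
      ring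

lemma exists_rel_mem_span {A : Type*} [CommRing A] [IsDomain A] [Algebra ℂ A] (hdep : Dep3 A)
    (x y : A) {c : A} (hc : c ≠ 0) :
    ∃ Q : MvPolynomial (Fin 2) ℂ, Q ≠ 0 ∧ c ∣ MvPolynomial.aeval ![x, y] Q := by
  have h := hdep c x y
  rw [algebraicIndependent_iff] at h
  push Not at h
  obtain ⟨P, hP, hP0⟩ := h
  let φ : MvPolynomial (Fin 2) ℂ →+* A := (MvPolynomial.aeval ![x, y]).toRingHom
  have key : (MvPolynomial.aeval ![c, x, y] : MvPolynomial (Fin 3) ℂ →ₐ[ℂ] A).toRingHom =
      (Polynomial.eval₂RingHom φ c).comp (MvPolynomial.finSuccEquiv ℂ 2).toRingEquiv.toRingHom := by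
    refine MvPolynomial.ringHom_ext (fun r => ?_) (fun i => ?_)
    · simp [φ, MvPolynomial.finSuccEquiv_apply]
    · refine Fin.cases ?_ (fun j => ?_) i
      · simp [MvPolynomial.finSuccEquiv_X_zero]
      · simp [φ, MvPolynomial.finSuccEquiv_X_succ]
  have h1 : Polynomial.eval₂ φ c (MvPolynomial.finSuccEquiv ℂ 2 P) = 0 :=
    (congrArg (fun f : MvPolynomial (Fin 3) ℂ →+* A => f P) key).symm.trans hP
  have h2 : MvPolynomial.finSuccEquiv ℂ 2 P ≠ 0 :=
    (map_ne_zero_iff _ (MvPolynomial.finSuccEquiv ℂ 2).injective).2 hP0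
  obtain ⟨q, hq, hq0⟩ := Polynomial.exists_eq_pow_rootMultiplicity_mul_and_not_dvd _ h2 0
  rw [Polynomial.C_0, sub_zero, Polynomial.X_dvd_iff] at hq0
  rw [hq, Polynomial.eval₂_mul, Polynomial.eval₂_pow, Polynomial.C_0, sub_zero,
    Polynomial.eval₂_X] at h1
  have h3 : Polynomial.eval₂ φ c q = 0 := (mul_eq_zero.1 h1).resolve_left (pow_ne_zero _ hc)
  refine ⟨q.coeff 0, hq0, -Polynomial.eval₂ φ c q.divX, ?_⟩
  rw [← Polynomial.X_mul_divX_add q, Polynomial.eval₂_add, Polynomial.eval₂_mul,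
    Polynomial.eval₂_X, Polynomial.eval₂_C] at h3
  change φ (q.coeff 0) = _
  linear_combination h3

/-- A prime containing a nonzero ideal stable under two derivations contains their minors. -/
lemma minors_le_of_stable {A : Type*} [CommRing A] [IsDomain A] [Algebra ℂ A] (hdep : Dep3 A)
    (D1 D2 : Derivation ℂ A A) (f : Ideal A) (h1 : ∀ a ∈ f, D1 a ∈ f) (h2 : ∀ a ∈ f, D2 a ∈ f)
    {c : A} (hc : c ≠ 0) (hcf : c ∈ f) (n : Ideal A) (hn : n.IsPrime) (hfn : f ≤ n) :
    minors D1 D2 ≤ n := by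
  rw [minors, Ideal.span_le]
  rintro _ ⟨x, y, rfl⟩
  by_contra hΔ
  let k : Ideal A :=
    { carrier := {a | ∃ s, s ∉ n ∧ s * a ∈ f}
      add_mem' := by
        rintro a b ⟨s, hs, ha⟩ ⟨t, ht, hb⟩
        refine ⟨s * t, fun h => (hn.mem_or_mem h).elim hs ht, ?_⟩
        have : s * t * (a + b) = t * (s * a) + s * (t * b) := by ring
        rw [this]
        exact f.add_mem (f.mul_mem_left _ ha) (f.mul_mem_left _ hb)
      zero_mem' := ⟨1, (Ideal.ne_top_iff_one n).1 hn.ne_top, by simp⟩
      smul_mem' := by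
        rintro r a ⟨s, hs, ha⟩
        refine ⟨s, hs, ?_⟩
        have : s * (r • a) = r * (s * a) := by rw [smul_eq_mul]; ring
        rw [this]
        exact f.mul_mem_left _ ha }
  have hk : ∀ a, a ∈ k ↔ ∃ s, s ∉ n ∧ s * a ∈ f := fun _ => Iff.rfl
  have hD : ∀ D : Derivation ℂ A A, (∀ a ∈ f, D a ∈ f) → ∀ a ∈ k, D a ∈ k := by
    intro D hD a ha
    obtain ⟨s, hs, ha⟩ := (hk a).1 ha
    refine (hk _).2 ⟨s * s, fun h => (hn.mem_or_mem h).elim hs hs, ?_⟩
    have : s * s * D a = s * D (s * a) - D s * (s * a) := by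
      rw [Derivation.leibniz, smul_eq_mul, smul_eq_mul]; ring
    rw [this]
    exact f.sub_mem (f.mul_mem_left _ (hD _ ha)) (f.mul_mem_left _ ha)
  have hsat : ∀ a, (D1 x * D2 y - D1 y * D2 x) * a ∈ k → a ∈ k := by
    intro a ha
    obtain ⟨s, hs, ha⟩ := (hk _).1 ha
    exact (hk _).2 ⟨s * _, fun h => (hn.mem_or_mem h).elim hs hΔ, by rwa [mul_assoc]⟩
  let I : Ideal (MvPolynomial (Fin 2) ℂ) := k.comap (MvPolynomial.aeval ![x, y])
  have hI : ∀ i, ∀ Q ∈ I, MvPolynomial.pderiv i Q ∈ I := by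
    intro i Q hQ
    have e1 := hD D1 h1 _ hQ
    have e2 := hD D2 h2 _ hQ
    rw [der_aeval_two] at e1 e2
    refine hsat _ ?_
    fin_cases i
    · have := k.sub_mem (k.mul_mem_left (D2 y) e1) (k.mul_mem_left (D1 y) e2)
      convert this using 1
      simp only [Fin.zero_eta]
      ring
    · have := k.sub_mem (k.mul_mem_left (D1 x) e2) (k.mul_mem_left (D2 x) e1)
      convert this using 1
      simp only [Fin.mk_one]
      ring
  obtain ⟨Q, hQ0, z, hz⟩ := exists_rel_mem_span hdep x y hc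
  have hQ : Q ∈ I := by
    change MvPolynomial.aeval ![x, y] Q ∈ k
    rw [hz]
    exact k.mul_mem_right _ ((hk c).2 ⟨1, (Ideal.ne_top_iff_one n).1 hn.ne_top, by simpa⟩)
  have h := one_mem_of_pderiv I hI _ Q hQ hQ0 rfl
  have h' : (1 : A) ∈ k := by simpa [I] using h
  obtain ⟨s, hs, hs'⟩ := (hk _).1 h'
  exact hs (hfn (by simpa using hs'))

theorem normal_of_der {A : Type*} [CommRing A] [IsDomain A] [IsNoetherianRing A] [Algebra ℂ A]
    (hdep : Dep3 A) (p g : A) (hreg : RegPair p g) (D1 D2 : Derivation ℂ A A) (N : ℕ)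
    (hp : p ^ N ∈ minors D1 D2) (hg : g ^ N ∈ minors D1 D2) (hc : HasConductor A) :
    IsIntegrallyClosed A := by
  let K := FractionRing A
  let f : Ideal A :=
    { carrier := {a | ∀ b : K, IsIntegral A b → ∃ a' : A, algebraMap A K a' = algebraMap A K a * b}
      add_mem' := by
        intro a a' ha ha' b hb
        obtain ⟨u, hu⟩ := ha b hb
        obtain ⟨v, hv⟩ := ha' b hb
        exact ⟨u + v, by rw [map_add, map_add, hu, hv, add_mul]⟩
      zero_mem' := fun b _ => ⟨0, by simp⟩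
      smul_mem' := by
        intro r a ha b hb
        obtain ⟨u, hu⟩ := ha b hb
        exact ⟨r * u, by rw [smul_eq_mul, map_mul, map_mul, hu, mul_assoc]⟩ }
  have hf : ∀ a, a ∈ f ↔ ∀ b : K, IsIntegral A b →
      ∃ a' : A, algebraMap A K a' = algebraMap A K a * b := fun _ => Iff.rfl
  have hD : ∀ D : Derivation ℂ A A, ∀ a ∈ f, D a ∈ f := by
    intro D a ha
    exact (hf _).2 (der_conductor K D hc ((hf _).1 ha))
  obtain ⟨c, hc0, hcc⟩ := hc
  have hrad : minors D1 D2 ≤ f.radical := by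
    rw [Ideal.radical_eq_sInf]
    refine le_sInf ?_
    rintro n ⟨hfn, hn⟩
    exact minors_le_of_stable hdep D1 D2 f (hD D1) (hD D2) hc0 ((hf c).2 hcc) n hn hfn
  obtain ⟨M₁, hM₁⟩ := hrad hp
  obtain ⟨M₂, hM₂⟩ := hrad hg
  rw [← pow_mul] at hM₁ hM₂
  have hpM : p ^ (N * M₁ + N * M₂) ∈ f := by
    rw [pow_add]; exact f.mul_mem_right _ hM₁
  have hgM : g ^ (N * M₁ + N * M₂) ∈ f := by
    rw [pow_add]; exact f.mul_mem_left _ hM₂
  generalize N * M₁ + N * M₂ = M at hpM hgM
  refine (isIntegrallyClosed_iff K).2 fun {b} hb => ?_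
  obtain ⟨a₁, h₁⟩ := (hf _).1 hpM b hb
  obtain ⟨a₂, h₂⟩ := (hf _).1 hgM b hb
  have hinj := IsFractionRing.injective A K
  have e : p ^ M * a₂ = g ^ M * a₁ := by
    apply hinj
    rw [map_mul, map_mul, h₁, h₂]
    ring
  obtain ⟨c', hc'⟩ := hreg.2.2 M a₂ a₁ e
  refine ⟨c', ?_⟩
  have hg0 : algebraMap A K (g ^ M) ≠ 0 := (map_ne_zero_iff _ hinj).2 (pow_ne_zero _ hreg.2.1)
  apply mul_left_cancel₀ hg0
  rw [← map_mul, ← hc', h₂]

end Crest.Agent.R278
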