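import Crest.Agent.R278.Free
import Crest.Agent.R278.Normal
import Crest.Agent.R278.Fin
import Crest.Agent.R278.Loc
import Crest.Agent.R278.Dim

set_option autoImplicit false

namespace Crest.Agent.R278

theorem final {A : Type} [CommRing A] [IsDomain A] [Algebra ℂ A] [Algebra PP A]
    [IsScalarTower ℂ PP A] [Module.Finite PP A] [Module.Free PP A]
    (φ : A →ₐ[ℂ] TrivSqZeroExt ℂ (Fin 3 → ℂ)) (hφ : Function.Surjective φ)
    (hp : (φ (algebraMap PP A (MvPolynomial.X 0))).fst = 0)
    (hg : (φ (algebraMap PP A (MvPolynomial.X 1))).fst = 0)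
    (D1 D2 : Derivation ℂ A A) (u : A) (hu : (φ u).fst ≠ 0) (N : ℕ)
    (hpN : u * algebraMap PP A (MvPolynomial.X 0) ^ N ∈ minors D1 D2)
    (hgN : u * algebraMap PP A (MvPolynomial.X 1) ^ N ∈ minors D1 D2) :
    ∃ (A : Type) (_ : CommRing A) (_ : Algebra ℂ A),
      IsDomain A ∧ Algebra.FiniteType ℂ A ∧ IsIntegrallyClosed A ∧
      ringKrullDim A = 2 ∧
      Nonempty (Derivation ℂ A A ≃ₗ[A] (Fin 2 → A)) ∧
      ∃ (m : Ideal A) (_ : m.IsMaximal), ¬ IsRegularLocalRing (Localization.AtPrime m) := by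
  have hu0 : u ≠ 0 := fun h => hu (by simp [h])
  let B := Localization.Away u
  have : IsDomain B := IsLocalization.isDomain_localization (loc_le u hu0)
  have : IsNoetherianRing A := .of_finite PP A
  have : IsNoetherianRing B := IsLocalization.isNoetherianRing (Submonoid.powers u) B inferInstance
  obtain ⟨E1, h1⟩ := exists_der_away u D1
  obtain ⟨E2, h2⟩ := exists_der_away u D2
  have hmin : ∀ t ∈ minors D1 D2, algebraMap A B t ∈ minors E1 E2 := by
    have : minors D1 D2 ≤ (minors E1 E2).comap (algebraMap A B) := by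
      refine Ideal.span_le.2 ?_
      rintro _ ⟨a, b, rfl⟩
      exact Ideal.subset_span ⟨algebraMap A B a, algebraMap A B b, by
        rw [h1, h1, h2, h2, map_sub, map_mul, map_mul]⟩
    exact fun t ht => this ht
  have hunit : IsUnit (algebraMap A B u) := IsLocalization.Away.algebraMap_isUnit u
  have hpow : ∀ x : A, u * x ^ N ∈ minors D1 D2 → algebraMap A B x ^ N ∈ minors E1 E2 := by
    intro x hx
    have := hmin _ hx
    rwa [map_mul, Ideal.unit_mul_mem_iff_mem _ hunit, map_pow] at this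
  have hdep : Dep3 B := dep3_away u hu0 dep3_of_finite
  have hreg := regPair_away u hu0 _ _ (regPair_of_free (A := A))
  let π : A →+* ℂ := ((TrivSqZeroExt.fstHom ℂ ℂ (Fin 3 → ℂ)).comp φ).toRingHom
  have hπ : Function.Surjective π := fun z => by
    obtain ⟨b, hb⟩ := hφ (TrivSqZeroExt.inl z)
    exact ⟨b, by simp [π, hb]⟩
  have hm : (RingHom.ker π).IsMaximal := RingHom.ker_isMaximal_of_surjective π hπ
  have hdim : ringKrullDim B = 2 := dim_away (RingHom.ker π) hp hg u hu
  have hf : ∀ y : Submonoid.powers u, IsUnit (φ y) := by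
    rintro ⟨_, k, rfl⟩
    exact map_pow φ u k ▸ (TrivSqZeroExt.isUnit_iff_isUnit_fst.2 hu.isUnit).pow k
  let ψ : B →ₐ[ℂ] TrivSqZeroExt ℂ (Fin 3 → ℂ) :=
    IsLocalization.liftAlgHom (M := Submonoid.powers u) hf
  have hψ : Function.Surjective ψ := fun z => by
    obtain ⟨a, ha⟩ := hφ z
    exact ⟨algebraMap A B a, (IsLocalization.lift_eq hf a).trans ha⟩
  have hA : Algebra.FiniteType ℂ A := Algebra.FiniteType.trans (S := PP) inferInstance inferInstance
  exact ⟨B, inferInstance, inferInstance, inferInstance,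
    Algebra.FiniteType.trans (S := A) hA inferInstance,
    normal_of_der hdep _ _ hreg E1 E2 N (hpow _ hpN) (hpow _ hgN)
      (hasConductor_away u hu0 hasConductor_of_finite), hdim,
    der_free hdep _ _ hreg E1 E2 N (hpow _ hpN) (hpow _ hgN), not_regular hdim ψ hψ⟩

end Crest.Agent.R278
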