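import Crest.Agent.R278.Defs

set_option autoImplicit false

namespace Crest.Agent.R278

open MvPolynomial

lemma der_aeval {A : Type*} [CommRing A] [Algebra ℂ A] {n : ℕ} (x : Fin n → A)
    (D : Derivation ℂ A A) (Q : MvPolynomial (Fin n) ℂ) :
    D (aeval x Q) = ∑ i, aeval x (pderiv i Q) * D (x i) := by
  induction Q using MvPolynomial.induction_on with
  | C a => simp
  | add p q hp hq => simp [hp, hq, add_mul, Finset.sum_add_distrib]
  | mul_X p j hp =>
    simp only [map_mul, aeval_X, Derivation.leibniz, hp, smul_eq_mul, map_add, pderiv_X, add_mul,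
      Finset.sum_add_distrib, Finset.mul_sum, mul_assoc]
    congr 1
    rw [Finset.sum_eq_single j]
    · simp
    · intro i _ hi
      simp [Pi.single_eq_of_ne hi.symm]
    · simp

lemma exists_kernel {A : Type*} [CommRing A] [IsDomain A] [Algebra ℂ A] {n : ℕ} (x : Fin n → A)
    (h : ¬ AlgebraicIndependent ℂ x) :
    ∃ v : Fin n → A, v ≠ 0 ∧ ∀ D : Derivation ℂ A A, ∑ i, v i * D (x i) = 0 := by
  classical
  rw [algebraicIndependent_iff] at h
  push Not at h
  have hex : ∃ d, ∃ Q : MvPolynomial (Fin n) ℂ, aeval x Q = 0 ∧ Q ≠ 0 ∧ Q.totalDegree = d := by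
    obtain ⟨Q, h1, h2⟩ := h
    exact ⟨_, Q, h1, h2, rfl⟩
  obtain ⟨Q, h1, h2, h3⟩ := Nat.find_spec hex
  refine ⟨fun i => aeval x (pderiv i Q), fun h0 => ?_, fun D => by rw [← der_aeval, h1, map_zero]⟩
  have hd : ∀ i, pderiv i Q = 0 := fun i => by
    by_contra hne
    have hle := Nat.find_min' hex ⟨pderiv i Q, congrFun h0 i, hne, rfl⟩
    obtain ⟨m, hm, hm'⟩ := Finset.exists_mem_eq_sup (pderiv i Q).support
      (support_nonempty.2 hne) (fun s => s.sum fun _ e => e)
    have hm2 : m + Finsupp.single i 1 ∈ Q.support := by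
      rw [mem_support_iff] at hm ⊢
      rw [coeff_pderiv] at hm
      exact left_ne_zero_of_mul hm
    have := le_totalDegree hm2
    rw [Finsupp.sum_add_index' (by simp) (by simp), Finsupp.sum_single_index rfl, h3] at this
    rw [totalDegree, hm'] at hle
    omega
  have hC : Q = C (coeff 0 Q) := by
    ext m
    rw [coeff_C]
    split_ifs with hm
    · rw [hm]
    · obtain ⟨i, hi⟩ : ∃ i, m i ≠ 0 := by
        by_contra! hh
        exact hm (Finsupp.ext hh).symm
      have := congrArg (coeff (m - Finsupp.single i 1)) (hd i)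
      rw [coeff_pderiv, coeff_zero, tsub_add_cancel_of_le
        (Finsupp.single_le_iff.2 (Nat.one_le_iff_ne_zero.2 hi))] at this
      exact (mul_eq_zero.1 this).resolve_right (Nat.cast_add_one_ne_zero _)
  rw [hC, aeval_C] at h1
  exact h2 (by rw [hC, (algebraMap ℂ A).injective (h1.trans (map_zero _).symm), map_zero])

theorem der_free {A : Type*} [CommRing A] [IsDomain A] [Algebra ℂ A]
    (hdep : Dep3 A) (p g : A) (hreg : RegPair p g) (D1 D2 : Derivation ℂ A A) (N : ℕ)
    (hp : p ^ N ∈ minors D1 D2) (hg : g ^ N ∈ minors D1 D2) :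
    Nonempty (Derivation ℂ A A ≃ₗ[A] (Fin 2 → A)) := by
  obtain ⟨hp0, hg0, hreg⟩ := hreg
  have hp0' : p ^ N ≠ 0 := pow_ne_zero _ hp0
  have hg0' : g ^ N ≠ 0 := pow_ne_zero _ hg0
  have hdet : ∀ (D : Derivation ℂ A A) (a b c : A), (D1 a * D2 b - D1 b * D2 a) * D c =
      (D a * D2 b - D b * D2 a) * D1 c + (D1 a * D b - D1 b * D a) * D2 c := by
    intro D a b c
    obtain ⟨v, hv, h⟩ := exists_kernel _ (hdep a b c)
    have h0 := h D
    have h1 := h D1
    have h2 := h D2
    simp only [Fin.sum_univ_three, Matrix.cons_val_zero, Matrix.cons_val_one, Matrix.cons_val]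
      at h0 h1 h2
    rw [← sub_eq_zero]
    by_contra hne
    apply hv
    funext i
    refine (mul_eq_zero.1 ?_).resolve_right hne
    fin_cases i
    · change v 0 * _ = 0
      linear_combination (D1 c * D2 b - D1 b * D2 c) * (-h0) + (D b * D2 c - D c * D2 b) * (-h1) +
        (D c * D1 b - D b * D1 c) * (-h2)
    · change v 1 * _ = 0
      linear_combination (D1 a * D2 c - D1 c * D2 a) * (-h0) + (D c * D2 a - D a * D2 c) * (-h1) +
        (D a * D1 c - D c * D1 a) * (-h2)
    · change v 2 * _ = 0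
      linear_combination (D1 a * D2 b - D1 b * D2 a) * h0 + (D b * D2 a - D a * D2 b) * h1 +
        (D a * D1 b - D b * D1 a) * h2
  have hspan : ∀ (D : Derivation ℂ A A), ∀ t ∈ minors D1 D2,
      ∃ u₁ u₂ : A, ∀ c, t * D c = u₁ * D1 c + u₂ * D2 c := by
    intro D t ht
    induction ht using Submodule.span_induction with
    | mem t ht =>
      obtain ⟨a, b, rfl⟩ := ht
      exact ⟨_, _, hdet D a b⟩
    | zero => exact ⟨0, 0, fun c => by simp⟩
    | add s t _ _ hs ht =>
      obtain ⟨u₁, u₂, hs⟩ := hs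
      obtain ⟨w₁, w₂, ht⟩ := ht
      exact ⟨u₁ + w₁, u₂ + w₂, fun c => by linear_combination hs c + ht c⟩
    | smul r t _ ht =>
      obtain ⟨u₁, u₂, ht⟩ := ht
      exact ⟨r * u₁, r * u₂, fun c => by rw [smul_eq_mul]; linear_combination r * ht c⟩
  have hind : ∀ u₁ u₂ : A, (∀ c, u₁ * D1 c + u₂ * D2 c = 0) → u₁ = 0 ∧ u₂ = 0 := by
    intro u₁ u₂ h
    have : ∀ t ∈ minors D1 D2, t * u₁ = 0 ∧ t * u₂ = 0 := by
      intro t ht
      induction ht using Submodule.span_induction with
      | mem t ht =>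
        obtain ⟨a, b, rfl⟩ := ht
        exact ⟨by linear_combination D2 b * h a - D2 a * h b,
          by linear_combination D1 a * h b - D1 b * h a⟩
      | zero => simp
      | add s t _ _ hs ht => exact ⟨by rw [add_mul, hs.1, ht.1, add_zero],
          by rw [add_mul, hs.2, ht.2, add_zero]⟩
      | smul r t _ ht => exact ⟨by rw [smul_eq_mul, mul_assoc, ht.1, mul_zero],
          by rw [smul_eq_mul, mul_assoc, ht.2, mul_zero]⟩
    exact ⟨(mul_eq_zero.1 (this _ hp).1).resolve_left hp0',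
      (mul_eq_zero.1 (this _ hp).2).resolve_left hp0'⟩
  let L : (Fin 2 → A) →ₗ[A] Derivation ℂ A A := Fintype.linearCombination A ![D1, D2]
  have hL : ∀ u c, L u c = u 0 * D1 c + u 1 * D2 c := fun u c => by
    simp [L, Fintype.linearCombination_apply, Fin.sum_univ_two]
  refine ⟨(LinearEquiv.ofBijective L ⟨?_, fun D => ?_⟩).symm⟩
  · rw [injective_iff_map_eq_zero]
    intro u hu
    obtain ⟨h0, h1⟩ := hind (u 0) (u 1) fun c => by rw [← hL, hu]; rfl
    funext i
    fin_cases i
    · exact h0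
    · exact h1
  · obtain ⟨u₁, u₂, hu⟩ := hspan D _ hp
    obtain ⟨w₁, w₂, hw⟩ := hspan D _ hg
    obtain ⟨e₁, e₂⟩ := hind (p ^ N * w₁ - g ^ N * u₁) (p ^ N * w₂ - g ^ N * u₂) fun c => by
      linear_combination g ^ N * hu c - p ^ N * hw c
    obtain ⟨c₁, rfl⟩ := hreg N _ _ (sub_eq_zero.1 e₁)
    obtain ⟨c₂, rfl⟩ := hreg N _ _ (sub_eq_zero.1 e₂)
    refine ⟨![c₁, c₂], Derivation.ext fun c => ?_⟩
    rw [hL]
    refine mul_left_cancel₀ hg0' ?_
    simp only [Matrix.cons_val_zero, Matrix.cons_val_one]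
    linear_combination -hw c

end Crest.Agent.R278
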