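import Crest.Agent.R278.Ops

set_option autoImplicit false

namespace Crest.Agent.R278

/-- Parameters of the integer evaluation: `s` bits per slot, `p` moves by `a` slots, `g` by `b`
slots, `r` is the base of the weighted norm, `K` the relative precision in slots, `t` the number
of slots paid for one factor `1/Q`, and `Qi` an inverse of `Q` modulo `2^(s*K)`. -/
structure KP where
  (s a b r K t Q Qi : ℕ)

/-- A floating value: the evaluation is `v * 2^(s*e)` modulo `2^(s*(e+K))`, and `b` bounds the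
weighted norm relative to the slot `e`. -/
structure KN where
  ok : Bool
  (e v b : ℕ)

def KP.top (P : KP) : ℕ := Nat.pow 2 (Nat.mul P.s P.K)
def KP.mask (P : KP) : ℕ := Nat.sub P.top 1

/-- Addition when `x.e < y.e`. -/
def kal (P : KP) (x y : KN) : KN :=
  bif Nat.ble P.K (Nat.sub y.e x.e) then
    ⟨x.ok && y.ok, x.e, x.v, Nat.add x.b (Nat.add (Nat.div y.b (Nat.pow P.r P.K)) 1)⟩
  else
    ⟨x.ok && y.ok, x.e, Nat.add x.v (Nat.shiftLeft y.v (Nat.mul P.s (Nat.sub y.e x.e))),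
      Nat.add x.b (Nat.add (Nat.div y.b (Nat.pow P.r (Nat.sub y.e x.e))) 1)⟩

def kadd (P : KP) (x y : KN) : KN :=
  bif Nat.beq x.b 0 then ⟨x.ok && y.ok, y.e, y.v, y.b⟩ else
  bif Nat.beq y.b 0 then ⟨x.ok && y.ok, x.e, x.v, x.b⟩ else
  bif Nat.beq x.e y.e then ⟨x.ok && y.ok, x.e, Nat.add x.v y.v, Nat.add x.b y.b⟩ else
  bif Nat.ble x.e y.e then kal P x y else kal P y x

def kmul (P : KP) (x y : KN) : KN :=
  bif Nat.beq x.b 0 then x else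
    ⟨x.ok && y.ok, Nat.add x.e y.e, Nat.land (Nat.mul x.v y.v) P.mask, Nat.mul x.b y.b⟩

def kneg (P : KP) (x : KN) : KN := ⟨x.ok, x.e, Nat.sub P.top (Nat.land x.v P.mask), x.b⟩

def kmu (P : KP) (x : KN) : KN :=
  bif Nat.beq x.b 0 then x else
    ⟨x.ok && Nat.ble P.t x.e, Nat.sub x.e P.t,
      Nat.land (Nat.shiftLeft (Nat.land (Nat.mul x.v P.Qi) P.mask) (Nat.mul P.s P.t)) P.mask,
      Nat.add (Nat.div x.b (Nat.mul P.Q (Nat.pow P.r P.t))) 1⟩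

def oK (P : KP) : Ops KN :=
  ⟨kadd P, kmul P, kneg P, fun c => ⟨true, 0, c, c⟩, fun x => ⟨x.ok, Nat.add x.e P.a, x.v, x.b⟩,
    fun x => ⟨x.ok, Nat.add x.e P.b, x.v, x.b⟩, kmu P⟩

/-- The parameters are admissible. -/
def KP.good (P : KP) : Bool :=
  Nat.ble 1 P.s && Nat.ble 1 P.r && Nat.ble 1 P.K && Nat.ble 1 P.Q &&
    Nat.beq (Nat.land (Nat.mul P.Q P.Qi) P.mask) 1

/-- The slots below `T` can be read off, after multiplication by `Q ^ M`. -/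
def kcond (P : KP) (M T : ℕ) (x : KN) : Bool :=
  x.ok && Nat.ble T (Nat.add x.e P.K) && Nat.ble T (Nat.add x.e (Nat.mul (Nat.add M 1) P.t)) &&
    Nat.ble (Nat.add (Nat.mul (Nat.mul 2 (Nat.pow P.Q M))
      (Nat.mul x.b (Nat.pow P.r (Nat.sub T x.e)))) 1) (Nat.pow 2 P.s)

/-- The slots below `T` vanish. -/
def kvan (P : KP) (M T : ℕ) (x : KN) : Bool :=
  bif Nat.beq x.b 0 then x.ok else
    kcond P M T x &&
      Nat.beq (Nat.land x.v (Nat.sub (Nat.pow 2 (Nat.mul P.s (Nat.sub T x.e))) 1)) 0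

/-- `∑_{i<n} 2^(s-1) * 2^(s*i)`. -/
def koff (s n : ℕ) : ℕ :=
  Nat.mul (Nat.pow 2 (Nat.sub s 1))
    (Nat.div (Nat.sub (Nat.pow 2 (Nat.mul s n)) 1) (Nat.sub (Nat.pow 2 s) 1))

def kful (P : KP) (M T : ℕ) (x : KN) : ℕ :=
  Nat.add (Nat.mul (Nat.pow P.Q M) x.v) (koff P.s (Nat.sub T x.e))

/-- The slot `k`, shifted by `2^(s-1)`. -/
def kdn (P : KP) (M T : ℕ) (x : KN) (k : ℕ) : ℕ :=
  bif Nat.ble x.e k then
    Nat.land (Nat.shiftRight (kful P M T x) (Nat.mul P.s (Nat.sub k x.e)))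
      (Nat.sub (Nat.pow 2 P.s) 1)
  else Nat.pow 2 (Nat.sub P.s 1)

/-- The meaning of a floating value: `f = F - G` at `u = 1/Q`, for polynomials `F, G` in
`p, g, u` with natural coefficients. -/
def KRel (P : KP) (f : PP) (x : KN) : Prop :=
  x.ok = true → ∃ F G : MvPolynomial (Fin 3) ℕ,
    f = MvPolynomial.aeval ![MvPolynomial.X 0, MvPolynomial.X 1, MvPolynomial.C ((P.Q : ℂ)⁻¹)] F -
        MvPolynomial.aeval ![MvPolynomial.X 0, MvPolynomial.X 1, MvPolynomial.C ((P.Q : ℂ)⁻¹)] G ∧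
    (∀ d ∈ (F + G).support, x.e + P.t * d 2 ≤ P.a * d 0 + P.b * d 1) ∧
    (MvPolynomial.aeval ![((P.r : ℝ) ^ P.a)⁻¹, ((P.r : ℝ) ^ P.b)⁻¹, (P.Q : ℝ)⁻¹] (F + G) : ℝ) *
      (P.r : ℝ) ^ x.e ≤ x.b ∧
    (MvPolynomial.aeval ![(2 : ℤ) ^ (P.s * P.a), (2 : ℤ) ^ (P.s * P.b), (P.Qi : ℤ)] F -
        MvPolynomial.aeval ![(2 : ℤ) ^ (P.s * P.a), (2 : ℤ) ^ (P.s * P.b), (P.Qi : ℤ)] G : ℤ) ≡
      (x.v : ℤ) * 2 ^ (P.s * x.e) [ZMOD 2 ^ (P.s * (x.e + P.K))]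

end Crest.Agent.R278
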