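import Crest.Agent.R278.KHom

set_option autoImplicit false

namespace Crest.Agent.R278

open Finset

theorem digit_nat {B : ℕ} (hB : 0 < B) (n : ℕ) : ∀ (N : ℕ) (D : ℕ → ℕ), (∀ i < n, D i < B) →
    N ≡ ∑ i ∈ range n, D i * B ^ i [MOD B ^ n] → ∀ i < n, N / B ^ i % B = D i := by
  induction n with
  | zero => intro N D _ _ i hi; omega
  | succ n ih =>
    intro N D hD h i hi
    have e : ∑ i ∈ range (n + 1), D i * B ^ i =
        D 0 + B * ∑ i ∈ range n, D (i + 1) * B ^ i := by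
      rw [Finset.sum_range_succ', Finset.mul_sum, add_comm, pow_zero, mul_one]
      congr 1
      exact Finset.sum_congr rfl fun i _ => by ring
    rw [e, pow_succ'] at h
    have h0 := hD 0 (by omega)
    cases i with
    | zero =>
      have h1 := h.of_mul_right (B ^ n)
      unfold Nat.ModEq at h1
      rw [pow_zero, Nat.div_one, h1, Nat.add_mul_mod_self_left, Nat.mod_eq_of_lt h0]
    | succ i =>
      have h1 : N / B ≡ ∑ i ∈ range n, D (i + 1) * B ^ i [MOD B ^ n] := by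
        unfold Nat.ModEq at h ⊢
        rw [← Nat.mod_mul_right_div_self, h, Nat.mod_mul_right_div_self,
          Nat.add_mul_div_left _ _ hB, Nat.div_eq_of_lt h0, zero_add]
      have h2 := ih (N / B) (fun i => D (i + 1)) (fun i hi => hD _ (by omega)) h1 i (by omega)
      rw [Nat.div_div_eq_div_mul, ← pow_succ'] at h2
      exact h2

theorem digit_int {B H n N : ℕ} (hB : B = 2 * H) {z : ℕ → ℤ} (hz : ∀ i < n, |z i| < H)
    (h : (N : ℤ) ≡ ∑ i ∈ range n, (z i + H) * (B : ℤ) ^ i [ZMOD (B : ℤ) ^ n]) {i : ℕ}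
    (hi : i < n) : ((N / B ^ i % B : ℕ) : ℤ) = z i + H := by
  have h0 : ∀ i < n, (((z i + H).toNat : ℕ) : ℤ) = z i + H := fun i hi =>
    Int.toNat_of_nonneg (by have := abs_lt.1 (hz i hi); omega)
  have hH : 0 < H := by have := (abs_nonneg _).trans_lt (hz i hi); omega
  rw [← h0 i hi]
  congr 1
  refine digit_nat (by omega) n N (fun i => (z i + H).toNat) (fun j hj => ?_) ?_ i hi
  · have := abs_lt.1 (hz j hj)
    have := h0 j hj
    omega
  · rw [← Int.natCast_modEq_iff]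
    push_cast
    rwa [Finset.sum_congr rfl fun j hj => by rw [h0 j (Finset.mem_range.1 hj)]]

theorem koff_eq {s : ℕ} (hs : 1 ≤ s) (n : ℕ) :
    koff s n = ∑ i ∈ range n, 2 ^ (s - 1) * (2 ^ s) ^ i := by
  have h2 : 2 ≤ 2 ^ s := le_self_pow₀ (by norm_num) (by omega)
  rw [← Finset.mul_sum, Nat.geomSum_eq h2, ← pow_mul]
  rfl

theorem aeval_nat_eq {R : Type*} [CommSemiring R] [Algebra ℕ R] (v : Fin 3 → R)
    (F : MvPolynomial (Fin 3) ℕ) {S : Finset (Fin 3 →₀ ℕ)} (hS : F.support ⊆ S) :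
    MvPolynomial.aeval v F =
      ∑ d ∈ S, ((F.coeff d : ℕ) : R) * (v 0 ^ d 0 * v 1 ^ d 1 * v 2 ^ d 2) := by
  rw [MvPolynomial.aeval_def, MvPolynomial.eval₂_eq']
  simp only [Fin.prod_univ_three, eq_natCast]
  refine Finset.sum_subset hS fun d _ hd => ?_
  rw [MvPolynomial.notMem_support_iff.1 hd, Nat.cast_zero, zero_mul]

theorem aeval_sub_eq {R : Type*} [CommRing R] [Algebra ℕ R] (v : Fin 3 → R)
    (F G : MvPolynomial (Fin 3) ℕ) :
    MvPolynomial.aeval v F - MvPolynomial.aeval v G = ∑ d ∈ (F + G).support,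
      ((((F.coeff d : ℕ) : ℤ) - (G.coeff d : ℕ) : ℤ) : R) * (v 0 ^ d 0 * v 1 ^ d 1 * v 2 ^ d 2) := by
  have h1 : F.support ⊆ (F + G).support := fun d hd => by
    rw [MvPolynomial.mem_support_iff] at hd ⊢
    rw [MvPolynomial.coeff_add]
    omega
  have h2 : G.support ⊆ (F + G).support := fun d hd => by
    rw [MvPolynomial.mem_support_iff] at hd ⊢
    rw [MvPolynomial.coeff_add]
    omega
  rw [aeval_nat_eq v F h1, aeval_nat_eq v G h2, ← Finset.sum_sub_distrib]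
  refine Finset.sum_congr rfl fun d _ => ?_
  push_cast
  ring

theorem good_iff {P : KP} (hP : P.good = true) :
    1 ≤ P.s ∧ 1 ≤ P.r ∧ 1 ≤ P.Q ∧ P.Q * P.Qi ≡ 1 [MOD 2 ^ (P.s * P.K)] := by
  simp only [KP.good, Bool.and_eq_true, Nat.ble_eq, Nat.beq_eq] at hP
  obtain ⟨⟨⟨⟨h1, h2⟩, h3⟩, h4⟩, h5⟩ := hP
  refine ⟨h1, h2, h4, ?_⟩
  have h6 : (P.Q * P.Qi) &&& (2 ^ (P.s * P.K) - 1) = 1 := h5
  rw [Nat.and_two_pow_sub_one_eq_mod] at h6
  rw [← h6]
  exact (Nat.mod_modEq _ _).symm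

theorem kcond_iff {P : KP} {M T : ℕ} {x : KN} (hc : kcond P M T x = true) :
    x.ok = true ∧ T ≤ x.e + P.K ∧ T ≤ x.e + (M + 1) * P.t ∧
      2 * P.Q ^ M * (x.b * P.r ^ (T - x.e)) + 1 ≤ 2 ^ P.s := by
  simp only [kcond, Bool.and_eq_true, Nat.ble_eq] at hc
  obtain ⟨⟨⟨h1, h2⟩, h3⟩, h4⟩ := hc
  exact ⟨h1, h2, h3, h4⟩

theorem kcore {P : KP} (hP : P.good = true) {f : PP} {x : KN} (h : KRel P f x) {M T : ℕ}
    (hc : kcond P M T x = true) : ∃ z : ℕ → ℤ,
      (∀ k < T, (P.Q : ℂ) ^ M * (arc P.a P.b f).coeff k = z k) ∧ (∀ k < x.e, z k = 0) ∧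
      (∀ i < T - x.e, |z (x.e + i)| < (2 ^ (P.s - 1) : ℕ)) ∧
      (x.e ≤ T → ((P.Q ^ M * x.v : ℕ) : ℤ) ≡
        ∑ i ∈ range (T - x.e), z (x.e + i) * ((2 ^ P.s : ℕ) : ℤ) ^ i
          [ZMOD ((2 ^ P.s : ℕ) : ℤ) ^ (T - x.e)]) := by
  obtain ⟨hs, hr, hQ, hQi⟩ := good_iff hP
  obtain ⟨hok, hT1, hT2, hT3⟩ := kcond_iff hc
  obtain ⟨F, G, hf, hsup, hn, hev⟩ := h hok
  set S := (F + G).support with hS
  set w : (Fin 3 →₀ ℕ) → ℕ := fun d => P.a * d 0 + P.b * d 1 with hw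
  set c : (Fin 3 →₀ ℕ) → ℤ := fun d => ((F.coeff d : ℕ) : ℤ) - (G.coeff d : ℕ) with hcd
  have hM : ∀ d ∈ S, w d < T → d 2 ≤ M := fun d hd hlt => by
    have h1 := hsup d hd
    have h2 : P.t * d 2 < P.t * (M + 1) := by
      rw [mul_comm P.t (M + 1)]
      simp only [hw] at hlt
      omega
    have := Nat.lt_of_mul_lt_mul_left h2
    omega
  have he : ∀ d ∈ S, x.e ≤ w d := fun d hd => le_trans (Nat.le_add_right _ _) (hsup d hd)
  refine ⟨fun k => ∑ d ∈ S with w d = k, c d * (P.Q : ℤ) ^ (M - d 2), fun k hk => ?_,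
    fun k hk => ?_, fun i hi => ?_, fun heT => ?_⟩
  · have hQ0 : (P.Q : ℂ) ≠ 0 := by exact_mod_cast (by omega : P.Q ≠ 0)
    beta_reduce
    rw [hf, aeval_sub_eq, map_sum, Polynomial.finsetSum_coeff, Finset.mul_sum, Finset.sum_filter,
      Int.cast_sum]
    refine Finset.sum_congr rfl fun d hd => ?_
    have e : arc P.a P.b ((c d : PP) * (MvPolynomial.X 0 ^ d 0 * MvPolynomial.X 1 ^ d 1 *
        MvPolynomial.C ((P.Q : ℂ)⁻¹) ^ d 2)) =
        Polynomial.C ((c d : ℂ) * ((P.Q : ℂ)⁻¹) ^ d 2) * Polynomial.X ^ w d := by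
      simp only [arc, map_mul, map_pow, map_intCast, MvPolynomial.aeval_X, MvPolynomial.aeval_C,
        Matrix.cons_val_zero, Matrix.cons_val_one, Polynomial.algebraMap_eq, hw, pow_add, pow_mul]
      ring
    simp only [Matrix.cons_val_zero, Matrix.cons_val_one, Matrix.cons_val_two, Matrix.head_cons,
      Matrix.tail_cons]
    rw [e, Polynomial.coeff_C_mul_X_pow]
    by_cases hd' : w d = k
    · rw [if_pos hd'.symm, if_pos hd']
      have h1 := hM d hd (hd' ▸ hk)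
      push_cast
      rw [pow_sub₀ _ hQ0 h1, inv_pow]
      ring
    · rw [if_neg (Ne.symm hd'), if_neg hd', mul_zero, Int.cast_zero]
  · refine Finset.sum_eq_zero fun d hd => ?_
    obtain ⟨h1, h2⟩ := Finset.mem_filter.1 hd
    have := he d h1
    omega
  · have hQ0 : (0 : ℝ) < P.Q := by exact_mod_cast hQ
    have hr0 : (1 : ℝ) ≤ P.r := by exact_mod_cast hr
    have hr1 : (0 : ℝ) < P.r := by linarith
    rw [aeval_nat_eq _ _ subset_rfl] at hn
    simp only [Matrix.cons_val_zero, Matrix.cons_val_one, Matrix.cons_val_two, Matrix.head_cons,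
      Matrix.tail_cons] at hn
    have h1 : ((|∑ d ∈ S with w d = x.e + i, c d * (P.Q : ℤ) ^ (M - d 2)| : ℤ) : ℝ) ≤
        (P.Q : ℝ) ^ M * (P.r : ℝ) ^ (x.e + i) * ∑ d ∈ S with w d = x.e + i,
          (((F + G).coeff d : ℕ) : ℝ) * (((P.r : ℝ) ^ P.a)⁻¹ ^ d 0 * ((P.r : ℝ) ^ P.b)⁻¹ ^ d 1 *
            (P.Q : ℝ)⁻¹ ^ d 2) := by
      push_cast
      rw [Finset.mul_sum]
      refine (Finset.abs_sum_le_sum_abs _ _).trans (Finset.sum_le_sum fun d hd => ?_)
      obtain ⟨h1, h2⟩ := Finset.mem_filter.1 hd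
      have h3 := hM d h1 (by omega)
      have h4 : |(c d : ℝ)| ≤ (((F + G).coeff d : ℕ) : ℝ) := by
        simp only [hcd, MvPolynomial.coeff_add]
        push_cast
        rw [abs_le]
        constructor <;> linarith [Nat.cast_nonneg (α := ℝ) (F.coeff d),
          Nat.cast_nonneg (α := ℝ) (G.coeff d)]
      rw [abs_mul, abs_of_pos (pow_pos hQ0 _), ← h2]
      refine (mul_le_mul_of_nonneg_right h4 (pow_pos hQ0 _).le).trans_eq ?_
      rw [pow_sub₀ _ hQ0.ne' h3]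
      simp only [hw, pow_add, pow_mul, inv_pow]
      field_simp
    have h2 := Finset.sum_le_sum_of_subset_of_nonneg (Finset.filter_subset (w · = x.e + i) S)
      (f := fun d => (((F + G).coeff d : ℕ) : ℝ) * (((P.r : ℝ) ^ P.a)⁻¹ ^ d 0 *
        ((P.r : ℝ) ^ P.b)⁻¹ ^ d 1 * (P.Q : ℝ)⁻¹ ^ d 2)) fun d _ _ => by positivity
    have h3 : (P.r : ℝ) ^ i ≤ (P.r : ℝ) ^ (T - x.e) := pow_le_pow_right₀ hr0 hi.le
    have h4 : 2 * (P.Q : ℝ) ^ M * (x.b * (P.r : ℝ) ^ (T - x.e)) + 1 ≤ 2 * 2 ^ (P.s - 1) := by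
      rw [← pow_succ', Nat.sub_add_cancel hs]
      exact_mod_cast hT3
    have h5 := mul_le_mul_of_nonneg_left ((mul_le_mul_of_nonneg_right h2
      (pow_pos hr1 x.e).le).trans hn) (mul_pos (pow_pos hQ0 M) (pow_pos hr1 i)).le
    have h6 := mul_le_mul_of_nonneg_left h3
      (mul_nonneg (pow_pos hQ0 M).le (Nat.cast_nonneg (α := ℝ) x.b))
    rw [pow_add] at h1
    have h7 : ((|∑ d ∈ S with w d = x.e + i, c d * (P.Q : ℤ) ^ (M - d 2)| : ℤ) : ℝ) <
        (((2 ^ (P.s - 1) : ℕ) : ℤ) : ℝ) := by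
      refine h1.trans_lt ?_
      push_cast
      linarith
    exact_mod_cast h7
  · rw [aeval_sub_eq] at hev
    simp only [Matrix.cons_val_zero, Matrix.cons_val_one, Matrix.cons_val_two, Matrix.head_cons,
      Matrix.tail_cons, Int.cast_id] at hev
    have hd1 : (2 : ℤ) ^ (P.s * T) ∣ 2 ^ (P.s * (x.e + P.K)) :=
      pow_dvd_pow _ (Nat.mul_le_mul_left _ hT1)
    have h1 := (hev.of_dvd hd1).mul_left ((P.Q : ℤ) ^ M)
    have hQi' : (P.Q : ℤ) * P.Qi ≡ 1 [ZMOD 2 ^ (P.s * P.K)] := by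
      have := Int.natCast_modEq_iff.2 hQi
      push_cast at this
      exact this
    have h2 : (P.Q : ℤ) ^ M * ∑ d ∈ S, c d * (((2 : ℤ) ^ (P.s * P.a)) ^ d 0 *
        ((2 : ℤ) ^ (P.s * P.b)) ^ d 1 * (P.Qi : ℤ) ^ d 2) ≡
        ∑ d ∈ S, if w d < T then c d * (P.Q : ℤ) ^ (M - d 2) * 2 ^ (P.s * w d) else 0
          [ZMOD 2 ^ (P.s * T)] := by
      rw [Finset.mul_sum]
      refine Int.ModEq.sum fun d hd => ?_
      have e : ((2 : ℤ) ^ (P.s * P.a)) ^ d 0 * ((2 : ℤ) ^ (P.s * P.b)) ^ d 1 = 2 ^ (P.s * w d) := by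
        rw [← pow_mul, ← pow_mul, ← pow_add]
        congr 1
        simp only [hw]
        ring
      rw [e]
      split_ifs with hlt
      · have h3 := ((hQi'.pow (d 2)).mul_right' (c := 2 ^ (P.s * w d)))
        rw [← pow_add] at h3
        have h4 := (h3.of_dvd (pow_dvd_pow _ (show P.s * T ≤ P.s * P.K + P.s * w d by
          rw [← mul_add]
          exact Nat.mul_le_mul_left _ (by have := he d hd; omega)))).mul_left
          (c d * (P.Q : ℤ) ^ (M - d 2))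
        have h5 : (P.Q : ℤ) ^ M = (P.Q : ℤ) ^ (M - d 2) * (P.Q : ℤ) ^ d 2 := by
          rw [← pow_add, Nat.sub_add_cancel (hM d hd hlt)]
        rw [h5]
        convert h4 using 1 <;> ring
      · refine Int.modEq_zero_iff_dvd.2 ?_
        have h3 : (2 : ℤ) ^ (P.s * T) ∣ 2 ^ (P.s * w d) :=
          pow_dvd_pow _ (Nat.mul_le_mul_left _ (not_lt.1 hlt))
        exact ((h3.mul_right _).mul_left _).mul_left _
    have h3 : (∑ d ∈ S, if w d < T then c d * (P.Q : ℤ) ^ (M - d 2) * 2 ^ (P.s * w d) else 0) =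
        (∑ i ∈ range (T - x.e), (∑ d ∈ S with w d = x.e + i, c d * (P.Q : ℤ) ^ (M - d 2)) *
          ((2 ^ P.s : ℕ) : ℤ) ^ i) * 2 ^ (P.s * x.e) := by
      simp only [Finset.sum_filter, Finset.sum_mul]
      rw [Finset.sum_comm]
      refine Finset.sum_congr rfl fun d hd => ?_
      obtain ⟨u, hu⟩ := Nat.exists_eq_add_of_le (he d hd)
      simp only [hu, add_right_inj, ite_mul, zero_mul, Finset.sum_ite_eq, Finset.mem_range]
      refine if_congr (by omega) ?_ rfl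
      push_cast
      rw [mul_add, pow_add, pow_mul 2 P.s u]
      ring
    have h4 := h1.symm.trans h2
    rw [h3, ← mul_assoc] at h4
    have e : (2 : ℤ) ^ (P.s * T) = ((2 ^ P.s : ℕ) : ℤ) ^ (T - x.e) * 2 ^ (P.s * x.e) := by
      push_cast
      rw [← pow_mul, ← pow_add, ← mul_add, Nat.sub_add_cancel heT]
    rw [e] at h4
    have h5 := Int.ModEq.mul_right_cancel' (by positivity) h4
    push_cast at h5 ⊢
    exact h5

theorem kful_modEq {P : KP} (hs : 1 ≤ P.s) {n : ℕ} {z : ℕ → ℤ} {N : ℕ}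
    (h : (N : ℤ) ≡ ∑ i ∈ range n, z i * ((2 ^ P.s : ℕ) : ℤ) ^ i [ZMOD ((2 ^ P.s : ℕ) : ℤ) ^ n]) :
    ((N + koff P.s n : ℕ) : ℤ) ≡ ∑ i ∈ range n, (z i + (2 ^ (P.s - 1) : ℕ)) *
      ((2 ^ P.s : ℕ) : ℤ) ^ i [ZMOD ((2 ^ P.s : ℕ) : ℤ) ^ n] := by
  simp only [add_mul, Finset.sum_add_distrib]
  rw [Nat.cast_add, koff_eq hs]
  refine h.add ?_
  push_cast
  rfl

theorem kdn_spec {P : KP} (hP : P.good = true) {f : PP} {x : KN} (h : KRel P f x) {M T : ℕ}
    (hc : kcond P M T x = true) {k : ℕ} (hk : k < T) :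
    (P.Q : ℂ) ^ M * (arc P.a P.b f).coeff k =
      (((kdn P M T x k : ℤ) - 2 ^ (P.s - 1) : ℤ) : ℂ) := by
  obtain ⟨z, h1, h2, h3, h4⟩ := kcore hP h hc
  have hs := (good_iff hP).1
  rw [h1 k hk]
  congr 1
  by_cases hek : x.e ≤ k
  · have e : kdn P M T x k = (P.Q ^ M * x.v + koff P.s (T - x.e)) / (2 ^ P.s) ^ (k - x.e) %
        2 ^ P.s := by
      rw [kdn, Nat.ble_eq_true_of_le hek, cond_true, ← pow_mul, ← Nat.shiftRight_eq_div_pow,
        ← Nat.and_two_pow_sub_one_eq_mod]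
      rfl
    have h5 := digit_int (B := 2 ^ P.s) (H := 2 ^ (P.s - 1))
      (by rw [← pow_succ', Nat.sub_add_cancel hs]) h3 (kful_modEq hs (h4 (by omega)))
      (show k - x.e < T - x.e by omega)
    rw [e, h5, Nat.add_sub_cancel' hek]
    push_cast
    ring
  · have e : kdn P M T x k = 2 ^ (P.s - 1) := by
      have : Nat.ble x.e k = false := by
        rw [← Bool.not_eq_true, Nat.ble_eq]
        exact hek
      rw [kdn, this, cond_false]
      rfl
    rw [e, h2 k (not_le.1 hek)]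
    push_cast
    ring

theorem kvan_spec {P : KP} (hP : P.good = true) {f : PP} {x : KN} (h : KRel P f x) {M T : ℕ}
    (hc : kvan P M T x = true) {k : ℕ} (hk : k < T) : (arc P.a P.b f).coeff k = 0 := by
  by_cases hb : x.b = 0
  · have : Nat.beq x.b 0 = true := by rw [Nat.beq_eq]; exact hb
    rw [kvan, this, cond_true] at hc
    rw [krel_zero hP h hc hb, map_zero, Polynomial.coeff_zero]
  have : Nat.beq x.b 0 = false := by
    rw [← Bool.not_eq_true, Nat.beq_eq]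
    exact hb
  rw [kvan, this, cond_false, Bool.and_eq_true, Nat.beq_eq] at hc
  obtain ⟨hc, hv⟩ := hc
  have hv' : x.v &&& (2 ^ (P.s * (T - x.e)) - 1) = 0 := hv
  rw [Nat.and_two_pow_sub_one_eq_mod] at hv'
  obtain ⟨z, h1, h2, h3, h4⟩ := kcore hP h hc
  obtain ⟨hs, -, hQ, -⟩ := good_iff hP
  have hQ0 : (P.Q : ℂ) ^ M ≠ 0 := pow_ne_zero _ (by exact_mod_cast (by omega : P.Q ≠ 0))
  refine (mul_eq_zero_iff_left hQ0).1 ?_
  rw [h1 k hk, Int.cast_eq_zero]
  by_cases hek : x.e ≤ k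
  · have hB : 2 ^ P.s = 2 * 2 ^ (P.s - 1) := by rw [← pow_succ', Nat.sub_add_cancel hs]
    have hi : k - x.e < T - x.e := by omega
    have h5 := digit_int hB h3 (kful_modEq hs (h4 (by omega))) hi
    have h6 := digit_int (N := P.Q ^ M * x.v + koff P.s (T - x.e)) hB (z := fun _ => 0)
      (fun _ _ => by positivity) (kful_modEq hs (by
        simp only [zero_mul, Finset.sum_const_zero]
        refine Int.modEq_zero_iff_dvd.2 ?_
        rw [← Nat.cast_pow, Int.natCast_dvd_natCast, ← pow_mul]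
        exact (Nat.dvd_of_mod_eq_zero hv').mul_left _)) hi
    rw [h5, Nat.add_sub_cancel' hek] at h6
    exact add_right_cancel h6
  · exact h2 k (not_le.1 hek)

end Crest.Agent.R278
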