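import Crest.Agent.R278.KDef

set_option autoImplicit false

namespace Crest.Agent.R278

open MvPolynomial

namespace KH

/-- Evaluation in `ℂ[p,g]`. -/
noncomputable def evP (P : KP) : MvPolynomial (Fin 3) ℕ →ₐ[ℕ] PP :=
  aeval ![X 0, X 1, C ((P.Q : ℂ)⁻¹)]

/-- The weighted norm. -/
noncomputable def evR (P : KP) : MvPolynomial (Fin 3) ℕ →ₐ[ℕ] ℝ :=
  aeval ![((P.r : ℝ) ^ P.a)⁻¹, ((P.r : ℝ) ^ P.b)⁻¹, (P.Q : ℝ)⁻¹]

/-- The integer evaluation. -/
noncomputable def evZ (P : KP) : MvPolynomial (Fin 3) ℕ →ₐ[ℕ] ℤ :=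
  aeval ![(2 : ℤ) ^ (P.s * P.a), (2 : ℤ) ^ (P.s * P.b), (P.Qi : ℤ)]

/-- The meaning of a floating value with integer mantissa and real bound. -/
def Sem (P : KP) (f : PP) (e : ℕ) (v : ℤ) (b : ℝ) : Prop :=
  ∃ F G : MvPolynomial (Fin 3) ℕ, f = evP P F - evP P G ∧
    (∀ d ∈ (F + G).support, e + P.t * d 2 ≤ P.a * d 0 + P.b * d 1) ∧
    evR P (F + G) * (P.r : ℝ) ^ e ≤ b ∧
    evZ P F - evZ P G ≡ v * 2 ^ (P.s * e) [ZMOD 2 ^ (P.s * (e + P.K))]

theorem krel_iff (P : KP) (f : PP) (x : KN) :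
    KRel P f x ↔ (x.ok = true → Sem P f x.e x.v x.b) := Iff.rfl

theorem aeval_nat_eq (w : Fin 3 → ℝ) (F : MvPolynomial (Fin 3) ℕ) :
    (aeval w F : ℝ) = ∑ d ∈ F.support, ((F.coeff d : ℕ) : ℝ) * ∏ i, w i ^ d i := by
  rw [aeval_def, eval₂_eq']
  simp

theorem aeval_nonneg (w : Fin 3 → ℝ) (hw : ∀ i, 0 ≤ w i) (F : MvPolynomial (Fin 3) ℕ) :
    0 ≤ (aeval w F : ℝ) := by
  rw [aeval_nat_eq]
  exact Finset.sum_nonneg fun d _ =>
    mul_nonneg (Nat.cast_nonneg _) (Finset.prod_nonneg fun i _ => pow_nonneg (hw i) _)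

theorem eq_zero_of_aeval (w : Fin 3 → ℝ) (hw : ∀ i, 0 < w i) (F : MvPolynomial (Fin 3) ℕ)
    (h : (aeval w F : ℝ) ≤ 0) : F = 0 := by
  by_contra hF
  have hne : F.support.Nonempty := by
    rw [Finset.nonempty_iff_ne_empty]
    exact fun h0 => hF (support_eq_empty.mp h0)
  rw [aeval_nat_eq] at h
  refine absurd h (not_le.mpr (Finset.sum_pos (fun d hd => ?_) hne))
  have : 0 < F.coeff d := Nat.pos_of_ne_zero (mem_support_iff.mp hd)
  exact mul_pos (by exact_mod_cast this) (Finset.prod_pos fun i _ => pow_pos (hw i) _)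

theorem evR_nonneg (P : KP) (F : MvPolynomial (Fin 3) ℕ) : 0 ≤ evR P F := by
  refine aeval_nonneg _ (fun i => ?_) F
  fin_cases i <;> simp

theorem good_r {P : KP} (hP : P.good = true) : 1 ≤ P.r := by
  simp only [KP.good, Bool.and_eq_true, Nat.ble_eq] at hP
  exact hP.1.1.1.2

theorem good_Q {P : KP} (hP : P.good = true) : 1 ≤ P.Q := by
  simp only [KP.good, Bool.and_eq_true, Nat.ble_eq] at hP
  exact hP.1.2

theorem Sem.zero {P : KP} (hP : P.good = true) {f : PP} {e : ℕ} {v : ℤ} (h : Sem P f e v 0) :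
    f = 0 := by
  obtain ⟨F, G, hf, -, hb, -⟩ := h
  have hr : (0 : ℝ) < P.r := by exact_mod_cast good_r hP
  have hQ : (0 : ℝ) < P.Q := by exact_mod_cast good_Q hP
  have h1 : evR P (F + G) ≤ 0 := by
    by_contra hc
    have := mul_pos (not_le.mp hc) (pow_pos hr e)
    linarith
  have h0 : F + G = 0 := by
    refine eq_zero_of_aeval _ (fun i => ?_) _ h1
    fin_cases i <;> simp [hr, hQ]
  have hF : F = 0 := by
    ext d
    have := congrArg (coeff d) h0
    simp only [coeff_add, coeff_zero] at this ⊢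
    omega
  have hG : G = 0 := by simpa [hF] using h0
  simp [hf, hF, hG]

theorem Sem.mono {P : KP} {f : PP} {e : ℕ} {v v' : ℤ} {b b' : ℝ} (h : Sem P f e v b)
    (hv : v ≡ v' [ZMOD 2 ^ (P.s * P.K)]) (hb : b ≤ b') : Sem P f e v' b' := by
  obtain ⟨F, G, hf, hs, hn, hz⟩ := h
  refine ⟨F, G, hf, hs, hn.trans hb, hz.trans ?_⟩
  have := hv.mul_right' (c := 2 ^ (P.s * e))
  rwa [← pow_add, show P.s * P.K + P.s * e = P.s * (e + P.K) by ring] at this

theorem Sem.lower {P : KP} (hP : P.good = true) {f : PP} {e d : ℕ} {v : ℤ} {b : ℝ}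
    (h : Sem P f (e + d) v b) : Sem P f e (v * 2 ^ (P.s * d)) (b / (P.r : ℝ) ^ d) := by
  obtain ⟨F, G, hf, hs, hn, hz⟩ := h
  have hr : (0 : ℝ) < P.r := by exact_mod_cast good_r hP
  refine ⟨F, G, hf, fun m hm => le_trans (by omega) (hs m hm), ?_, ?_⟩
  · rw [le_div_iff₀ (pow_pos hr d), mul_assoc, ← pow_add]
    exact hn
  · rw [mul_assoc, ← pow_add, show P.s * d + P.s * e = P.s * (e + d) by ring]
    exact hz.of_dvd (pow_dvd_pow _ (Nat.mul_le_mul_left _ (by omega)))

theorem Sem.add {P : KP} {f g : PP} {e : ℕ} {v w : ℤ} {b c : ℝ} (h : Sem P f e v b)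
    (h' : Sem P g e w c) : Sem P (f + g) e (v + w) (b + c) := by
  obtain ⟨F, G, hf, hs, hn, hz⟩ := h
  obtain ⟨F', G', hf', hs', hn', hz'⟩ := h'
  have hsum : F + F' + (G + G') = (F + G) + (F' + G') := by ring
  refine ⟨F + F', G + G', ?_, ?_, ?_, ?_⟩
  · rw [hf, hf', map_add, map_add]; ring
  · intro m hm
    rw [hsum] at hm
    rcases Finset.mem_union.mp (support_add hm) with h1 | h1
    · exact hs m h1
    · exact hs' m h1
  · rw [hsum, map_add, add_mul]
    exact add_le_add hn hn'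
  · have := hz.add hz'
    rw [map_add, map_add, add_mul]
    convert this using 1
    ring

theorem Sem.neg {P : KP} {f : PP} {e : ℕ} {v : ℤ} {b : ℝ} (h : Sem P f e v b) :
    Sem P (-f) e (-v) b := by
  obtain ⟨F, G, hf, hs, hn, hz⟩ := h
  refine ⟨G, F, by rw [hf]; ring, by rwa [add_comm], by rwa [add_comm], ?_⟩
  have := hz.neg
  rw [neg_mul]
  convert this using 1
  ring

theorem Sem.mul {P : KP} {f g : PP} {e e' : ℕ} {v w : ℤ} {b c : ℝ} (h : Sem P f e v b)
    (h' : Sem P g e' w c) : Sem P (f * g) (e + e') (v * w) (b * c) := by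
  obtain ⟨F, G, hf, hs, hn, hz⟩ := h
  obtain ⟨F', G', hf', hs', hn', hz'⟩ := h'
  have hsum : F * F' + G * G' + (F * G' + G * F') = (F + G) * (F' + G') := by ring
  have hr : (0 : ℝ) ≤ P.r := Nat.cast_nonneg _
  refine ⟨F * F' + G * G', F * G' + G * F', ?_, ?_, ?_, ?_⟩
  · rw [hf, hf']; simp only [map_add, map_mul]; ring
  · intro m hm
    rw [hsum] at hm
    obtain ⟨m1, h1, m2, h2, rfl⟩ := Finset.mem_add.mp (support_mul _ _ hm)
    have a1 := hs m1 h1
    have a2 := hs' m2 h2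
    simp only [Finsupp.add_apply, mul_add]
    omega
  · rw [hsum, map_mul, pow_add, mul_mul_mul_comm]
    have p1 : 0 ≤ evR P (F + G) * (P.r : ℝ) ^ e := mul_nonneg (evR_nonneg _ _) (pow_nonneg hr _)
    have p2 : 0 ≤ evR P (F' + G') * (P.r : ℝ) ^ e' :=
      mul_nonneg (evR_nonneg _ _) (pow_nonneg hr _)
    exact mul_le_mul hn hn' p2 (p1.trans hn)
  · obtain ⟨k, hk⟩ := hz.dvd
    obtain ⟨k', hk'⟩ := hz'.dvd
    have e1 : evZ P F - evZ P G = 2 ^ (P.s * e) * (v - 2 ^ (P.s * P.K) * k) := by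
      rw [mul_add, pow_add] at hk
      linear_combination -hk
    have e2 : evZ P F' - evZ P G' = 2 ^ (P.s * e') * (w - 2 ^ (P.s * P.K) * k') := by
      rw [mul_add, pow_add] at hk'
      linear_combination -hk'
    have e3 : evZ P (F * F' + G * G') - evZ P (F * G' + G * F') =
        (evZ P F - evZ P G) * (evZ P F' - evZ P G') := by
      simp only [map_add, map_mul]; ring
    rw [e3, e1, e2]
    refine Int.modEq_iff_dvd.mpr ⟨v * k' + w * k - 2 ^ (P.s * P.K) * k * k', ?_⟩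
    simp only [mul_add, pow_add]
    ring

theorem Sem.cst (P : KP) (c : ℕ) : Sem P (c : PP) 0 c c := by
  refine ⟨C c, 0, by simp [evP], ?_, by simp [evR], by simp [evZ]⟩
  intro m hm
  rw [add_zero] at hm
  have := Finset.mem_singleton.mp (support_monomial_subset hm)
  simp [this]

theorem mem_support_X_mul (i : Fin 3) (F : MvPolynomial (Fin 3) ℕ) {m : Fin 3 →₀ ℕ}
    (hm : m ∈ (X i * F).support) : ∃ m' ∈ F.support, m = Finsupp.single i 1 + m' := by
  obtain ⟨m1, h1, m2, h2, rfl⟩ := Finset.mem_add.mp (support_mul _ _ hm)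
  rw [support_X, Finset.mem_singleton] at h1
  exact ⟨m2, h2, by rw [h1]⟩

theorem Sem.mp {P : KP} (hP : P.good = true) {f : PP} {e : ℕ} {v : ℤ} {b : ℝ}
    (h : Sem P f e v b) : Sem P (X 0 * f) (e + P.a) v b := by
  obtain ⟨F, G, hf, hs, hn, hz⟩ := h
  have hr : (0 : ℝ) < P.r := by exact_mod_cast good_r hP
  refine ⟨X 0 * F, X 0 * G, ?_, ?_, ?_, ?_⟩
  · rw [hf]; simp [evP, mul_sub]
  · intro m hm
    rw [← mul_add] at hm
    obtain ⟨m', h1, rfl⟩ := mem_support_X_mul _ _ hm
    have := hs m' h1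
    simp [mul_add]
    omega
  · rw [← mul_add, map_mul, pow_add]
    have : evR P (X 0) = ((P.r : ℝ) ^ P.a)⁻¹ := by simp [evR]
    rw [this]
    have hp : (P.r : ℝ) ^ P.a ≠ 0 := (pow_pos hr _).ne'
    convert hn using 1
    field_simp
  · have : evZ P (X 0) = 2 ^ (P.s * P.a) := by simp [evZ]
    rw [map_mul, map_mul, this, ← mul_sub]
    have h2 := hz.mul_left' (c := 2 ^ (P.s * P.a))
    convert h2 using 1
    · rw [← pow_add]; congr 1; ring
    · simp only [mul_add, pow_add]; ring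

theorem Sem.mg {P : KP} (hP : P.good = true) {f : PP} {e : ℕ} {v : ℤ} {b : ℝ}
    (h : Sem P f e v b) : Sem P (X 1 * f) (e + P.b) v b := by
  obtain ⟨F, G, hf, hs, hn, hz⟩ := h
  have hr : (0 : ℝ) < P.r := by exact_mod_cast good_r hP
  refine ⟨X 1 * F, X 1 * G, ?_, ?_, ?_, ?_⟩
  · rw [hf]; simp [evP, mul_sub]
  · intro m hm
    rw [← mul_add] at hm
    obtain ⟨m', h1, rfl⟩ := mem_support_X_mul _ _ hm
    have := hs m' h1
    simp [mul_add]
    omega
  · rw [← mul_add, map_mul, pow_add]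
    have : evR P (X 1) = ((P.r : ℝ) ^ P.b)⁻¹ := by simp [evR]
    rw [this]
    have hp : (P.r : ℝ) ^ P.b ≠ 0 := (pow_pos hr _).ne'
    convert hn using 1
    field_simp
  · have : evZ P (X 1) = 2 ^ (P.s * P.b) := by simp [evZ]
    rw [map_mul, map_mul, this, ← mul_sub]
    have h2 := hz.mul_left' (c := 2 ^ (P.s * P.b))
    convert h2 using 1
    · rw [← pow_add]; congr 1; ring
    · simp only [mul_add, pow_add]; ring

theorem Sem.mu {P : KP} (hP : P.good = true) {f : PP} {e : ℕ} {v : ℤ} {b : ℝ}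
    (h : Sem P f (e + P.t) v b) :
    Sem P (C ((P.Q : ℂ)⁻¹) * f) e (v * P.Qi * 2 ^ (P.s * P.t))
      (b / ((P.Q : ℝ) * (P.r : ℝ) ^ P.t)) := by
  obtain ⟨F, G, hf, hs, hn, hz⟩ := h
  have hr : (0 : ℝ) < P.r := by exact_mod_cast good_r hP
  have hQ : (0 : ℝ) < P.Q := by exact_mod_cast good_Q hP
  refine ⟨X 2 * F, X 2 * G, ?_, ?_, ?_, ?_⟩
  · rw [hf]; simp [evP, mul_sub]
  · intro m hm
    rw [← mul_add] at hm
    obtain ⟨m', h1, rfl⟩ := mem_support_X_mul _ _ hm
    have := hs m' h1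
    simp [mul_add]
    omega
  · rw [← mul_add, map_mul, le_div_iff₀ (mul_pos hQ (pow_pos hr _))]
    have : evR P (X 2) = (P.Q : ℝ)⁻¹ := by simp [evR]
    rw [this]
    rw [pow_add] at hn
    refine le_of_eq_of_le ?_ hn
    field_simp
  · have : evZ P (X 2) = P.Qi := by simp [evZ]
    rw [map_mul, map_mul, this, ← mul_sub]
    have h2 := (hz.mul_left (P.Qi : ℤ)).of_dvd
      (pow_dvd_pow (2 : ℤ) (Nat.mul_le_mul_left P.s (show e + P.K ≤ e + P.t + P.K by omega)))
    convert h2 using 1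
    simp only [mul_add, pow_add]; ring

theorem land_mask (P : KP) (v : ℕ) : Nat.land v P.mask = v % 2 ^ (P.s * P.K) :=
  Nat.and_two_pow_sub_one_eq_mod v (P.s * P.K)

theorem land_modEq (P : KP) (v : ℕ) :
    (v : ℤ) ≡ ((Nat.land v P.mask : ℕ) : ℤ) [ZMOD 2 ^ (P.s * P.K)] := by
  rw [land_mask]
  push_cast
  exact (Int.mod_modEq _ _).symm

theorem div_le_natDiv (b d : ℕ) (hd : 0 < d) :
    (b : ℝ) / (d : ℝ) ≤ ((Nat.div b d : ℕ) : ℝ) + 1 := by
  show (b : ℝ) / (d : ℝ) ≤ ((b / d : ℕ) : ℝ) + 1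
  have hd' : (0 : ℝ) < d := by exact_mod_cast hd
  rw [div_le_iff₀ hd']
  have h1 := Nat.div_add_mod b d
  have h2 := Nat.mod_lt b hd
  have h3 : b ≤ (b / d + 1) * d := by nlinarith
  exact_mod_cast h3

theorem kal_rel {P : KP} (hP : P.good = true) {f g : PP} {x y : KN} (hx : KRel P f x)
    (hy : KRel P g y) (he : x.e ≤ y.e) : KRel P (f + g) (kal P x y) := by
  obtain ⟨d, hd⟩ := Nat.exists_eq_add_of_le he
  have hsub : Nat.sub y.e x.e = d := by
    show y.e - x.e = d
    omega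
  have hr1 : 1 ≤ P.r := good_r hP
  rw [krel_iff] at hx hy ⊢
  unfold kal
  rw [hsub]
  cases hK : Nat.ble P.K d
  · simp only [cond_false, Bool.and_eq_true]
    rintro ⟨h1, h2⟩
    have s2 := hy h2
    rw [hd] at s2
    refine ((hx h1).add (s2.lower hP)).mono ?_ ?_
    · simp only [Nat.add_eq, Nat.mul_eq, Nat.shiftLeft_eq', Nat.shiftLeft_eq]
      push_cast
      exact Int.ModEq.refl _
    · have := div_le_natDiv y.b (P.r ^ d) (pow_pos hr1 _)
      simp only [Nat.add_eq, Nat.pow_eq]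
      push_cast at this ⊢
      linarith
  · simp only [cond_true, Bool.and_eq_true]
    rintro ⟨h1, h2⟩
    have hKd : P.K ≤ d := by simpa using hK
    have s2 := hy h2
    rw [hd] at s2
    refine ((hx h1).add (s2.lower hP)).mono ?_ ?_
    · refine Int.modEq_iff_dvd.mpr ?_
      have : (2 : ℤ) ^ (P.s * P.K) ∣ 2 ^ (P.s * d) := pow_dvd_pow _ (Nat.mul_le_mul_left _ hKd)
      have h3 : (x.v : ℤ) - (x.v + y.v * 2 ^ (P.s * d)) = -(y.v * 2 ^ (P.s * d)) := by ring
      rw [h3]
      exact (this.mul_left _).neg_right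
    · have := div_le_natDiv y.b (P.r ^ P.K) (pow_pos hr1 _)
      have hr1' : (1 : ℝ) ≤ P.r := by exact_mod_cast hr1
      have h4 : (y.b : ℝ) / (P.r : ℝ) ^ d ≤ (y.b : ℝ) / (P.r : ℝ) ^ P.K :=
        div_le_div_of_nonneg_left (Nat.cast_nonneg _) (by positivity) (pow_le_pow_right₀ hr1' hKd)
      simp only [Nat.add_eq, Nat.pow_eq]
      push_cast at this ⊢
      linarith

end KH

open KH

theorem krel_zero {P : KP} (hP : P.good = true) {f : PP} {x : KN} (h : KRel P f x)
    (hok : x.ok = true) (hb : x.b = 0) : f = 0 := by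
  have := (krel_iff P f x).mp h hok
  rw [hb, Nat.cast_zero] at this
  exact this.zero hP

theorem khom {P : KP} (hP : P.good = true) : Hom (oP P.Q) (oK P) (KRel P) := by
  have hr1 : 1 ≤ P.r := good_r hP
  have hQ1 : 1 ≤ P.Q := good_Q hP
  refine ⟨?_, ?_, ?_, ?_, ?_, ?_, ?_⟩
  · intro f g x y hx hy
    show KRel P (f + g) (kadd P x y)
    unfold kadd
    cases h1 : Nat.beq x.b 0
    · cases h2 : Nat.beq y.b 0
      · cases h3 : Nat.beq x.e y.e
        · cases h4 : Nat.ble x.e y.e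
          · simp only [cond_false]
            rw [add_comm]
            refine kal_rel hP hy hx ?_
            have : ¬ x.e ≤ y.e := by rw [← Nat.ble_eq, h4]; simp
            omega
          · simp only [cond_false, cond_true]
            exact kal_rel hP hx hy (by rw [← Nat.ble_eq, h4])
        · simp only [cond_false, cond_true]
          have he : x.e = y.e := Nat.eq_of_beq_eq_true h3
          rw [krel_iff] at hx hy ⊢
          simp only [Bool.and_eq_true]
          rintro ⟨o1, o2⟩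
          have s2 := hy o2
          rw [← he] at s2
          have := (hx o1).add s2
          simp only [Nat.add_eq]
          push_cast
          exact this
      · simp only [cond_false, cond_true]
        rw [krel_iff]
        simp only [Bool.and_eq_true]
        rintro ⟨o1, o2⟩
        rw [krel_zero hP hy o2 (Nat.eq_of_beq_eq_true h2), add_zero]
        exact hx o1
    · simp only [cond_true]
      rw [krel_iff]
      simp only [Bool.and_eq_true]
      rintro ⟨o1, o2⟩
      rw [krel_zero hP hx o1 (Nat.eq_of_beq_eq_true h1), zero_add]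
      exact hy o2
  · intro f g x y hx hy
    show KRel P (f * g) (kmul P x y)
    unfold kmul
    cases h1 : Nat.beq x.b 0
    · simp only [cond_false]
      rw [krel_iff] at hx hy ⊢
      simp only [Bool.and_eq_true]
      rintro ⟨o1, o2⟩
      refine ((hx o1).mul (hy o2)).mono ?_ ?_
      · have := land_modEq P (x.v * y.v)
        push_cast at this
        exact this
      · simp only [Nat.mul_eq]
        push_cast
        exact le_rfl
    · simp only [cond_true]
      intro o1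
      have h0 := krel_zero hP hx o1 (Nat.eq_of_beq_eq_true h1)
      have : f * g = f := by rw [h0, zero_mul]
      rw [this]
      exact hx o1
  · intro f x hx
    show KRel P (-f) (kneg P x)
    rw [krel_iff] at hx ⊢
    intro o1
    refine (hx o1).neg.mono ?_ le_rfl
    show -(x.v : ℤ) ≡ ((2 ^ (P.s * P.K) - Nat.land x.v P.mask : ℕ) : ℤ) [ZMOD 2 ^ (P.s * P.K)]
    have hlt : Nat.land x.v P.mask ≤ 2 ^ (P.s * P.K) := by
      rw [land_mask]
      exact (Nat.mod_lt _ (by positivity)).le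
    rw [Nat.cast_sub hlt]
    have h1 := (land_modEq P x.v).neg
    refine h1.trans (Int.modEq_iff_dvd.mpr ⟨1, ?_⟩)
    push_cast
    ring
  · intro c _
    exact Sem.cst P c
  · intro f x hx o1
    exact Sem.mp hP (hx o1)
  · intro f x hx o1
    exact Sem.mg hP (hx o1)
  · intro f x hx
    show KRel P (C ((P.Q : ℂ)⁻¹) * f) (kmu P x)
    unfold kmu
    cases h1 : Nat.beq x.b 0
    · simp only [cond_false]
      rw [krel_iff] at hx ⊢
      simp only [Bool.and_eq_true]
      rintro ⟨o1, o2⟩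
      have ht : P.t ≤ x.e := by simpa using o2
      have s1 := hx o1
      have he : x.e = Nat.sub x.e P.t + P.t := (Nat.sub_add_cancel ht).symm
      rw [he] at s1
      refine (s1.mu hP).mono ?_ ?_
      · refine Int.ModEq.trans ?_ (land_modEq P _)
        simp only [Nat.mul_eq, Nat.shiftLeft_eq', Nat.shiftLeft_eq]
        have := (land_modEq P (x.v * P.Qi)).mul_right (2 ^ (P.s * P.t))
        push_cast at this ⊢
        exact this
      · have := div_le_natDiv x.b (P.Q * P.r ^ P.t) (Nat.mul_pos hQ1 (pow_pos hr1 _))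
        simp only [Nat.add_eq, Nat.pow_eq, Nat.mul_eq]
        push_cast at this ⊢
        exact this
    · simp only [cond_true]
      intro o1
      have h0 := krel_zero hP hx o1 (Nat.eq_of_beq_eq_true h1)
      have : C ((P.Q : ℂ)⁻¹) * f = f := by rw [h0, mul_zero]
      rw [this]
      exact hx o1

end Crest.Agent.R278
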