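import Crest.Agent.R278.PfDef

set_option autoImplicit false

namespace Crest.Agent.R278

variable {A : Type} [CommRing A] (p g u : A)

/-- the `5 × 5` determinant, expanded along the last two columns -/
def det5 (a b c d e : V5 A) : A :=
  (((a.v3) * ((b.v4) * (c.v5) - (c.v4) * (b.v5)) - (b.v3) * ((a.v4) * (c.v5) - (c.v4) * (a.v5)) + (c.v3) * ((a.v4) * (b.v5) - (b.v4) * (a.v5)))) * (d.v1 * e.v2 - d.v2 * e.v1) +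
      (-((a.v2) * ((b.v4) * (c.v5) - (c.v4) * (b.v5)) - (b.v2) * ((a.v4) * (c.v5) - (c.v4) * (a.v5)) + (c.v2) * ((a.v4) * (b.v5) - (b.v4) * (a.v5)))) * (d.v1 * e.v3 - d.v3 * e.v1) +
      (((a.v2) * ((b.v3) * (c.v5) - (c.v3) * (b.v5)) - (b.v2) * ((a.v3) * (c.v5) - (c.v3) * (a.v5)) + (c.v2) * ((a.v3) * (b.v5) - (b.v3) * (a.v5)))) * (d.v1 * e.v4 - d.v4 * e.v1) +
      (-((a.v2) * ((b.v3) * (c.v4) - (c.v3) * (b.v4)) - (b.v2) * ((a.v3) * (c.v4) - (c.v3) * (a.v4)) + (c.v2) * ((a.v3) * (b.v4) - (b.v3) * (a.v4)))) * (d.v1 * e.v5 - d.v5 * e.v1) +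
      (((a.v1) * ((b.v4) * (c.v5) - (c.v4) * (b.v5)) - (b.v1) * ((a.v4) * (c.v5) - (c.v4) * (a.v5)) + (c.v1) * ((a.v4) * (b.v5) - (b.v4) * (a.v5)))) * (d.v2 * e.v3 - d.v3 * e.v2) +
      (-((a.v1) * ((b.v3) * (c.v5) - (c.v3) * (b.v5)) - (b.v1) * ((a.v3) * (c.v5) - (c.v3) * (a.v5)) + (c.v1) * ((a.v3) * (b.v5) - (b.v3) * (a.v5)))) * (d.v2 * e.v4 - d.v4 * e.v2) +
      (((a.v1) * ((b.v3) * (c.v4) - (c.v3) * (b.v4)) - (b.v1) * ((a.v3) * (c.v4) - (c.v3) * (a.v4)) + (c.v1) * ((a.v3) * (b.v4) - (b.v3) * (a.v4)))) * (d.v2 * e.v5 - d.v5 * e.v2) +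
      (((a.v1) * ((b.v2) * (c.v5) - (c.v2) * (b.v5)) - (b.v1) * ((a.v2) * (c.v5) - (c.v2) * (a.v5)) + (c.v1) * ((a.v2) * (b.v5) - (b.v2) * (a.v5)))) * (d.v3 * e.v4 - d.v4 * e.v3) +
      (-((a.v1) * ((b.v2) * (c.v4) - (c.v2) * (b.v4)) - (b.v1) * ((a.v2) * (c.v4) - (c.v2) * (a.v4)) + (c.v1) * ((a.v2) * (b.v4) - (b.v2) * (a.v4)))) * (d.v3 * e.v5 - d.v5 * e.v3) +
      (((a.v1) * ((b.v2) * (c.v3) - (c.v2) * (b.v3)) - (b.v1) * ((a.v2) * (c.v3) - (c.v2) * (a.v3)) + (c.v1) * ((a.v2) * (b.v3) - (b.v2) * (a.v3)))) * (d.v4 * e.v5 - d.v5 * e.v4)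

theorem det5_mem (a b c d e : V5 A) : det5 a b c d e ∈ minV d e := by
  unfold det5 minV
  repeat' refine Ideal.add_mem _ ?_ ?_
  all_goals exact Ideal.mul_mem_left _ _ (Ideal.subset_span (by simp))

theorem pl_key (L1 L2 L3 L4 L5 P1 P2 P3 P4 P5 Q1 Q2 Q3 Q4 Q5 : A) (a b c d e : V5 A)
    (hd0 : d.v1 * L1 + d.v2 * L2 + d.v3 * L3 + d.v4 * L4 + d.v5 * L5 = 0)
    (he0 : e.v1 * L1 + e.v2 * L2 + e.v3 * L3 + e.v4 * L4 + e.v5 * L5 = 0)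
    (hd1 : d.v1 * P1 + d.v2 * P2 + d.v3 * P3 + d.v4 * P4 + d.v5 * P5 = 0)
    (he1 : e.v1 * P1 + e.v2 * P2 + e.v3 * P3 + e.v4 * P4 + e.v5 * P5 = 0)
    (hd2 : d.v1 * Q1 + d.v2 * Q2 + d.v3 * Q3 + d.v4 * Q4 + d.v5 * Q5 = 0)
    (he2 : e.v1 * Q1 + e.v2 * Q2 + e.v3 * Q3 + e.v4 * Q4 + e.v5 * Q5 = 0) :
    ((a.v1 * L1 + a.v2 * L2 + a.v3 * L3 + a.v4 * L4 + a.v5 * L5) * ((b.v1 * P1 + b.v2 * P2 + b.v3 * P3 + b.v4 * P4 + b.v5 * P5) * (c.v1 * Q1 + c.v2 * Q2 + c.v3 * Q3 + c.v4 * Q4 + c.v5 * Q5) - (c.v1 * P1 + c.v2 * P2 + c.v3 * P3 + c.v4 * P4 + c.v5 * P5) * (b.v1 * Q1 + b.v2 * Q2 + b.v3 * Q3 + b.v4 * Q4 + b.v5 * Q5)) - (b.v1 * L1 + b.v2 * L2 + b.v3 * L3 + b.v4 * L4 + b.v5 * L5) * ((a.v1 * P1 + a.v2 * P2 + a.v3 * P3 + a.v4 * P4 + a.v5 * P5) * (c.v1 * Q1 + c.v2 * Q2 + c.v3 * Q3 +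 c.v4 * Q4 + c.v5 * Q5) - (c.v1 * P1 + c.v2 * P2 + c.v3 * P3 + c.v4 * P4 + c.v5 * P5) * (a.v1 * Q1 + a.v2 * Q2 + a.v3 * Q3 + a.v4 * Q4 + a.v5 * Q5)) + (c.v1 * L1 + c.v2 * L2 + c.v3 * L3 + c.v4 * L4 + c.v5 * L5) * ((a.v1 * P1 + a.v2 * P2 + a.v3 * P3 + a.v4 * P4 + a.v5 * P5) * (b.v1 * Q1 + b.v2 * Q2 + b.v3 * Q3 + b.v4 * Q4 + b.v5 * Q5) - (b.v1 * P1 + b.v2 * P2 + b.v3 * P3 + b.v4 * P4 + b.v5 * P5) * (a.v1 * Q1 + a.v2 * Q2 + a.v3 * Q3 + a.v4 * Q4 + a.v5 * Q5))) * (d.v1 * e.v2 - d.v2 * e.v1) =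
    ((L3) * ((P4) * (Q5) - (P5) * (Q4)) - (L4) * ((P3) * (Q5) - (P5) * (Q3)) + (L5) * ((P3) * (Q4) - (P4) * (Q3))) * det5 a b c d e := by
  unfold det5
  linear_combination ((a.v1 * e.v2 - a.v2 * e.v1) * ((b.v3 * P3 + b.v4 * P4 + b.v5 * P5) * (c.v3 * Q3 + c.v4 * Q4 + c.v5 * Q5) - (c.v3 * P3 + c.v4 * P4 + c.v5 * P5) * (b.v3 * Q3 + b.v4 * Q4 + b.v5 * Q5)) + (b.v1 * e.v2 - b.v2 * e.v1) * ((c.v3 * P3 + c.v4 * P4 + c.v5 * P5) * (a.v3 * Q3 + a.v4 * Q4 + a.v5 * Q5) - (a.v3 * P3 + a.v4 * P4 + a.v5 * P5) * (c.v3 * Q3 + c.v4 * Q4 + c.v5 * Q5)) + (c.v1 * e.v2 - c.v2 * e.v1) * ((a.v3 * P3 + a.v4 * P4 + a.v5 * P5) * (b.v3 * Q3 + b.v4 * Q4 + b.v5 * Q5) - (b.v3 * P3 + b.v4 * P4 + b.v5 * P5) * (a.v3 * Q3 + a.v4 * Q4 + a.v5 * Q5)) + (a.v1 * b.v2 - a.v2 * b.v1) * ((e.v1 * P1 + e.v2 *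 P2) * (c.v3 * Q3 + c.v4 * Q4 + c.v5 * Q5) - (c.v3 * P3 + c.v4 * P4 + c.v5 * P5) * (e.v1 * Q1 + e.v2 * Q2)) + (b.v1 * c.v2 - b.v2 * c.v1) * ((e.v1 * P1 + e.v2 * P2) * (a.v3 * Q3 + a.v4 * Q4 + a.v5 * Q5) - (a.v3 * P3 + a.v4 * P4 + a.v5 * P5) * (e.v1 * Q1 + e.v2 * Q2)) + (c.v1 * a.v2 - c.v2 * a.v1) * ((e.v1 * P1 + e.v2 * P2) * (b.v3 * Q3 + b.v4 * Q4 + b.v5 * Q5) - (b.v3 * P3 + b.v4 * P4 + b.v5 * P5) * (e.v1 * Q1 + e.v2 * Q2))) * hd0 +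
    ((a.v1 * e.v2 - a.v2 * e.v1) * (-(b.v3 * L3 + b.v4 * L4 + b.v5 * L5) * (c.v3 * Q3 + c.v4 * Q4 + c.v5 * Q5) + (c.v3 * L3 + c.v4 * L4 + c.v5 * L5) * (b.v3 * Q3 + b.v4 * Q4 + b.v5 * Q5)) + (b.v1 * e.v2 - b.v2 * e.v1) * (-(c.v3 * L3 + c.v4 * L4 + c.v5 * L5) * (a.v3 * Q3 + a.v4 * Q4 + a.v5 * Q5) + (a.v3 * L3 + a.v4 * L4 + a.v5 * L5) * (c.v3 * Q3 + c.v4 * Q4 + c.v5 * Q5)) + (c.v1 * e.v2 - c.v2 * e.v1) * (-(a.v3 * L3 + a.v4 * L4 + a.v5 * L5) * (b.v3 * Q3 + b.v4 * Q4 + b.v5 * Q5) + (b.v3 * L3 + b.v4 * L4 + b.v5 * L5) * (a.v3 * Q3 + a.v4 * Q4 + a.v5 * Q5)) + (a.v1 * b.v2 - a.v2 * b.v1) * (-(e.v1 * L1 + e.v2 * L2) * (c.v3 * Q3 + c.v4 * Q4 + c.v5 * Q5) + (c.v3 * L3 + c.v4 * L4 + c.v5 * L5) * (e.v1 * Q1 + e.v2 * Q2)) + (b.v1 * c.v2 - b.v2 * c.v1) * (-(e.v1 * L1 + e.v2 * L2)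 * (a.v3 * Q3 + a.v4 * Q4 + a.v5 * Q5) + (a.v3 * L3 + a.v4 * L4 + a.v5 * L5) * (e.v1 * Q1 + e.v2 * Q2)) + (c.v1 * a.v2 - c.v2 * a.v1) * (-(e.v1 * L1 + e.v2 * L2) * (b.v3 * Q3 + b.v4 * Q4 + b.v5 * Q5) + (b.v3 * L3 + b.v4 * L4 + b.v5 * L5) * (e.v1 * Q1 + e.v2 * Q2))) * hd1 +
    ((a.v1 * e.v2 - a.v2 * e.v1) * ((b.v3 * L3 + b.v4 * L4 + b.v5 * L5) * (c.v3 * P3 + c.v4 * P4 + c.v5 * P5) - (c.v3 * L3 + c.v4 * L4 + c.v5 * L5) * (b.v3 * P3 + b.v4 * P4 + b.v5 * P5)) + (b.v1 * e.v2 - b.v2 * e.v1) * ((c.v3 * L3 + c.v4 * L4 + c.v5 * L5) * (a.v3 * P3 + a.v4 * P4 + a.v5 * P5) - (a.v3 * L3 + a.v4 * L4 + a.v5 * L5) * (c.v3 * P3 + c.v4 * P4 + c.v5 * P5)) + (c.v1 * e.v2 - c.v2 * e.v1) * ((a.v3 * L3 + a.v4 * L4 + a.v5 * L5) * (b.v3 * P3 + b.v4 * P4 + b.v5 * P5) - (b.v3 * L3 + b.v4 * L4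 + b.v5 * L5) * (a.v3 * P3 + a.v4 * P4 + a.v5 * P5)) + (a.v1 * b.v2 - a.v2 * b.v1) * ((e.v1 * L1 + e.v2 * L2) * (c.v3 * P3 + c.v4 * P4 + c.v5 * P5) - (c.v3 * L3 + c.v4 * L4 + c.v5 * L5) * (e.v1 * P1 + e.v2 * P2)) + (b.v1 * c.v2 - b.v2 * c.v1) * ((e.v1 * L1 + e.v2 * L2) * (a.v3 * P3 + a.v4 * P4 + a.v5 * P5) - (a.v3 * L3 + a.v4 * L4 + a.v5 * L5) * (e.v1 * P1 + e.v2 * P2)) + (c.v1 * a.v2 - c.v2 * a.v1) * ((e.v1 * L1 + e.v2 * L2) * (b.v3 * P3 + b.v4 * P4 + b.v5 * P5) - (b.v3 * L3 + b.v4 * L4 + b.v5 * L5) * (e.v1 * P1 + e.v2 * P2))) * hd2 +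
    ((a.v2 * d.v1 - a.v1 * d.v2) * ((b.v3 * P3 + b.v4 * P4 + b.v5 * P5) * (c.v3 * Q3 + c.v4 * Q4 + c.v5 * Q5) - (c.v3 * P3 + c.v4 * P4 + c.v5 * P5) * (b.v3 * Q3 + b.v4 * Q4 + b.v5 * Q5)) + (b.v2 * d.v1 - b.v1 * d.v2) * ((c.v3 * P3 + c.v4 * P4 + c.v5 * P5) * (a.v3 * Q3 + a.v4 * Q4 + a.v5 * Q5) - (a.v3 * P3 + a.v4 * P4 + a.v5 * P5) * (c.v3 * Q3 + c.v4 * Q4 + c.v5 * Q5)) + (c.v2 * d.v1 - c.v1 * d.v2) * ((a.v3 * P3 + a.v4 * P4 + a.v5 * P5) * (b.v3 * Q3 + b.v4 * Q4 + b.v5 * Q5) - (b.v3 * P3 + b.v4 * P4 + b.v5 * P5) * (a.v3 * Q3 + a.v4 * Q4 + a.v5 * Q5)) + (-(a.v1 * b.v2 - a.v2 * b.v1)) * ((c.v3 * P3 + c.v4 * P4 + c.v5 * P5) * (d.v3 * Q3 + d.v4 * Q4 + d.v5 * Q5) - (d.v3 * P3 + d.v4 * P4 + d.v5 * P5) * (c.v3 * Q3 + c.v4 * Q4 + c.v5 * Q5)) + (-(b.v1 * c.v2 - b.v2 * c.v1)) *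 ((a.v3 * P3 + a.v4 * P4 + a.v5 * P5) * (d.v3 * Q3 + d.v4 * Q4 + d.v5 * Q5) - (d.v3 * P3 + d.v4 * P4 + d.v5 * P5) * (a.v3 * Q3 + a.v4 * Q4 + a.v5 * Q5)) + (-(c.v1 * a.v2 - c.v2 * a.v1)) * ((b.v3 * P3 + b.v4 * P4 + b.v5 * P5) * (d.v3 * Q3 + d.v4 * Q4 + d.v5 * Q5) - (d.v3 * P3 + d.v4 * P4 + d.v5 * P5) * (b.v3 * Q3 + b.v4 * Q4 + b.v5 * Q5))) * he0 +
    ((a.v2 * d.v1 - a.v1 * d.v2) * (-(b.v3 * L3 + b.v4 * L4 + b.v5 * L5) * (c.v3 * Q3 + c.v4 * Q4 + c.v5 * Q5) + (c.v3 * L3 + c.v4 * L4 + c.v5 * L5) * (b.v3 * Q3 + b.v4 * Q4 + b.v5 * Q5)) + (b.v2 * d.v1 - b.v1 * d.v2) * (-(c.v3 * L3 + c.v4 * L4 + c.v5 * L5) * (a.v3 * Q3 + a.v4 * Q4 + a.v5 * Q5) + (a.v3 * L3 + a.v4 * L4 + a.v5 * L5) * (c.v3 * Q3 + c.v4 * Q4 + c.v5 * Q5)) + (c.v2 * d.v1 - c.v1 * d.v2) * (-(a.v3 * L3 + a.v4 * L4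 + a.v5 * L5) * (b.v3 * Q3 + b.v4 * Q4 + b.v5 * Q5) + (b.v3 * L3 + b.v4 * L4 + b.v5 * L5) * (a.v3 * Q3 + a.v4 * Q4 + a.v5 * Q5)) + (-(a.v1 * b.v2 - a.v2 * b.v1)) * (-(c.v3 * L3 + c.v4 * L4 + c.v5 * L5) * (d.v3 * Q3 + d.v4 * Q4 + d.v5 * Q5) + (d.v3 * L3 + d.v4 * L4 + d.v5 * L5) * (c.v3 * Q3 + c.v4 * Q4 + c.v5 * Q5)) + (-(b.v1 * c.v2 - b.v2 * c.v1)) * (-(a.v3 * L3 + a.v4 * L4 + a.v5 * L5) * (d.v3 * Q3 + d.v4 * Q4 + d.v5 * Q5) + (d.v3 * L3 + d.v4 * L4 + d.v5 * L5) * (a.v3 * Q3 + a.v4 * Q4 + a.v5 * Q5)) + (-(c.v1 * a.v2 - c.v2 * a.v1)) * (-(b.v3 * L3 + b.v4 * L4 + b.v5 * L5) * (d.v3 * Q3 + d.v4 * Q4 + d.v5 * Q5) + (d.v3 * L3 + d.v4 * L4 + d.v5 * L5) * (b.v3 * Q3 + b.v4 * Q4 + b.v5 * Q5))) * he1 +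
    ((a.v2 * d.v1 - a.v1 * d.v2) * ((b.v3 * L3 + b.v4 * L4 + b.v5 * L5) * (c.v3 * P3 + c.v4 * P4 + c.v5 * P5) - (c.v3 * L3 + c.v4 * L4 + c.v5 * L5) * (b.v3 * P3 + b.v4 * P4 + b.v5 * P5)) + (b.v2 * d.v1 - b.v1 * d.v2) * ((c.v3 * L3 + c.v4 * L4 + c.v5 * L5) * (a.v3 * P3 + a.v4 * P4 + a.v5 * P5) - (a.v3 * L3 + a.v4 * L4 + a.v5 * L5) * (c.v3 * P3 + c.v4 * P4 + c.v5 * P5)) + (c.v2 * d.v1 - c.v1 * d.v2) * ((a.v3 * L3 + a.v4 * L4 + a.v5 * L5) * (b.v3 * P3 + b.v4 * P4 + b.v5 * P5) - (b.v3 * L3 + b.v4 * L4 + b.v5 * L5) * (a.v3 * P3 + a.v4 * P4 + a.v5 * P5)) + (-(a.v1 * b.v2 - a.v2 * b.v1)) * ((c.v3 * L3 + c.v4 * L4 + c.v5 * L5) * (d.v3 * P3 + d.v4 * P4 + d.v5 * P5) - (d.v3 * L3 + d.v4 * L4 + d.v5 * L5) * (c.v3 * P3 + c.v4 * P4 + c.v5 * P5)) + (-(b.v1 * c.v2 - b.v2 * c.v1)) *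 ((a.v3 * L3 + a.v4 * L4 + a.v5 * L5) * (d.v3 * P3 + d.v4 * P4 + d.v5 * P5) - (d.v3 * L3 + d.v4 * L4 + d.v5 * L5) * (a.v3 * P3 + a.v4 * P4 + a.v5 * P5)) + (-(c.v1 * a.v2 - c.v2 * a.v1)) * ((b.v3 * L3 + b.v4 * L4 + b.v5 * L5) * (d.v3 * P3 + d.v4 * P4 + d.v5 * P5) - (d.v3 * L3 + d.v4 * L4 + d.v5 * L5) * (b.v3 * P3 + b.v4 * P4 + b.v5 * P5))) * he2

theorem jv_expand (m : S10 A) (G : V5 (S10 A)) (a : V5 A) :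
    jv (oR p g u) m G a = V5.add (V5.add (V5.add (V5.add
      (V5.smul a.v1 (jv (oR p g u) m G ⟨1, 0, 0, 0, 0⟩))
      (V5.smul a.v2 (jv (oR p g u) m G ⟨0, 1, 0, 0, 0⟩)))
      (V5.smul a.v3 (jv (oR p g u) m G (eX (oR p g u)))))
      (V5.smul a.v4 (jv (oR p g u) m G (eY (oR p g u)))))
      (V5.smul a.v5 (jv (oR p g u) m G (eZ (oR p g u)))) := by
  ext <;> simp only [jv, dpf, comb, oR, V5.add, V5.smul, eX, eY, eZ, Nat.cast_zero,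
    Nat.cast_one] <;> ring

theorem pl_gen (m : S10 A) (G : V5 (S10 A)) (d e : V5 A) (h1 : jv (oR p g u) m G d = V5.zero A)
    (h2 : jv (oR p g u) m G e = V5.zero A) (l1 l2 l4 : A) (a b c : V5 A) :
    dl (oR p g u) l1 l2 l4 (jv (oR p g u) m G a) (jv (oR p g u) m G b) (jv (oR p g u) m G c) *
      (d.v1 * e.v2 - d.v2 * e.v1) =
    dl (oR p g u) l1 l2 l4 (jv (oR p g u) m G (eX (oR p g u))) (jv (oR p g u) m G (eY (oR p g u)))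
      (jv (oR p g u) m G (eZ (oR p g u))) * det5 a b c d e := by
  rw [jv_expand] at h1 h2
  rw [jv_expand p g u m G a, jv_expand p g u m G b, jv_expand p g u m G c]
  generalize jv (oR p g u) m G ⟨1, 0, 0, 0, 0⟩ = J1 at h1 h2 ⊢
  generalize jv (oR p g u) m G ⟨0, 1, 0, 0, 0⟩ = J2 at h1 h2 ⊢
  generalize jv (oR p g u) m G (eX (oR p g u)) = J3 at h1 h2 ⊢
  generalize jv (oR p g u) m G (eY (oR p g u)) = J4 at h1 h2 ⊢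
  generalize jv (oR p g u) m G (eZ (oR p g u)) = J5 at h1 h2 ⊢
  simp only [V5.add, V5.smul, V5.zero, V5.mk.injEq] at h1 h2
  obtain ⟨a1, a2, a3, a4, a5⟩ := h1
  obtain ⟨b1, b2, b3, b4, b5⟩ := h2
  have key := pl_key (l1 * J1.v1 + l2 * J1.v2 + l4 * J1.v4) (l1 * J2.v1 + l2 * J2.v2 + l4 * J2.v4)
    (l1 * J3.v1 + l2 * J3.v2 + l4 * J3.v4) (l1 * J4.v1 + l2 * J4.v2 + l4 * J4.v4)
    (l1 * J5.v1 + l2 * J5.v2 + l4 * J5.v4) J1.v3 J2.v3 J3.v3 J4.v3 J5.v3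
    J1.v5 J2.v5 J3.v5 J4.v5 J5.v5 a b c d e
    (by linear_combination l1 * a1 + l2 * a2 + l4 * a4)
    (by linear_combination l1 * b1 + l2 * b2 + l4 * b4) a3 b3 a5 b5
  have hl : ∀ x : V5 A, lrow (oR p g u) l1 l2 l4 (V5.add (V5.add (V5.add (V5.add
      (V5.smul x.v1 J1) (V5.smul x.v2 J2)) (V5.smul x.v3 J3)) (V5.smul x.v4 J4))
      (V5.smul x.v5 J5)) = x.v1 * (l1 * J1.v1 + l2 * J1.v2 + l4 * J1.v4) +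
        x.v2 * (l1 * J2.v1 + l2 * J2.v2 + l4 * J2.v4) +
        x.v3 * (l1 * J3.v1 + l2 * J3.v2 + l4 * J3.v4) +
        x.v4 * (l1 * J4.v1 + l2 * J4.v2 + l4 * J4.v4) +
        x.v5 * (l1 * J5.v1 + l2 * J5.v2 + l4 * J5.v4) := by
    intro x
    simp only [lrow, oR, V5.add, V5.smul]
    ring
  unfold dl
  rw [hl a, hl b, hl c]
  simp only [lrow, min35, oR, V5.add, V5.smul, ← sub_eq_add_neg]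
  exact key

theorem plucker (m : S10 A) (G : V5 (S10 A)) (r : A)
    (hr : ∀ l1 l2 l4 : A, r ∣ dl (oR p g u) l1 l2 l4 (jv (oR p g u) m G (eX (oR p g u)))
      (jv (oR p g u) m G (eY (oR p g u))) (jv (oR p g u) m G (eZ (oR p g u))))
    (d1 d2 : V5 A) (h1 : jv (oR p g u) m G d1 = V5.zero A) (h2 : jv (oR p g u) m G d2 = V5.zero A)
    {θ : A} (hθ : θ ∈ jacI (oR p g u) m G) :
    ∃ t ∈ minV d1 d2, θ * (d1.v1 * d2.v2 - d1.v2 * d2.v1) = r * t := by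
  unfold jacI at hθ
  induction hθ using Submodule.span_induction with
  | zero => exact ⟨0, Ideal.zero_mem _, by ring⟩
  | add x y _ _ hx hy =>
    obtain ⟨t, ht, e⟩ := hx
    obtain ⟨t', ht', e'⟩ := hy
    exact ⟨t + t', Ideal.add_mem _ ht ht', by linear_combination e + e'⟩
  | smul c x _ hx =>
    obtain ⟨t, ht, e⟩ := hx
    exact ⟨c * t, Ideal.mul_mem_left _ _ ht, by rw [smul_eq_mul]; linear_combination c * e⟩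
  | mem t ht =>
    obtain ⟨l1, l2, l4, a, b, c, rfl⟩ := ht
    obtain ⟨k, hk⟩ := hr l1 l2 l4
    refine ⟨k * det5 a b c d1 d2, Ideal.mul_mem_left _ _ (det5_mem a b c d1 d2), ?_⟩
    rw [pl_gen p g u m G d1 d2 h1 h2, hk, mul_assoc]

theorem minors_thm [IsDomain A] (hpg : RegPair p g) (m : S10 A) (G : V5 (S10 A)) (r : A)
    (hr : ∀ l1 l2 l4 : A, r ∣ dl (oR p g u) l1 l2 l4 (jv (oR p g u) m G (eX (oR p g u)))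
      (jv (oR p g u) m G (eY (oR p g u))) (jv (oR p g u) m G (eZ (oR p g u))))
    (hr0 : r ≠ 0)
    (d1 d2 : V5 A) (h1 : jv (oR p g u) m G d1 = V5.zero A) (h2 : jv (oR p g u) m G d2 = V5.zero A)
    (h : A) (N : ℕ) (hp : h * p ^ N ∈ jacI (oR p g u) m G) (hg : h * g ^ N ∈ jacI (oR p g u) m G) :
    ∃ c : A, h * (d1.v1 * d2.v2 - d1.v2 * d2.v1) = r * c ∧
      ∀ θ ∈ jacI (oR p g u) m G, c * θ ∈ minV d1 d2 := by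
  obtain ⟨t1, -, e1⟩ := plucker p g u m G r hr d1 d2 h1 h2 hp
  obtain ⟨t2, ht2, e2⟩ := plucker p g u m G r hr d1 d2 h1 h2 hg
  have e3 : p ^ N * t2 = g ^ N * t1 :=
    mul_left_cancel₀ hr0 (by linear_combination g ^ N * e1 - p ^ N * e2)
  obtain ⟨c, hc⟩ := hpg.2.2 N t2 t1 e3
  have e4 : h * (d1.v1 * d2.v2 - d1.v2 * d2.v1) = r * c :=
    mul_left_cancel₀ (pow_ne_zero N hpg.2.1) (by rw [hc] at e2; linear_combination e2)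
  refine ⟨c, e4, fun θ hθ => ?_⟩
  obtain ⟨t, ht, e5⟩ := plucker p g u m G r hr d1 d2 h1 h2 hθ
  have e6 : c * θ = h * t := mul_left_cancel₀ hr0 (by linear_combination h * e5 - θ * e4)
  rw [e6]
  exact Ideal.mul_mem_left _ _ ht

end Crest.Agent.R278
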