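import Crest.Agent.R278.Read
import Crest.Agent.R278.Cramer
import Crest.Agent.R278.Pluck
import Crest.Agent.R278.DerPhi
import Crest.Agent.R278.Dom
import Crest.Agent.R278.Final

set_option autoImplicit false

namespace Crest.Agent.R278

section emb

variable {A : Type} [CommRing A] [Algebra PP A] (x y z : A) (Q : ℕ)

theorem emb_vinj (c : PP) : emb x y z (vinj (oP Q) c) = algebraMap PP A c := by
  simp [emb, vinj, oP, oR]

theorem emb_vX : emb x y z (vX (oP Q)) = x := by simp [emb, vX, oP, oR]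
theorem emb_vY : emb x y z (vY (oP Q)) = y := by simp [emb, vY, oP, oR]
theorem emb_vZ : emb x y z (vZ (oP Q)) = z := by simp [emb, vZ, oP, oR]

theorem emb_n8 (n : N8 PP) :
    RN8 (fun a b => emb x y z a = b) (n.map (vinj (oP Q))) (n.map (algebraMap PP A)) :=
  n8_rel (emb_vinj x y z Q) n

theorem emb_v5 (d : V5 (V6 PP)) : RV5 (fun a b => emb x y z a = b) d (d.map (emb x y z)) :=
  ⟨rfl, rfl, rfl, rfl, rfl⟩

theorem emb_v55 (d : V5 (V5 (V6 PP))) :
    RV5 (RV5 fun a b => emb x y z a = b) d (d.map (V5.map (emb x y z))) :=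
  ⟨emb_v5 x y z _, emb_v5 x y z _, emb_v5 x y z _, emb_v5 x y z _, emb_v5 x y z _⟩

omit [Algebra PP A] in
theorem baseG_mem (p g u : A) (m : S10 A) (G : V5 (S10 A)) (c0 c1 c2 c3 c4 : V5 A) (w : A)
    (b : ℕ) : baseG (oR p g u) (jv (oR p g u) m G c0) (jv (oR p g u) m G c1) (jv (oR p g u) m G c2)
      (jv (oR p g u) m G c3) (jv (oR p g u) m G c4) w b ∈ jacI (oR p g u) m G := by
  unfold baseG
  split <;> first
    | exact Ideal.subset_span ⟨_, _, _, _, _, _, rfl⟩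
    | exact Ideal.mul_mem_left _ _ (Ideal.subset_span ⟨_, _, _, _, _, _, rfl⟩)

theorem S10.All.imp {α β : Type} {R : α → β → Prop} {a : S10 α} {b : S10 β} (h : RS10 R a b)
    {S : α → Prop} {T : β → Prop} (ha : S10.All S a) (hi : ∀ u v, R u v → S u → T v) :
    S10.All T b := by
  obtain ⟨r1, r2, r3, r4, r5, r6, r7, r8, r9, r10⟩ := h
  obtain ⟨a1, a2, a3, a4, a5, a6, a7, a8, a9, a10⟩ := ha
  exact ⟨hi _ _ r1 a1, hi _ _ r2 a2, hi _ _ r3 a3, hi _ _ r4 a4, hi _ _ r5 a5, hi _ _ r6 a6,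
    hi _ _ r7 a7, hi _ _ r8 a8, hi _ _ r9 a9, hi _ _ r10 a10⟩

end emb

theorem main_of (Q : ℕ) (n np ng : N8 PP) (hnp : np = n.map (MvPolynomial.pderiv 0))
    (hng : ng = n.map (MvPolynomial.pderiv 1)) (hn : n.Van) (hn1 : n.n1 ≠ 0) (sh : PP)
    (hc0 : ∀ i : Fin 6, ∀ k ≤ 6 * (6 - (i : ℕ)),
      (arc 2 7 ((shift (oP Q) (chi (oP Q) n) sh).get i)).coeff k = 0)
    (hc1 : (arc 2 7 ((shift (oP Q) (chi (oP Q) n) sh).get 0)).coeff 37 ≠ 0)
    (s : SD PP) (t : Fin 6 → ℕ) (h : PP) (hh : MvPolynomial.constantCoeff h = 1)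
    (hJ : ∀ d : Fin 6 → PP, (∀ i : Fin 6, d i ∈ Wt (t i)) →
      algebraMap PP (Alg n) h * ∑ i, algebraMap PP (Alg n) (d i) * fA (aX n) (aY n) (aZ n) s i ∈
        jacI (oAlg (Alg n) Q)
          (mM (oAlg (Alg n) Q) (n.map (algebraMap PP (Alg n))) (aX n) (aY n) (aZ n))
          (mG (oAlg (Alg n) Q) (n.map (algebraMap PP (Alg n))) (np.map (algebraMap PP (Alg n)))
            (ng.map (algebraMap PP (Alg n))) (aX n)))
    (d1 d2 : V5 (V6 PP)) (k1 k2 : V5 (V5 (V6 PP)))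
    (hE1 : S10.All (fun e => ∀ i : Fin 6, (co (oP Q) s e).get i ∈ Wt (t i + 3))
      (eMat (oP Q) n np ng d1 k1))
    (hE2 : S10.All (fun e => ∀ i : Fin 6, (co (oP Q) s e).get i ∈ Wt (t i + 3))
      (eMat (oP Q) n np ng d2 k2))
    (hs : MvPolynomial.constantCoeff (cDet (oP Q) n d1 d2).c3 ≠ 0) :
    ∃ (A : Type) (_ : CommRing A) (_ : Algebra ℂ A),
      IsDomain A ∧ Algebra.FiniteType ℂ A ∧ IsIntegrallyClosed A ∧
      ringKrullDim A = 2 ∧
      Nonempty (Derivation ℂ A A ≃ₗ[A] (Fin 2 → A)) ∧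
      ∃ (m : Ideal A) (_ : m.IsMaximal), ¬ IsRegularLocalRing (Localization.AtPrime m) := by
  have := alg_free n
  have := alg_finite n
  set x := aX n with hx
  set y := aY n with hy
  set z := aZ n with hz
  set p := algebraMap PP (Alg n) (MvPolynomial.X 0) with hp
  set g := algebraMap PP (Alg n) (MvPolynomial.X 1) with hg
  set u := algebraMap PP (Alg n) (MvPolynomial.C ((Q : ℂ)⁻¹)) with hu
  have hrel : pf (oAlg (Alg n) Q) (mM (oAlg (Alg n) Q) (n.map (algebraMap PP (Alg n))) x y z) =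
      V5.zero (Alg n) := alg_rel n p g u
  have : IsDomain (Alg n) :=
    domain_of_arc (alg_finrank n) _ _ (chi_root n x y z Q hrel sh) hc0 hc1
  have H := emb_hom n x y z Q hrel
  have hinj : Function.Injective (emb x y z) := emb_inj n
  have hsurj : Function.Surjective (emb x y z) := emb_surj n
  have hz0 : emb x y z (vinj (oP Q) 0) = 0 := by rw [emb_vinj, map_zero]
  set M := mM (oAlg (Alg n) Q) (n.map (algebraMap PP (Alg n))) x y z with hM
  set G := mG (oAlg (Alg n) Q) (n.map (algebraMap PP (Alg n))) (np.map (algebraMap PP (Alg n)))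
    (ng.map (algebraMap PP (Alg n))) x with hG
  have rM : RS10 (fun a b => emb x y z a = b) (cM (oP Q) n) M :=
    mM_rel H (emb_n8 x y z Q n) (emb_vX x y z Q) (emb_vY x y z Q) (emb_vZ x y z Q)
  have rG : RV5 (RS10 fun a b => emb x y z a = b) (cG (oP Q) n np ng) G :=
    mG_rel H (emb_n8 x y z Q n) (emb_n8 x y z Q np) (emb_n8 x y z Q ng) (emb_vX x y z Q)
  have h12 : M.m12 ≠ 0 := fun h0 => by
    have e := hinj ((rM.1.trans h0).trans hz0.symm)
    exact hn1 (congrArg V6.c0 e)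
  have h24 : M.m24 ≠ 0 := fun h0 => by
    have e := congrArg V6.c1 (hinj ((rM.2.2.2.2.2.1.trans h0).trans hz0.symm))
    simp [cM, mM, vX, vinj, oP, oR] at e
  have h14 : M.m14 ≠ 0 := fun h0 => by
    have e := congrArg V6.c1 (hinj ((rM.2.2.1.trans h0).trans hz0.symm))
    simp [cM, mM, vX, vinj, oP, oR, oA, vadd, vmap, N8.map] at e
  have hex : ∀ (d : V5 (V6 PP)) (k : V5 (V5 (V6 PP))),
      S10.All (fun e => ∀ i : Fin 6, (co (oP Q) s e).get i ∈ Wt (t i + 3))
        (eMat (oP Q) n np ng d k) →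
      ∃ a b : V5 (Alg n), jv (oR p g u) M G (V5.add (V5.smul (algebraMap PP (Alg n) h)
        (d.map (emb x y z))) (V5.add (V5.smul p a) (V5.smul g b))) = V5.zero (Alg n) := by
    intro d k hE
    refine exist_der p g u M G hrel h12 h24 h14 _ _ (k.map (V5.map (emb x y z))) ?_
    refine S10.All.imp (ssub_rel H (comb_rel H rG (emb_v5 x y z d))
      (km_rel H (emb_v55 x y z k) rM)) hE fun e v hev he => ?_
    choose a ha b hb hab using fun i => Wt_split (he i)
    refine ⟨_, _, hJ a ha, hJ b hb, ?_⟩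
    rw [← hev, emb_co x y z s Q e, Finset.mul_sum, Finset.mul_sum, ← Finset.sum_add_distrib]
    refine Finset.sum_congr rfl fun i _ => ?_
    rw [hab i, map_add, map_mul, map_mul]
    ring
  obtain ⟨a1, b1, e1⟩ := hex d1 k1 hE1
  obtain ⟨a2, b2, e2⟩ := hex d2 k2 hE2
  have hpow : ∀ f ∈ Wt (t 0), algebraMap PP (Alg n) h * algebraMap PP (Alg n) f ∈
      jacI (oR p g u) M G := fun f hf => by
    have := hJ (Pi.single 0 f) fun i => by
      by_cases hi : i = 0
      · subst hi; simpa using hf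
      · rw [Pi.single_eq_of_ne hi]; exact Ideal.zero_mem _
    rw [Finset.sum_eq_single 0 (fun i _ hi => by rw [Pi.single_eq_of_ne hi, map_zero, zero_mul])
      (fun hi => absurd (Finset.mem_univ _) hi)] at this
    simp only [Pi.single_eq_same, fA, Matrix.cons_val_zero, mul_one] at this
    exact this
  have hpN : algebraMap PP (Alg n) h * p ^ t 0 ∈ jacI (oR p g u) M G := by
    rw [hp, ← map_pow]
    exact hpow _ (Ideal.subset_span ⟨t 0, 0, by omega, by simp⟩)
  have hgN : algebraMap PP (Alg n) h * g ^ t 0 ∈ jacI (oR p g u) M G := by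
    rw [hg, ← map_pow]
    exact hpow _ (Ideal.subset_span ⟨0, t 0, by omega, by simp⟩)
  have hr0 : emb x y z (tr (oP Q) n) ≠ 0 := fun h0 => by
    have e := congrArg V6.c3 (hinj (h0.trans hz0.symm))
    simp [tr, vinj, oP, oR] at e
  obtain ⟨c, hc, hmin⟩ := minors_thm p g u (regPair_of_free (A := Alg n)) M G
    (emb x y z (tr (oP Q) n)) (r_dvd n x y z Q p g u _ _ hrel) hr0 _ _ e1 e2 _ _ hpN hgN
  have hGe : G = mG (oR p g u) (n.map (algebraMap PP (Alg n)))
      (n.map fun f => algebraMap PP (Alg n) (MvPolynomial.pderiv 0 f))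
      (n.map fun f => algebraMap PP (Alg n) (MvPolynomial.pderiv 1 f)) x := by
    rw [hG, hnp, hng]; rfl
  obtain ⟨D1, p1, g1, x1, y1, z1⟩ := exists_der n p g u _ (hGe ▸ e1)
  obtain ⟨D2, p2, g2, x2, y2, z2⟩ := exists_der n p g u _ (hGe ▸ e2)
  obtain ⟨φ, hφ, hφ0⟩ := exists_phi n hn
  have hφP : ∀ f : PP, (φ (algebraMap PP (Alg n) f)).fst = MvPolynomial.constantCoeff f :=
    fun f => by rw [← emb_vinj x y z Q f]; exact hφ0 _
  have hle : minV (V5.add (V5.smul (algebraMap PP (Alg n) h) (d1.map (emb x y z)))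
        (V5.add (V5.smul p a1) (V5.smul g b1)))
      (V5.add (V5.smul (algebraMap PP (Alg n) h) (d2.map (emb x y z)))
        (V5.add (V5.smul p a2) (V5.smul g b2))) ≤ minors D1 D2 := by
    unfold minV
    rw [← p1, ← g1, ← x1, ← y1, ← z1, ← p2, ← g2, ← x2, ← y2, ← z2]
    refine Ideal.span_le.2 ?_
    rintro _ (rfl | rfl | rfl | rfl | rfl | rfl | rfl | rfl | rfl | rfl) <;>
      exact Ideal.subset_span ⟨_, _, rfl⟩
  have hc0' : (φ c).fst ≠ 0 := by
    intro h0
    obtain ⟨c', rfl⟩ := hsurj c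
    rw [hφ0] at h0
    have hd0 : emb x y z (cDet (oP Q) n d1 d2) =
        emb x y z d1.v1 * emb x y z d2.v2 - emb x y z d1.v2 * emb x y z d2.v1 := by
      have := H.add (H.mul (rfl : emb x y z d1.v1 = _) (rfl : emb x y z d2.v2 = _))
        (H.neg (H.mul (rfl : emb x y z d1.v2 = _) (rfl : emb x y z d2.v1 = _)))
      refine Eq.trans this ?_
      simp only [oAlg, oR]
      ring
    set hA := algebraMap PP (Alg n) h with hhA
    obtain ⟨α, hα⟩ := hsurj (hA * (a1.v1 * (hA * emb x y z d2.v2 + (p * a2.v2 + g * b2.v2)) +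
      hA * emb x y z d1.v1 * a2.v2 - a1.v2 * (hA * emb x y z d2.v1 + (p * a2.v1 + g * b2.v1)) -
      hA * emb x y z d1.v2 * a2.v1 + g * (b1.v1 * a2.v2 - b1.v2 * a2.v1)))
    obtain ⟨β, hβ⟩ := hsurj (hA * (b1.v1 * (hA * emb x y z d2.v2 + g * b2.v2) +
      hA * emb x y z d1.v1 * b2.v2 - b1.v2 * (hA * emb x y z d2.v1 + g * b2.v1) -
      hA * emb x y z d1.v2 * b2.v1))
    have key := socle n hn Q c' (vadd (oP Q) (vsm (oP Q) (h ^ 3) (cDet (oP Q) n d1 d2))
      (vadd (oP Q) (vsm (oP Q) (MvPolynomial.X 0) α) (vsm (oP Q) (MvPolynomial.X 1) β))) h0 (by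
        have hsm : ∀ (f : PP) (a : V6 PP), emb x y z (vsm (oP Q) f a) =
            algebraMap PP (Alg n) f * emb x y z a := fun f a => by
          simp only [emb, vsm, oP, oR, map_mul]; ring
        have hadd : ∀ a b : V6 PP, emb x y z (vadd (oP Q) a b) = emb x y z a + emb x y z b :=
          fun a b => by simp only [emb, vadd, oP, oR, map_add]; ring
        rw [← hx, ← hy, ← hz, ← hc, hadd, hadd, hsm, hsm, hsm, hα, hβ, hd0, map_pow, ← hhA, ← hp,
          ← hg]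
        simp only [V5.add, V5.smul, V5.map]
        ring)
    apply hs
    simpa [vadd, vsm, oP, oR, hh] using key
  refine final φ hφ (by rw [hφP]; simp) (by rw [hφP]; simp) D1 D2
    (c * algebraMap PP (Alg n) h) ?_ (t 0) ?_ ?_
  · rw [map_mul, TrivSqZeroExt.fst_mul, hφP, hh, mul_one]; exact hc0'
  · rw [mul_assoc]; exact hle (hmin _ hpN)
  · rw [mul_assoc]; exact hle (hmin _ hgN)

theorem main :
    ∃ (A : Type) (_ : CommRing A) (_ : Algebra ℂ A),
      IsDomain A ∧ Algebra.FiniteType ℂ A ∧ IsIntegrallyClosed A ∧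
      ringKrullDim A = 2 ∧
      Nonempty (Derivation ℂ A A ≃ₗ[A] (Fin 2 → A)) ∧
      ∃ (m : Ideal A) (_ : m.IsMaximal), ¬ IsRegularLocalRing (Localization.AtPrime m) := by
  obtain ⟨hs, hn1, hn⟩ := sChk_spec (P := pS) rfl rfl chkS
  obtain ⟨hc0, hc1⟩ := cChk_spec (P := pC) rfl rfl chkC
  have hE1 := eChk_spec (P := pE1) rfl rfl chkE1
  have hE2 := eChk_spec (P := pE2) rfl rfl chkE2
  have eS : pS.Q = dQ := rfl
  have eC : pC.Q = dQ := rfl
  have e1 : pE1.Q = dQ := rfl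
  have e2 : pE2.Q = dQ := rfl
  have eT : pT.Q = dQ := rfl
  rw [eS] at hs hn1 hn
  rw [eC] at hc0 hc1
  rw [e1] at hE1
  rw [e2] at hE2
  set n := nOf (oP dQ) with hnd
  set x := aX n
  set y := aY n
  set z := aZ n
  have hrel : pf (oAlg (Alg n) dQ) (mM (oAlg (Alg n) dQ) (n.map (algebraMap PP (Alg n))) x y z) =
      V5.zero (Alg n) := alg_rel n _ _ _
  have H := emb_hom n x y z dQ hrel
  have rM := mM_rel H (emb_n8 x y z dQ n) (emb_vX x y z dQ) (emb_vY x y z dQ) (emb_vZ x y z dQ)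
  have rG := mG_rel H (emb_n8 x y z dQ n) (emb_n8 x y z dQ (npOf (oP dQ)))
    (emb_n8 x y z dQ (ngOf (oP dQ))) (emb_vX x y z dQ)
  obtain ⟨h, hh, hJ⟩ := tChk_spec (P := pT) rfl rfl chkT
    (jacI (oAlg (Alg n) dQ) (mM (oAlg (Alg n) dQ) (n.map (algebraMap PP (Alg n))) x y z)
      (mG (oAlg (Alg n) dQ) (n.map (algebraMap PP (Alg n)))
        ((npOf (oP dQ)).map (algebraMap PP (Alg n))) ((ngOf (oP dQ)).map (algebraMap PP (Alg n))) x))
    (fA x y z (sOf (oP dQ))) (fun k => by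
      rw [eT]
      have hb := baseG_rel H (jv_rel H rM rG (emb_v5 x y z (vOf (oP dQ) dC0)))
        (jv_rel H rM rG (emb_v5 x y z (vOf (oP dQ) dC1)))
        (jv_rel H rM rG (emb_v5 x y z (vOf (oP dQ) dC2)))
        (jv_rel H rM rG (emb_v5 x y z (vOf (oP dQ) dC3)))
        (jv_rel H rM rG (emb_v5 x y z (vOf (oP dQ) dC4)))
        (rfl : emb x y z (dF2.map (pl (oP dQ))) = _) (selI k)
      have hb' : emb x y z (bOf (oP dQ) (selI k)) = _ := hb
      have e : ∑ i : Fin 6, algebraMap PP (Alg n) (thOf (oP dQ) k i) * fA x y z (sOf (oP dQ)) i =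
          algebraMap PP (Alg n) (MvPolynomial.X 0 ^ selA k * MvPolynomial.X 1 ^ selB k) *
            emb x y z (bOf (oP dQ) (selI k)) := by
        rw [emb_co x y z (sOf (oP dQ)) dQ, Finset.mul_sum]
        refine Finset.sum_congr rfl fun i _ => ?_
        rw [thOf, mon_eq, V6.get_eq, map_mul, mul_assoc]
      rw [e, hb']
      exact Ideal.mul_mem_left _ _ (baseG_mem _ _ _ _ _ _ _ _ _ _ _ _))
  refine main_of dQ n (npOf (oP dQ)) (ngOf (oP dQ)) ?_ ?_ hn hn1 (pl (oP dQ) dSh) hc0 hc1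
    (sOf (oP dQ)) (fun i => tt i) h hh hJ _ _ _ _ hE1 hE2 hs
  · simp only [hnd, npOf, nOf, N8.map, pderiv0_pq]
  · simp only [hnd, ngOf, nOf, N8.map, pderiv1_pq]

end Crest.Agent.R278
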