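import Crest.Agent.R278.PfDef

set_option autoImplicit false

namespace Crest.Agent.R278

theorem alg_rel (n : N8 PP) (p g u : Alg n) :
    pf (oR p g u) (mM (oR p g u) (n.map (algebraMap PP (Alg n))) (aX n) (aY n) (aZ n)) =
      V5.zero (Alg n) := by
  have hC : ∀ c : PP, Ideal.Quotient.mk (relI n) (MvPolynomial.C c) = algebraMap PP (Alg n) c :=
    fun c => rfl
  have key : ∀ f ∈ ({(rels n).v1, (rels n).v2, (rels n).v3, (rels n).v4, (rels n).v5} :
      Set (MvPolynomial (Fin 3) PP)), Ideal.Quotient.mk (relI n) f = 0 := fun f hf =>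
    Ideal.Quotient.eq_zero_iff_mem.2 (Ideal.subset_span hf)
  have h1 := key (rels n).v1 (by simp)
  have h2 := key (rels n).v2 (by simp)
  have h3 := key (rels n).v3 (by simp)
  have h4 := key (rels n).v4 (by simp)
  have h5 := key (rels n).v5 (by simp)
  simp only [rels, pf, mM, oR, N8.map, map_add, map_mul, map_neg, hC] at h1 h2 h3 h4 h5
  simp only [pf, mM, oR, N8.map, V5.zero, aX, aY, aZ]
  exact V5.ext h1 h2 h3 h4 h5

variable {A : Type} [CommRing A] [Algebra PP A] (n : N8 PP) (x y z : A) (Q : ℕ)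

/-- the five relations, written out -/
structure Rel5 (m : N8 A) (x y z : A) : Prop where
  e1 : m.n4 * (y + m.n5) + -(x * -(x * x + m.n6 * x + m.n7)) + z * (z + m.n8) = 0
  e2 : y * (y + m.n5) + -((m.n2 + -x) * -(x * x + m.n6 * x + m.n7)) + m.n3 * (z + m.n8) = 0
  e3 : m.n1 * (y + m.n5) + -((m.n2 + -x) * z) + m.n3 * x = 0
  e4 : m.n1 * -(x * x + m.n6 * x + m.n7) + -(y * z) + m.n3 * m.n4 = 0
  e5 : m.n1 * (z + m.n8) + -(y * x) + (m.n2 + -x) * m.n4 = 0

omit [Algebra PP A] in
theorem rel5_of {m : N8 A} {x y z p g u : A}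
    (h : pf (oR p g u) (mM (oR p g u) m x y z) = V5.zero A) : Rel5 m x y z :=
  ⟨congrArg V5.v1 h, congrArg V5.v2 h, congrArg V5.v3 h, congrArg V5.v4 h, congrArg V5.v5 h⟩

variable {n x y z}

theorem emb_vadd (a b : V6 PP) : emb x y z (vadd (oP Q) a b) = emb x y z a + emb x y z b := by
  simp only [emb, vadd, oP, oR, map_add]; ring

theorem emb_vsm (c : PP) (a : V6 PP) :
    emb x y z (vsm (oP Q) c a) = algebraMap PP A c * emb x y z a := by
  simp only [emb, vsm, oP, oR, map_mul]; ring

section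
variable (h : Rel5 (n.map (algebraMap PP A)) x y z)
include h

theorem emb_txy : emb x y z (txy (oP Q) n) = x * y := by
  have := h.e5
  simp only [N8.map] at this
  simp only [emb, txy, oP, oR, map_add, map_mul, map_neg, Nat.cast_zero, map_zero]
  linear_combination this

theorem emb_txz : emb x y z (txz (oP Q) n) = x * z := by
  have := h.e3
  simp only [N8.map] at this
  simp only [emb, txz, oP, oR, map_mul, map_neg, Nat.cast_zero, map_zero]
  linear_combination -this

theorem emb_tyy : emb x y z (tyy (oP Q) n) = y * y := by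
  have := h.e2
  simp only [N8.map] at this
  simp only [emb, tyy, oP, oR, map_add, map_mul, map_neg, Nat.cast_one, map_one]
  linear_combination -this

theorem emb_tyz : emb x y z (tyz (oP Q) n) = y * z := by
  have := h.e4
  simp only [N8.map] at this
  simp only [emb, tyz, oP, oR, map_add, map_mul, map_neg, Nat.cast_zero, map_zero]
  linear_combination this

theorem emb_tzz : emb x y z (tzz (oP Q) n) = z * z := by
  have := h.e1
  simp only [N8.map] at this
  simp only [emb, tzz, oP, oR, map_mul, map_neg, Nat.cast_one, map_one]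
  linear_combination -this

theorem emb_tx4 : emb x y z (tx4 (oP Q) n) = x ^ 4 := by
  obtain ⟨e1, -, e3, e4, e5⟩ := h
  simp only [N8.map] at e1 e3 e4 e5
  simp only [emb, tx4, oP, oR, map_add, map_mul, map_neg]
  linear_combination -(x - algebraMap PP A n.n2) * e1 -
    (algebraMap PP A n.n3 - algebraMap PP A n.n8 - z) * e3 + algebraMap PP A n.n1 * e4 -
    algebraMap PP A n.n4 * e5

theorem emb_mulX (a : V6 PP) : emb x y z (mulX (oP Q) n a) = x * emb x y z a := by
  simp only [mulX, emb_vadd, emb_vsm, emb_txy Q h, emb_txz Q h, emb_tx4 Q h]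
  simp only [emb, oP, oR, Nat.cast_zero, map_zero]
  ring

theorem emb_mulY (a : V6 PP) : emb x y z (mulY (oP Q) n a) = y * emb x y z a := by
  simp only [mulY, emb_vadd, emb_vsm, emb_mulX Q h, emb_txy Q h, emb_tyy Q h, emb_tyz Q h]
  simp only [emb, oP, oR, Nat.cast_zero, map_zero]
  ring

theorem emb_mulZ (a : V6 PP) : emb x y z (mulZ (oP Q) n a) = z * emb x y z a := by
  simp only [mulZ, emb_vadd, emb_vsm, emb_mulX Q h, emb_txz Q h, emb_tzz Q h, emb_tyz Q h]
  simp only [emb, oP, oR, Nat.cast_zero, map_zero]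
  ring

theorem emb_mulA (a b : V6 PP) : emb x y z (mulA (oP Q) n a b) = emb x y z a * emb x y z b := by
  simp only [mulA, emb_vadd, emb_vsm, emb_mulX Q h, emb_mulY Q h, emb_mulZ Q h]
  generalize emb x y z b = B
  simp only [emb]
  ring

end

variable (n x y z)

theorem emb_hom
    (h : pf (oAlg A Q) (mM (oAlg A Q) (n.map (algebraMap PP A)) x y z) = V5.zero A) :
    Hom (oA (oP Q) n) (oAlg A Q) (fun a b => emb x y z a = b) := by
  have h5 := rel5_of h
  refine ⟨?_, ?_, ?_, fun c => ?_, ?_, ?_, ?_⟩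
  · rintro a b _ _ rfl rfl
    exact emb_vadd Q a b
  · rintro a b _ _ rfl rfl
    exact emb_mulA Q h5 a b
  · rintro a _ rfl
    simp only [oA, oAlg, oR, oP, vmap, emb, map_neg]; ring
  · simp only [oA, oAlg, oR, oP, vinj, emb, Nat.cast_zero, map_zero, map_natCast]; ring
  · rintro a _ rfl
    simp only [oA, oAlg, oR, oP, vmap, emb, map_mul]; ring
  · rintro a _ rfl
    simp only [oA, oAlg, oR, oP, vmap, emb, map_mul]; ring
  · rintro a _ rfl
    simp only [oA, oAlg, oR, oP, vmap, emb, map_mul]; ring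

theorem r_dvd (p g u : A) (np ng : N8 A)
    (h : pf (oR p g u) (mM (oR p g u) (n.map (algebraMap PP A)) x y z) = V5.zero A)
    (l1 l2 l4 : A) :
    emb x y z (tr (oP Q) n) ∣ dl (oR p g u) l1 l2 l4
      (jv (oR p g u) (mM (oR p g u) (n.map (algebraMap PP A)) x y z)
        (mG (oR p g u) (n.map (algebraMap PP A)) np ng x) (eX (oR p g u)))
      (jv (oR p g u) (mM (oR p g u) (n.map (algebraMap PP A)) x y z)
        (mG (oR p g u) (n.map (algebraMap PP A)) np ng x) (eY (oR p g u)))
      (jv (oR p g u) (mM (oR p g u) (n.map (algebraMap PP A)) x y z)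
        (mG (oR p g u) (n.map (algebraMap PP A)) np ng x) (eZ (oR p g u))) := by
  obtain ⟨e1, e2, e3, e4, e5⟩ := rel5_of h
  refine ⟨l1 * -x + l2 * -(algebraMap PP A n.n2 - x) + l4 * algebraMap PP A n.n1, ?_⟩
  simp only [N8.map] at e1 e2 e3 e4 e5
  simp only [emb, tr, oP, oR, dl, jv, dpf, comb, mM, mG, mD, eX, eY, eZ, lrow, min35, N8.map,
    map_add, map_mul, map_neg, map_natCast, Nat.cast_zero, Nat.cast_one, mul_zero, mul_one,
    zero_add, add_zero, zero_mul, one_mul, neg_zero]
  generalize algebraMap PP A n.n1 = n1 at *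
  generalize algebraMap PP A n.n2 = n2 at *
  generalize algebraMap PP A n.n3 = n3 at *
  generalize algebraMap PP A n.n4 = n4 at *
  generalize algebraMap PP A n.n5 = n5 at *
  generalize algebraMap PP A n.n6 = n6 at *
  generalize algebraMap PP A n.n7 = n7 at *
  generalize algebraMap PP A n.n8 = n8 at *
  push_cast
  linear_combination l4 * (n1 * e1 - 2 * n1 * e2 + (n4 + y) * e3 - x * e4) +
    l1 * (-2 * x * e1 + x * e2 - n1 * e4 + (n4 + y) * e5) +
    l2 * ((x - n2) * e1 + (2 * n2 - 2 * x) * e2 - (n3 + z) * e3 + n1 * e4)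

theorem chi_root
    (h : pf (oAlg A Q) (mM (oAlg A Q) (n.map (algebraMap PP A)) x y z) = V5.zero A) (s : PP) :
    (x - algebraMap PP A s) ^ 6 + ∑ i : Fin 6,
      algebraMap PP A ((shift (oP Q) (chi (oP Q) n) s).get i) * (x - algebraMap PP A s) ^ (i : ℕ) =
      0 := by
  have h5 := rel5_of h
  have h4 := emb_tx4 Q h5
  have hx5 := emb_mulX Q h5 (tx4 (oP Q) n)
  have hx6 := emb_mulX Q h5 (mulX (oP Q) n (tx4 (oP Q) n))
  rw [hx5] at hx6
  rw [h4] at hx5 hx6
  have key : x ^ 6 + algebraMap PP A (chi (oP Q) n).c0 + algebraMap PP A (chi (oP Q) n).c1 * x +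
      algebraMap PP A (chi (oP Q) n).c2 * x ^ 2 + algebraMap PP A (chi (oP Q) n).c3 * x ^ 3 +
      algebraMap PP A (chi (oP Q) n).c4 * x ^ 4 + algebraMap PP A (chi (oP Q) n).c5 * x ^ 5 = 0 := by
    have e6 : x ^ 6 = x * (x * x ^ 4) := by ring
    have e5 : x ^ 5 = x * x ^ 4 := by ring
    rw [e6, e5, ← hx6, ← hx5, ← h4]
    simp only [emb, chi, mulX, vadd, vsm, tx4, txy, txz, oP, oR, map_add, map_mul, map_neg,
      map_natCast]
    generalize algebraMap PP A n.n1 = n1
    generalize algebraMap PP A n.n2 = n2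
    generalize algebraMap PP A n.n3 = n3
    generalize algebraMap PP A n.n4 = n4
    generalize algebraMap PP A n.n5 = n5
    generalize algebraMap PP A n.n6 = n6
    generalize algebraMap PP A n.n7 = n7
    generalize algebraMap PP A n.n8 = n8
    push_cast
    ring
  generalize chi (oP Q) n = c at key
  simp only [Fin.sum_univ_six, V6.get, shift, oP, oR, Matrix.cons_val_zero, Matrix.cons_val_one,
    Matrix.cons_val, map_add, map_mul, map_natCast]
  rw [show ((0 : Fin 6) : ℕ) = 0 from rfl, show ((1 : Fin 6) : ℕ) = 1 from rfl,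
    show ((2 : Fin 6) : ℕ) = 2 from rfl, show ((3 : Fin 6) : ℕ) = 3 from rfl,
    show ((4 : Fin 6) : ℕ) = 4 from rfl, show ((5 : Fin 6) : ℕ) = 5 from rfl]
  push_cast
  linear_combination key

end Crest.Agent.R278
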