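import Crest.Agent.R278.Ops

set_option autoImplicit false

namespace Crest.Agent.R278

open MvPolynomial in
theorem monomial_ex (i j : ℕ) (c : ℂ) :
    (monomial (ex i j) c : PP) = C c * (X 0 ^ i * X 1 ^ j) := by
  rw [X_pow_eq_monomial, X_pow_eq_monomial, monomial_mul, C_mul_monomial, ex]
  simp

theorem ex_zero (i j : ℕ) : ex i j 0 = i := by simp [ex]

theorem ex_one (i j : ℕ) : ex i j 1 = j := by simp [ex]

theorem ex_self (d : Fin 2 →₀ ℕ) : ex (d 0) (d 1) = d := by
  ext k
  fin_cases k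
  · exact ex_zero _ _
  · exact ex_one _ _

theorem ex_eq_iff {i j : ℕ} {d : Fin 2 →₀ ℕ} : ex i j = d ↔ i = d 0 ∧ j = d 1 := by
  constructor
  · rintro rfl
    exact ⟨(ex_zero _ _).symm, (ex_one _ _).symm⟩
  · rintro ⟨rfl, rfl⟩
    exact ex_self d

theorem monomial_mem_Wt {t i j : ℕ} (h : t ≤ i + 3 * j) (c : ℂ) :
    (MvPolynomial.monomial (ex i j) c : PP) ∈ Wt t := by
  rw [monomial_ex]
  exact Ideal.mul_mem_left _ _ (Ideal.subset_span ⟨i, j, h, rfl⟩)

theorem mem_Wt_iff {t : ℕ} {f : PP} : f ∈ Wt t ↔ ∀ d ∈ f.support, t ≤ d 0 + 3 * d 1 := by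
  constructor
  · intro h
    have e : Wt t = Ideal.span ((fun d => (MvPolynomial.monomial d (1 : ℂ) : PP)) ''
        {d | t ≤ d 0 + 3 * d 1}) := by
      unfold Wt
      congr 1
      ext x
      constructor
      · rintro ⟨i, j, h1, rfl⟩
        refine ⟨ex i j, ?_, ?_⟩
        · simpa [ex_zero, ex_one] using h1
        · simp [monomial_ex]
      · rintro ⟨d, h1, rfl⟩
        refine ⟨d 0, d 1, h1, ?_⟩
        have := monomial_ex (d 0) (d 1) 1
        rw [ex_self] at this
        simpa using this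
    rw [e, MvPolynomial.mem_ideal_span_monomial_image] at h
    intro d hd
    obtain ⟨d', h1, h2⟩ := h d hd
    have a0 : d' 0 ≤ d 0 := h2 0
    have a1 : d' 1 ≤ d 1 := h2 1
    have h3 : t ≤ d' 0 + 3 * d' 1 := h1
    omega
  · intro h
    rw [f.as_sum]
    refine Ideal.sum_mem _ fun d hd => ?_
    have := monomial_mem_Wt (h d hd) (MvPolynomial.coeff d f)
    rwa [ex_self] at this

theorem coeff_arc (f : PP) {i j : ℕ} (h : i + 3 * j < 27) :
    MvPolynomial.coeff (ex i j) f = (arc 9 28 f).coeff (9 * i + 28 * j) := by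
  induction f using MvPolynomial.induction_on' with
  | monomial d c =>
    have e : arc 9 28 (MvPolynomial.monomial d c) =
        Polynomial.C c * Polynomial.X ^ (9 * d 0 + 28 * d 1) := by
      conv_lhs => rw [← ex_self d, monomial_ex]
      simp [arc, pow_add, pow_mul]
    rw [e, Polynomial.coeff_C_mul_X_pow, MvPolynomial.coeff_monomial]
    refine if_congr ?_ rfl rfl
    rw [eq_comm, ex_eq_iff]
    omega
  | add f g hf hg => rw [map_add, MvPolynomial.coeff_add, Polynomial.coeff_add, hf, hg]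

theorem mem_Wt_of_arc (f : PP) {t : ℕ} (ht : t ≤ 27)
    (h : ∀ k < 9 * t, (arc 9 28 f).coeff k = 0) : f ∈ Wt t := by
  refine mem_Wt_iff.2 fun d hd => ?_
  by_contra hlt
  have h1 := coeff_arc f (i := d 0) (j := d 1) (by omega)
  rw [ex_self, h _ (by omega)] at h1
  exact MvPolynomial.mem_support_iff.1 hd h1

theorem Wt_split {t : ℕ} {f : PP} (h : f ∈ Wt (t + 3)) :
    ∃ a ∈ Wt t, ∃ b ∈ Wt t, f = MvPolynomial.X 0 * a + MvPolynomial.X 1 * b := by
  unfold Wt at h
  induction h using Submodule.span_induction with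
  | zero => exact ⟨0, zero_mem _, 0, zero_mem _, by simp⟩
  | add x y _ _ hx hy =>
    obtain ⟨a, ha, b, hb, rfl⟩ := hx
    obtain ⟨a', ha', b', hb', rfl⟩ := hy
    exact ⟨a + a', add_mem ha ha', b + b', add_mem hb hb', by ring⟩
  | smul c x _ hx =>
    obtain ⟨a, ha, b, hb, rfl⟩ := hx
    exact ⟨c * a, Ideal.mul_mem_left _ _ ha, c * b, Ideal.mul_mem_left _ _ hb, by
      rw [smul_eq_mul]; ring⟩
  | mem x hx =>
    obtain ⟨i, j, h1, rfl⟩ := hx
    rcases j with _ | j
    · rcases i with _ | i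
      · omega
      · exact ⟨_, Ideal.subset_span ⟨i, 0, by omega, rfl⟩, 0, zero_mem _, by ring⟩
    · exact ⟨0, zero_mem _, _, Ideal.subset_span ⟨i, j, by omega, rfl⟩, by ring⟩

theorem naka_det {q : ℕ} (Z C : Fin q → Fin q → ℤ) (l : ℕ) (hl : 1 < l)
    (hC : ∀ i j, (∑ k, C i k * Z k j) ≡ (if i = j then 1 else 0) [ZMOD l]) :
    ∃ Y : Fin q → Fin q → ℂ, ∀ i j, ∑ k, Y i k * (Z k j : ℂ) = if i = j then 1 else 0 := by
  have : Fact (1 < l) := ⟨hl⟩
  have h1 : (Int.castRingHom (ZMod l)).mapMatrix (Matrix.of C * Matrix.of Z) = 1 := by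
    ext i j
    rw [RingHom.mapMatrix_apply, Matrix.map_apply, Matrix.mul_apply, Matrix.one_apply]
    have := (ZMod.intCast_eq_intCast_iff _ _ l).2 (hC i j)
    simpa using this
  have h2 : (Matrix.of Z).det ≠ 0 := by
    intro h0
    have := congrArg Matrix.det h1
    rw [← RingHom.map_det, Matrix.det_mul, h0, mul_zero, map_zero, Matrix.det_one] at this
    exact zero_ne_one this
  have h3 : IsUnit ((Int.castRingHom ℂ).mapMatrix (Matrix.of Z)).det := by
    rw [← RingHom.map_det, isUnit_iff_ne_zero]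
    simpa using h2
  refine ⟨fun i k => ((Int.castRingHom ℂ).mapMatrix (Matrix.of Z))⁻¹ i k, fun i j => ?_⟩
  have := congrFun (congrFun (Matrix.nonsing_inv_mul _ h3) i) j
  rw [Matrix.mul_apply, Matrix.one_apply] at this
  exact this

theorem single_mem_pi {t : Fin 6 → ℕ} {i : Fin 6} {x : PP} (hx : x ∈ Wt (t i)) :
    (Pi.single i x : Fin 6 → PP) ∈ Submodule.pi Set.univ fun i => Wt (t i) := by
  intro i' _
  by_cases h : i' = i
  · subst h
    simpa using hx
  · simp [Pi.single_eq_of_ne h]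

theorem naka_mem_smul {t : Fin 6 → ℕ} {r : Fin 6 → PP}
    (h : ∀ i, ∀ e ∈ (r i).support,
      (1 ≤ e 0 ∧ t i + 1 ≤ e 0 + 3 * e 1) ∨ (1 ≤ e 1 ∧ t i + 3 ≤ e 0 + 3 * e 1)) :
    r ∈ RingHom.ker (MvPolynomial.constantCoeff : PP →+* ℂ) •
      Submodule.pi Set.univ fun i => Wt (t i) := by
  rw [← Finset.univ_sum_single r]
  refine Submodule.sum_mem _ fun i _ => ?_
  change LinearMap.single PP (fun _ : Fin 6 => PP) i (r i) ∈ _
  rw [(r i).as_sum, map_sum]
  refine Submodule.sum_mem _ fun e he => ?_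
  have hX : ∀ k : Fin 2, (MvPolynomial.X k : PP) ∈
      RingHom.ker (MvPolynomial.constantCoeff : PP →+* ℂ) := fun k => by
    simp [RingHom.mem_ker]
  rcases h i e he with ⟨h1, h2⟩ | ⟨h1, h2⟩
  · obtain ⟨a, ha⟩ := Nat.exists_eq_add_of_le' h1
    have e1 : (MvPolynomial.monomial e (MvPolynomial.coeff e (r i)) : PP) =
        (MvPolynomial.X 0 : PP) • MvPolynomial.monomial (ex a (e 1)) (MvPolynomial.coeff e (r i)) := by
      conv_lhs => rw [← ex_self e, monomial_ex, ha]
      rw [monomial_ex, smul_eq_mul, ← ha, ex_self, ha]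
      ring
    rw [e1, map_smul]
    exact Submodule.smul_mem_smul (hX 0) (single_mem_pi (monomial_mem_Wt (by omega) _))
  · obtain ⟨a, ha⟩ := Nat.exists_eq_add_of_le' h1
    have e1 : (MvPolynomial.monomial e (MvPolynomial.coeff e (r i)) : PP) =
        (MvPolynomial.X 1 : PP) • MvPolynomial.monomial (ex (e 0) a) (MvPolynomial.coeff e (r i)) := by
      conv_lhs => rw [← ex_self e, monomial_ex, ha]
      rw [monomial_ex, smul_eq_mul, ← ha, ex_self, ha]
      ring
    rw [e1, map_smul]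
    exact Submodule.smul_mem_smul (hX 1) (single_mem_pi (monomial_mem_Wt (by omega) _))

theorem naka {A : Type} [CommRing A] [Algebra PP A] (J : Ideal A) (f : Fin 6 → A) (t : Fin 6 → ℕ)
    {q : ℕ} (g : Fin q → Fin 6 × ℕ × ℕ) (hinj : Function.Injective g)
    (hwt : ∀ j, t (g j).1 ≤ (g j).2.1 + 3 * (g j).2.2)
    (hcov : ∀ i a b, t i ≤ a + 3 * b → (∃ j, g j = (i, a, b)) ∨
      (1 ≤ a ∧ t i + 1 ≤ a + 3 * b) ∨ (1 ≤ b ∧ t i + 3 ≤ a + 3 * b))
    (c : Fin q → Fin 6 → PP) (hJ : ∀ k, ∑ i, algebraMap PP A (c k i) * f i ∈ J)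
    (hW : ∀ k i, c k i ∈ Wt (t i)) (Z : Fin q → Fin q → ℤ) (w : ℂ) (hw : w ≠ 0)
    (hZ : ∀ k j, w * MvPolynomial.coeff (ex (g j).2.1 (g j).2.2) (c k (g j).1) = (Z k j : ℂ))
    (C : Fin q → Fin q → ℤ) (l : ℕ) (hl : 1 < l)
    (hC : ∀ i j, (∑ k, C i k * Z k j) ≡ (if i = j then 1 else 0) [ZMOD l]) :
    ∃ h : PP, MvPolynomial.constantCoeff h = 1 ∧ ∀ d : Fin 6 → PP, (∀ i, d i ∈ Wt (t i)) →
      algebraMap PP A h * ∑ i, algebraMap PP A (d i) * f i ∈ J := by
  classical
  set D : Submodule PP (Fin 6 → PP) := Submodule.pi Set.univ fun i => Wt (t i) with hD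
  set m : Ideal PP := RingHom.ker (MvPolynomial.constantCoeff : PP →+* ℂ) with hm
  set φ : (Fin 6 → PP) →ₗ[PP] A := Fintype.linearCombination PP f with hφ
  have hφa : ∀ d, φ d = ∑ i, algebraMap PP A (d i) * f i := fun d => by
    simp only [hφ, Fintype.linearCombination_apply, Algebra.smul_def]
  set N : Submodule PP (Fin 6 → PP) := (J.restrictScalars PP).comap φ with hN
  set u : Fin q → Fin 6 → PP :=
    fun j => Pi.single (g j).1 (MvPolynomial.monomial (ex (g j).2.1 (g j).2.2) 1) with hu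
  have hA : ∀ d : Fin 6 → PP, (∀ i, d i ∈ Wt (t i)) → d - ∑ j, (MvPolynomial.C
      (MvPolynomial.coeff (ex (g j).2.1 (g j).2.2) (d (g j).1)) : PP) • u j ∈ m • D := by
    intro d hd
    refine naka_mem_smul fun i e he => ?_
    have h1 : ∀ j, MvPolynomial.coeff e (((MvPolynomial.C
        (MvPolynomial.coeff (ex (g j).2.1 (g j).2.2) (d (g j).1)) : PP) • u j) i) =
        if g j = (i, e 0, e 1) then MvPolynomial.coeff e (d i) else 0 := by
      intro j
      rw [Pi.smul_apply, smul_eq_mul, MvPolynomial.coeff_C_mul]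
      simp only [hu]
      split_ifs with h
      · rw [h]
        simp [ex_self]
      · by_cases h' : i = (g j).1
        · subst h'
          rw [Pi.single_eq_same, MvPolynomial.coeff_monomial, if_neg, mul_zero]
          intro h''
          obtain ⟨a0, a1⟩ := ex_eq_iff.1 h''
          exact h (Prod.ext rfl (Prod.ext a0 a1))
        · rw [Pi.single_eq_of_ne h', MvPolynomial.coeff_zero, mul_zero]
    rw [MvPolynomial.mem_support_iff, Pi.sub_apply, MvPolynomial.coeff_sub, Finset.sum_apply,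
      MvPolynomial.coeff_sum] at he
    simp only [h1] at he
    by_cases hj : ∃ j, g j = (i, e 0, e 1)
    · obtain ⟨j, hj⟩ := hj
      rw [Finset.sum_eq_single j (fun j' _ hne => if_neg fun h => hne (hinj (h.trans hj.symm)))
        (by simp), if_pos hj, sub_self] at he
      exact absurd rfl he
    · rw [Finset.sum_eq_zero fun j _ => if_neg fun h => hj ⟨j, h⟩, sub_zero] at he
      exact (hcov i _ _ (mem_Wt_iff.1 (hd i) e (MvPolynomial.mem_support_iff.2 he))).resolve_left hj
  obtain ⟨Y, hY⟩ := naka_det Z C l hl hC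
  have hB : ∀ k, ∑ j, (MvPolynomial.C
      (MvPolynomial.coeff (ex (g j).2.1 (g j).2.2) (c k (g j).1)) : PP) • u j ∈ N ⊔ m • D := by
    intro k
    have h1 : c k ∈ N ⊔ m • D := Submodule.mem_sup_left (by
      rw [hN, Submodule.mem_comap, hφa]
      exact hJ k)
    have h2 := sub_mem h1 (Submodule.mem_sup_right (hA (c k) (hW k)))
    rwa [sub_sub_cancel] at h2
  have hU : ∀ i, u i ∈ N ⊔ m • D := by
    intro i
    have h1 := Submodule.sum_mem (N ⊔ m • D) (t := Finset.univ) fun k _ =>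
      Submodule.smul_mem _ (MvPolynomial.C (Y i k * w) : PP) (hB k)
    simp only [Finset.smul_sum, smul_smul, ← map_mul, mul_assoc, hZ] at h1
    rw [Finset.sum_comm] at h1
    simp only [← Finset.sum_smul, ← map_sum, hY] at h1
    rw [Finset.sum_eq_single i (fun j _ hne => by rw [if_neg hne.symm, map_zero, zero_smul])
      (by simp), if_pos rfl, map_one, one_smul] at h1
    exact h1
  have hle : D ≤ N ⊔ m • D := by
    intro d hd
    have h1 := add_mem (Submodule.mem_sup_right (S := N) (hA d fun i => hd i (Set.mem_univ i)))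
      (Submodule.sum_mem (N ⊔ m • D) (t := Finset.univ) fun j _ => Submodule.smul_mem _
        (MvPolynomial.C (MvPolynomial.coeff (ex (g j).2.1 (g j).2.2) (d (g j).1)) : PP) (hU j))
    rwa [sub_add_cancel] at h1
  obtain ⟨r, hr, hrD⟩ := Submodule.exists_sub_one_mem_and_smul_le_of_fg_of_le_sup
    (IsNoetherian.noetherian D) le_rfl hle
  refine ⟨r, ?_, fun d hd => ?_⟩
  · rw [hm, RingHom.mem_ker, map_sub, map_one, sub_eq_zero] at hr
    exact hr
  · have h1 := hrD (Submodule.smul_mem_pointwise_smul d r D fun i _ => hd i)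
    rw [hN, Submodule.mem_comap, map_smul, hφa, Algebra.smul_def] at h1
    exact h1

end Crest.Agent.R278
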