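import Crest.Agent.R278.ChkE1
import Crest.Agent.R278.ChkE2
import Crest.Agent.R278.ChkT
import Crest.Agent.R278.ChkS
import Crest.Agent.R278.KDig
import Crest.Agent.R278.Naka

set_option autoImplicit false

namespace Crest.Agent.R278

section rel

variable {α β : Type} {o : Ops α} {o' : Ops β} {R : α → β → Prop}

theorem nOf_rel (H : Hom o o' R) : RN8 R (nOf o) (nOf o') := n8_rel (pq_rel H) _
theorem npOf_rel (H : Hom o o' R) : RN8 R (npOf o) (npOf o') := n8_rel (pqP_rel H) _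
theorem ngOf_rel (H : Hom o o' R) : RN8 R (ngOf o) (ngOf o') := n8_rel (pqG_rel H) _
theorem sOf_rel (H : Hom o o' R) : RSD R (sOf o) (sOf o') := sd_rel (pl_rel H) _
theorem vOf_rel (H : Hom o o' R) (d : V5 (V6 PD)) : RV5 (RV6 R) (vOf o d) (vOf o' d) :=
  v5_rel (v6_rel (pl_rel H)) _
theorem kOf_rel (H : Hom o o' R) (d : V5 (V5 (V6 PD))) :
    RV5 (RV5 (RV6 R)) (kOf o d) (kOf o' d) := v5_rel (vOf_rel H) _
theorem eOf_rel (H : Hom o o' R) (d : V5 (V6 PD)) (k : V5 (V5 (V6 PD))) :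
    RS10 (RV6 R) (eOf o d k) (eOf o' d k) :=
  eMat_rel H (nOf_rel H) (npOf_rel H) (ngOf_rel H) (vOf_rel H d) (kOf_rel H k)
theorem jOf_rel (H : Hom o o' R) (c : V5 (V6 PD)) : RV5 (RV6 R) (jOf o c) (jOf o' c) :=
  cJ_rel H (nOf_rel H) (npOf_rel H) (ngOf_rel H) (vOf_rel H c)

theorem baseG_rel (H : Hom o o' R) {j0 j1 j2 j3 j4 : V5 α} {j0' j1' j2' j3' j4' : V5 β}
    (h0 : RV5 R j0 j0') (h1 : RV5 R j1 j1') (h2 : RV5 R j2 j2') (h3 : RV5 R j3 j3')
    (h4 : RV5 R j4 j4') {w : α} {w' : β} (hw : R w w') (b : ℕ) :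
    R (baseG o j0 j1 j2 j3 j4 w b) (baseG o' j0' j1' j2' j3' j4' w' b) := by
  have hz := H.cst 0
  have ho := H.cst 1
  have ht := H.cst 2
  have hn := H.neg (H.cst 1)
  unfold baseG
  split <;> first
    | (apply dl_rel H <;> assumption)
    | (apply H.mul hw; apply dl_rel H <;> assumption)

theorem bOf_rel (H : Hom o o' R) (b : ℕ) : RV6 R (bOf o b) (bOf o' b) :=
  baseG_rel (oA_hom H (nOf_rel H)) (jOf_rel H _) (jOf_rel H _) (jOf_rel H _) (jOf_rel H _)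
    (jOf_rel H _) (v6_rel (pl_rel H) _) b

theorem thOf_rel (H : Hom o o' R) (k i : ℕ) : R (thOf o k i) (thOf o' k i) :=
  mon_rel H _ _ ((co_rel H (sOf_rel H) (bOf_rel H _)).nth i)

theorem dtOf_rel (H : Hom o o' R) (a b : V5 (V6 PD)) : R (dtOf o a b) (dtOf o' a b) :=
  (cDet_rel H (nOf_rel H) (vOf_rel H a) (vOf_rel H b)).2.2.2.1

theorem chOf_rel (H : Hom o o' R) : RV6 R (chOf o) (chOf o') :=
  shift_rel H (chi_rel H (nOf_rel H)) (pl_rel H _)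

end rel

theorem tt_le (i : ℕ) : tt i ≤ 22 := by
  unfold tt; split <;> omega

theorem vanE_spec {P : KP} (hP : P.good = true) (ha : P.a = 9) (hb : P.b = 28) {e : V6 PP}
    {e' : V6 KN} (h : RV6 (KRel P) e e') (hv : vanE P e' = true) (i : Fin 6) :
    (co (oP P.Q) (sOf (oP P.Q)) e).get i ∈ Wt (tt i + 3) := by
  rw [V6.get_eq]
  refine mem_Wt_of_arc _ (by have := tt_le i; omega) fun k hk => ?_
  have := kvan_spec hP ((co_rel (khom hP) (sOf_rel (khom hP)) h).nth i) (allTo_spec hv i i.2)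
    (k := k) hk
  rwa [ha, hb] at this

theorem eChk_spec {P : KP} (ha : P.a = 9) (hb : P.b = 28) {d : V5 (V6 PD)}
    {k : V5 (V5 (V6 PD))} (h : eChk P d k = true) :
    S10.All (fun e => ∀ i : Fin 6, (co (oP P.Q) (sOf (oP P.Q)) e).get i ∈ Wt (tt i + 3))
      (eOf (oP P.Q) d k) := by
  simp only [eChk, Bool.and_eq_true] at h
  obtain ⟨⟨⟨⟨⟨⟨⟨⟨⟨⟨hP, h1⟩, h2⟩, h3⟩, h4⟩, h5⟩, h6⟩, h7⟩, h8⟩, h9⟩, h10⟩ := h
  obtain ⟨r1, r2, r3, r4, r5, r6, r7, r8, r9, r10⟩ := eOf_rel (khom hP) d k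
  exact ⟨vanE_spec hP ha hb r1 h1, vanE_spec hP ha hb r2 h2, vanE_spec hP ha hb r3 h3,
    vanE_spec hP ha hb r4 h4, vanE_spec hP ha hb r5 h5, vanE_spec hP ha hb r6 h6,
    vanE_spec hP ha hb r7 h7, vanE_spec hP ha hb r8 h8, vanE_spec hP ha hb r9 h9,
    vanE_spec hP ha hb r10 h10⟩

theorem nz_spec {P : KP} (hP : P.good = true) {f : PP} {x : KN} (h : KRel P f x) {T k : ℕ}
    (hc : nz P T x k = true) (hk : k < T) : (arc P.a P.b f).coeff k ≠ 0 := by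
  simp only [nz, Bool.and_eq_true, Bool.not_eq_true'] at hc
  have h1 := kdn_spec hP h hc.1 hk
  intro h0
  rw [h0, mul_zero] at h1
  have h2 : ((kdn P 0 T x k : ℤ) - 2 ^ (P.s - 1) : ℤ) = 0 := by exact_mod_cast h1.symm
  have h3 : kdn P 0 T x k = 2 ^ (P.s - 1) := by
    have : (kdn P 0 T x k : ℤ) = 2 ^ (P.s - 1) := by linarith
    exact_mod_cast this
  have h4 := Nat.ne_of_beq_eq_false hc.2
  exact h4 h3

theorem cc_arc (f : PP) : MvPolynomial.constantCoeff f = (arc 9 28 f).coeff 0 := by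
  have := coeff_arc f (i := 0) (j := 0) (by norm_num)
  simpa [ex, MvPolynomial.constantCoeff_eq] using this

theorem sChk_spec {P : KP} (ha : P.a = 9) (hb : P.b = 28) {a b : V5 (V6 PD)}
    (h : sChk P a b = true) :
    MvPolynomial.constantCoeff (dtOf (oP P.Q) a b) ≠ 0 ∧ (nOf (oP P.Q)).n1 ≠ 0 ∧
    MvPolynomial.constantCoeff (nOf (oP P.Q)).n1 = 0 ∧
    MvPolynomial.constantCoeff (nOf (oP P.Q)).n2 = 0 ∧
    MvPolynomial.constantCoeff (nOf (oP P.Q)).n3 = 0 ∧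
    MvPolynomial.constantCoeff (nOf (oP P.Q)).n4 = 0 ∧
    MvPolynomial.constantCoeff (nOf (oP P.Q)).n5 = 0 ∧
    MvPolynomial.constantCoeff (nOf (oP P.Q)).n6 = 0 ∧
    MvPolynomial.constantCoeff (nOf (oP P.Q)).n7 = 0 ∧
    MvPolynomial.constantCoeff (nOf (oP P.Q)).n8 = 0 := by
  simp only [sChk, Bool.and_eq_true] at h
  obtain ⟨⟨⟨⟨⟨⟨⟨⟨⟨⟨hP, h1⟩, h2⟩, h3⟩, h4⟩, h5⟩, h6⟩, h7⟩, h8⟩, h9⟩, h10⟩ := h
  obtain ⟨r1, r2, r3, r4, r5, r6, r7, r8⟩ := nOf_rel (khom hP)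
  have hv : ∀ {f : PP} {x : KN}, KRel P f x → kvan P 0 1 x = true →
      MvPolynomial.constantCoeff f = 0 := fun hf hx => by
    have := kvan_spec hP hf hx (k := 0) one_pos
    rwa [ha, hb, ← cc_arc] at this
  refine ⟨?_, ?_, hv r1 h3, hv r2 h4, hv r3 h5, hv r4 h6, hv r5 h7, hv r6 h8, hv r7 h9, hv r8 h10⟩
  · have := nz_spec hP (dtOf_rel (khom hP) a b) h1 one_pos
    rwa [ha, hb, ← cc_arc] at this
  · have := nz_spec hP r1 h2 (by norm_num)
    intro h0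
    rw [h0] at this
    simp at this

theorem cChk_spec {P : KP} (ha : P.a = 2) (hb : P.b = 7) (h : cChk P = true) :
    (∀ i : Fin 6, ∀ k ≤ 6 * (6 - (i : ℕ)), (arc 2 7 ((chOf (oP P.Q)).get i)).coeff k = 0) ∧
      (arc 2 7 ((chOf (oP P.Q)).get 0)).coeff 37 ≠ 0 := by
  simp only [cChk, Bool.and_eq_true] at h
  obtain ⟨⟨hP, h1⟩, h2⟩ := h
  refine ⟨fun i k hk => ?_, ?_⟩
  · rw [V6.get_eq]
    have := kvan_spec hP ((chOf_rel (khom hP)).nth i) (allTo_spec h2 i i.2) (k := k)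
      (Nat.lt_succ_of_le hk)
    rwa [ha, hb] at this
  · have := nz_spec hP (chOf_rel (khom hP)).1 h1 (by norm_num)
    rwa [ha, hb] at this

/-- The generators of the filtration step. -/
def gF (j : Fin 42) : Fin 6 × ℕ × ℕ := (⟨glI j % 6, Nat.mod_lt _ (by norm_num)⟩, glA j, glB j)

theorem gF_fst (j : Fin 42) : ((gF j).1 : ℕ) = glI j := by
  revert j; decide +kernel

theorem gF_inj : Function.Injective gF := by
  intro a b; revert a b; decide +kernel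

theorem gF_wt : ∀ j, tt (gF j).1 ≤ (gF j).2.1 + 3 * (gF j).2.2 ∧
    (gF j).2.1 + 3 * (gF j).2.2 < tt (gF j).1 + 3 := by
  decide +kernel

theorem gF_cov1 : ∀ (i : Fin 6) (a : Fin 25) (b : Fin 9), tt i ≤ a + 3 * (b : ℕ) →
    (∃ j, gF j = (i, (a : ℕ), (b : ℕ))) ∨
    (1 ≤ (a : ℕ) ∧ tt i + 1 ≤ a + 3 * (b : ℕ)) ∨ (1 ≤ (b : ℕ) ∧ tt i + 3 ≤ a + 3 * (b : ℕ)) := by
  set_option synthInstance.maxSize 1000 in
  decide +kernel

theorem gF_cov0 (i : Fin 6) (a : ℕ) (ha : a < 25) (b : ℕ) (hb : b < 9) : tt i ≤ a + 3 * b →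
    (∃ j, gF j = (i, a, b)) ∨
    (1 ≤ a ∧ tt i + 1 ≤ a + 3 * b) ∨ (1 ≤ b ∧ tt i + 3 ≤ a + 3 * b) :=
  gF_cov1 i ⟨a, ha⟩ ⟨b, hb⟩

theorem gF_cov (i : Fin 6) (a b : ℕ) (h : tt i ≤ a + 3 * b) : (∃ j, gF j = (i, a, b)) ∨
    (1 ≤ a ∧ tt i + 1 ≤ a + 3 * b) ∨ (1 ≤ b ∧ tt i + 3 ≤ a + 3 * b) := by
  have := tt_le i
  by_cases ha : a < 25
  · by_cases hb : b < 9
    · exact gF_cov0 i a ha b hb h
    · right; right; omega
  · right; left; omega

theorem tChk_spec {P : KP} (ha : P.a = 9) (hb : P.b = 28) (h : tChk P = true)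
    {A : Type} [CommRing A] [Algebra PP A] (J : Ideal A) (f : Fin 6 → A)
    (hJ : ∀ k : ℕ, ∑ i : Fin 6, algebraMap PP A (thOf (oP P.Q) k i) * f i ∈ J) :
    ∃ h : PP, MvPolynomial.constantCoeff h = 1 ∧ ∀ d : Fin 6 → PP,
      (∀ i : Fin 6, d i ∈ Wt (tt i)) →
      algebraMap PP A h * ∑ i, algebraMap PP A (d i) * f i ∈ J := by
  simp only [tChk, Bool.and_eq_true] at h
  obtain ⟨⟨hP, h1⟩, h2⟩ := h
  have hQ : (P.Q : ℂ) ^ 1 ≠ 0 := by
    simp only [KP.good, Bool.and_eq_true, Nat.ble_eq] at hP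
    have : P.Q ≠ 0 := by omega
    exact pow_ne_zero _ (by exact_mod_cast this)
  have hc : ∀ k < 42, ∀ i < 6, kcond P 1 (9 * (tt i + 3)) (thOf (oK P) k i) = true ∧
      kvan P 1 (9 * tt i) (thOf (oK P) k i) = true := fun k hk i hi => by
    have := allTo_spec (allTo_spec h1 k hk) i hi
    rwa [Bool.and_eq_true] at this
  refine naka J f (fun i => tt i) gF gF_inj (fun j => (gF_wt j).1) gF_cov
    (fun k i => thOf (oP P.Q) k i) (fun k => hJ k) (fun k i => ?_)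
    (fun k j => (zN P k j : ℤ) - 2 ^ (P.s - 1)) ((P.Q : ℂ) ^ 1) hQ (fun k j => ?_)
    (fun i k => (cM' i k : ℤ)) 103 (by norm_num) (fun i j => ?_)
  · refine mem_Wt_of_arc _ (by have := tt_le i; omega) fun m hm => ?_
    have := kvan_spec hP (thOf_rel (khom hP) k i) (hc k k.2 i i.2).2 hm
    rwa [ha, hb] at this
  · have hw := (gF_wt j).2
    have h9 : (gF j).2.2 < 9 := by have := tt_le (gF j).1; omega
    rw [coeff_arc _ (by have := tt_le (gF j).1; omega)]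
    have := kdn_spec hP (thOf_rel (khom hP) k (gF j).1) (hc k k.2 _ (gF j).1.2).1
      (k := 9 * (gF j).2.1 + 28 * (gF j).2.2) (by omega)
    rw [ha, hb] at this
    rw [this, gF_fst]
    rfl
  · have h3 := Nat.eq_of_beq_eq_true (allTo_spec (allTo_spec h2 i i.2) j j.2)
    rw [sumTo_eq, ← Fin.sum_univ_eq_sum_range (fun k => Nat.mul (cM' i k) (zM P k j)) 42] at h3
    have h4 : ∀ k : Fin 42, (cM' i k : ℤ) * ((zN P k j : ℤ) - 2 ^ (P.s - 1)) ≡
        ((Nat.mul (cM' i k) (zM P k j) : ℕ) : ℤ) [ZMOD (103 : ℕ)] := fun k => by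
      rw [Nat.mul_eq, Nat.cast_mul]
      refine Int.ModEq.mul_left _ ?_
      have hlt : 2 ^ (P.s - 1) % 103 < 103 := Nat.mod_lt _ (by norm_num)
      have e : (zM P k j : ℤ) = (zN P k j : ℤ) % 103 + (103 - (2 : ℤ) ^ (P.s - 1) % 103) := by
        change ((zN P k j % 103 + (103 - 2 ^ (P.s - 1) % 103) : ℕ) : ℤ) = _
        rw [Nat.cast_add, Nat.cast_sub hlt.le]
        push_cast
        ring
      rw [e]
      unfold Int.ModEq
      generalize (zN P k j : ℤ) = u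
      generalize (2 : ℤ) ^ (P.s - 1) = w
      push_cast
      omega
    refine (Int.ModEq.sum fun k _ => h4 k).trans ?_
    rw [← Nat.cast_sum]
    generalize (∑ k : Fin 42, Nat.mul (cM' i k) (zM P k j)) = S at h3 ⊢
    have h5 : S % 103 = if i = j then 1 else 0 := by
      refine h3.trans ?_
      by_cases hij : i = j
      · subst hij; simp
      · have : Nat.beq i j = false := by
          rw [Bool.eq_false_iff]; intro hb'; exact hij (Fin.ext (Nat.eq_of_beq_eq_true hb'))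
        simp [this, hij]
    unfold Int.ModEq
    split_ifs at h5 ⊢ <;> push_cast <;> omega

end Crest.Agent.R278
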